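import Vale.Agent.P082.Fin5
import Vale.Agent.P104.Amp

/-! Recombination of rows by the similarity theorem; the finite case. -/

namespace Vale.Agent.P082

open scoped InnerProductSpace
open Finset Filter Topology

theorem sim_bound {N W E : Type*} [CStarAlgebra N] [PartialOrder N] [StarOrderedRing N]
    [AddCommGroup W] [Module ℂ W] [NormedAddCommGroup E] [InnerProductSpace ℂ E] [CompleteSpace E]
    (e : W →ₗ[ℂ] E) (T : N →ₐ[ℂ] Module.End ℂ W) {c : ℝ} (hc : 0 ≤ c)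
    (hT : ∀ a w, ‖e (T a w)‖ ≤ c * ‖a‖ * ‖e w‖) {J : Type} [Fintype J] [DecidableEq J]
    {U : CStarMatrix J J N} (hU : U ∈ unitary (CStarMatrix J J N)) (y : J → W) :
    ∑ i, ‖e (∑ j, T (U i j) (y j))‖ ^ 2 ≤ 4 * (P104.K2 c + 1) ^ 2 * ∑ j, ‖e (y j)‖ ^ 2 := by
  let e' : W →ₗ[ℂ] (LinearMap.range e).topologicalClosure := e.codRestrict _ fun w =>
    Submodule.le_topologicalClosure _ (LinearMap.mem_range_self e w)
  have hd : DenseRange e' := fun x => by
    rw [closure_subtype, ← Set.range_comp]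
    exact x.2
  have ext : ∀ f g : _ →L[ℂ] (LinearMap.range e).topologicalClosure,
      (∀ w, f (e' w) = g (e' w)) → f = g := fun f g k =>
    DFunLike.coe_injective (hd.equalizer f.continuous g.continuous (funext k))
  have k : ∀ a w, (e' ∘ₗ T a).extendOfNorm e' (e' w) = e' (T a w) := fun a =>
    LinearMap.extendOfNorm_eq hd ⟨_, hT a⟩
  let π : N →ₐ[ℂ] (_ →L[ℂ] (LinearMap.range e).topologicalClosure) :=
    { toFun a := (e' ∘ₗ T a).extendOfNorm e'
      map_one' := ext _ _ fun w => by rw [k]; simp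
      map_mul' a b := ext _ _ fun w => by rw [ContinuousLinearMap.mul_apply, k, k, k]; simp
      map_zero' := ext _ _ fun w => by rw [k]; simp
      map_add' a b := ext _ _ fun w => by rw [ContinuousLinearMap.add_apply, k, k, k]; simp
      commutes' r := ext _ _ fun w => by rw [k]; simp }
  have := P104.Rel.bound (π := π) hc (fun a => LinearMap.opNorm_extendOfNorm_le hd
    (by positivity) (hT a)) (x := fun i => e' (∑ j, T (U i j) (y j))) (y := fun j => e' (y j))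
    ⟨U, hU, fun i => (map_sum e' _ _).trans (sum_congr rfl fun j _ => (k _ _).symm)⟩
  exact this

variable {A : Type*} [CStarAlgebra A] {E : Type*} [NormedAddCommGroup E] [InnerProductSpace ℂ E]
  [CompleteSpace E] {L : A →⋆ₐ[ℂ] (E →L[ℂ] E)} {Ω : E}
variable {H : Type*} [NormedAddCommGroup H] [InnerProductSpace ℂ H] [CompleteSpace H] [VN A H]
variable {K : Set (Fn A A)} {B C a : ℝ} {z : A} {f : ℕ → A}

theorem Sys.der (h : Sys K B) {θ : Fn A A} (hθ : θ ∈ K) (a x : A) :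
    ‖jj L Ω (θ (a * x) - a * θ x)‖ ≤ 2 * dm L Ω K x * ‖a‖ :=
  four (jj L Ω ∘ₗ ((h.lin θ hθ).mk' θ ∘ₗ LinearMap.mulRight ℂ x - LinearMap.mulRight ℂ (θ x)))
    (fun u hu => by
      change ‖jj L Ω (θ (u * x) - u * θ x)‖ ≤ _
      rw [← jj_unit hu, mul_sub, ← mul_assoc, hu.1, one_mul]
      exact h.pre.le_dm (h.inv hu hθ) hθ x) a

theorem Sys.dm_of (h : Sys K B) (ct : CT L Ω z C) {θ : Fn A A} (hθ : θ ∈ K) {x y : A} {r : ℝ}
    (k : ∀ u : unitary A, ‖jj L Ω (θ (u * x) - u * y)‖ ^ 2 ≤ r) : dm L Ω K x ^ 2 ≤ 4 * r := by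
  have k3 := h.all (S := {θ' | ∀ u : unitary A, ‖jj L Ω (θ' (u * x) - u * y)‖ ^ 2 ≤ r})
    (closed_all fun u => closed_sq1 (ct.cont ((WC.ev _).sub (WC.const _))) _)
    (convex_all fun u => convex_sq1 (fun x y a b e => by
      rw [← Complex.coe_smul, ← Complex.coe_smul b, ← map_smul, ← map_smul, ← map_add,
        Complex.coe_smul, Complex.coe_smul, Fn.add_apply, Fn.smul_apply, Fn.smul_apply,
        smul_sub, smul_sub, ← add_sub_add_comm, ← add_smul, e, one_smul]) _)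
    ⟨θ, hθ, k⟩ fun w hw θ' _ k u => by
      have := k (⟨w, hw⟩ * u)
      rwa [← jj_unit hw, Submonoid.coe_mul, mul_sub, mul_assoc, mul_assoc, ← mul_assoc (star w) w,
        hw.1, one_mul] at this
  refine h.pre.dm_sq fun θ1 h1 θ2 h2 => ?_
  have b1 := k3 θ1 h1 1
  have b2 := k3 θ2 h2 1
  simp only [OneMemClass.coe_one, one_mul] at b1 b2
  have := norm_sub_le (jj L Ω (θ1 x - y)) (jj L Ω (θ2 x - y))
  rw [← map_sub, sub_sub_sub_cancel_right] at this
  nlinarith [pow_le_pow_left₀ (norm_nonneg _) this 2,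
    sq_nonneg (‖jj L Ω (θ1 x - y)‖ - ‖jj L Ω (θ2 x - y)‖)]

variable [PartialOrder A] [StarOrderedRing A]

theorem Sys.off (h : Sys K B) (ct : CT L Ω z C) {ι : Type} [Fintype ι] [DecidableEq ι] {v : ι → A}
    {o : ι} (mu : MU v (v o) z) {Q : A} {ε : ℝ} (hε : 0 < ε)
    (hb : ∀ x, v o * x = x → x * Q = 0 → dm L Ω K x ≤ ε * ‖jj L Ω x‖) {x : A} (hx : x * Q = 0) :
    dm L Ω K x ^ 2 ≤ 4 * (ε ^ 2 * (4 * (P104.K2 3 + 1) ^ 2 * ‖jj L Ω x‖ ^ 2)) := by
  obtain ⟨S, lc⟩ := h.loc mu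
  obtain ⟨θ, hθ⟩ := lc.min.ne
  have l := h.lin θ (lc.sub hθ)
  refine h.dm_of ct (lc.sub hθ) (y := θ x) fun u => ?_
  let V : Submodule ℂ A :=
    { carrier := {x | v o * x = x ∧ x * Q = 0}
      add_mem' := fun a b => ⟨by rw [mul_add, a.1, b.1], by rw [add_mul, a.2, b.2, add_zero]⟩
      zero_mem' := ⟨mul_zero _, zero_mul _⟩
      smul_mem' := fun c _ a => ⟨by rw [mul_smul_comm, a.1], by rw [smul_mul_assoc, a.2, smul_zero]⟩ }
  have hV : ∀ (a : NN v) (x : V), (a : A) * x ∈ V := fun a x =>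
    ⟨by rw [← mul_assoc, mu.nv, mul_assoc, x.2.1], by rw [mul_assoc, x.2.2, mul_zero]⟩
  let e : V × A →ₗ[ℂ] WithLp 2 (E × E) := (WithLp.linearEquiv 2 ℂ _).symm.toLinearMap ∘ₗ
    (jj L Ω ∘ₗ V.subtype).prodMap (jj L Ω)
  have he : ∀ w, ‖e w‖ ^ 2 = ‖jj L Ω w.1‖ ^ 2 + ‖jj L Ω w.2‖ ^ 2 := fun w =>
    WithLp.prod_norm_sq_eq_of_L2 _
  let T0 : NN v → Module.End ℂ (V × A) := fun a =>
    { toFun w := (⟨a * w.1, hV a w.1⟩, ε⁻¹ • (θ (a * w.1) - a * θ w.1) + a * w.2)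
      map_add' w w' := by ext <;> simp [mul_add, l.map_add]; module
      map_smul' c w := by ext <;> simp [l.map_smul]; module }
  let T : NN v →ₐ[ℂ] Module.End ℂ (V × A) :=
    { toFun := T0
      map_one' := LinearMap.ext fun w => by ext <;> simp [T0]
      map_mul' a b := LinearMap.ext fun w => by
        ext <;> simp [T0, mul_assoc, mul_add, mul_sub]; module
      map_zero' := LinearMap.ext fun w => by ext <;> simp [T0, l.map_zero]
      map_add' a b := LinearMap.ext fun w => by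
        ext <;> simp [T0, add_mul, l.map_add]; module
      commutes' r := LinearMap.ext fun w => by
        ext <;> simp [T0, Algebra.algebraMap_eq_smul_one, l.map_smul] }
  have e1 : ∀ (u : A) i j, v o * (star (v i) * u * v j) = star (v i) * u * v j := fun u i j => by
    rw [← mul_assoc, ← mul_assoc, mu.ev]
  let M : A → CStarMatrix ι ι (NN v) := fun u i j =>
    ⟨am v (star (v i) * u * v j) + if i = j then 1 - z else 0, add_mem
      (mu.am_mem (e1 u i j) (by rw [mul_assoc, mu.ve])) (by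
        split_ifs
        exacts [mem_NN.2 fun _ _ => (ct.cp.one_sub.2 _).symm, zero_mem _])⟩
  have M1 : ∀ u, star (M u) = M (star u) := fun u => by
    ext i j
    change star (am v _ + _) = am v _ + _
    simp [am_star, mul_assoc, apply_ite star, pj_st ct.cp.1, eq_comm]
  have M2 : ∀ u u', u * u' = 1 → M u * M u' = 1 := fun u u' k => by
    ext i j
    have z1 : ∀ a, am v a * (1 - z) = 0 := fun a => osub_r.2 (mu.am_z a)
    have z2 : ∀ a, (1 - z) * am v a = 0 := fun a => by rw [ct.cp.one_sub.2, z1]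
    change (NN v).subtype (∑ k, M u i k * M u' k j) = (NN v).subtype (if i = j then 1 else 0)
    simp only [map_sum, map_mul, StarSubalgebra.subtype_apply, M, add_mul, mul_add, mul_ite,
      ite_mul, z1, z2, pj_sq ct.cp.one_sub.1, mul_zero, zero_mul, ite_self, add_zero, zero_add,
      sum_add_distrib, mu.am_mul _ (e1 _ _ _), am_sum]
    simp only [mul_assoc, ← mul_sum]
    simp only [← mul_assoc (v _), ← sum_mul, mu.sum]
    rw [← mul_assoc z, ct.cp.2, mul_assoc, mu.zv, ← mul_assoc u, k, one_mul, mu.orth]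
    split_ifs with e
    · simp [e, mu.am_one]
    · simp [e, am]
  have := sim_bound e T (c := 3) (by norm_num) (fun a w => by
    rw [← sq_le_sq₀ (norm_nonneg _) (by positivity), mul_pow, he, he]
    have b1 := jj_le (L := L) (Ω := Ω) a w.1
    have b2 := jj_le (L := L) (Ω := Ω) a w.2
    have b3 := (h.der (L := L) (Ω := Ω) (lc.sub hθ) a w.1).trans (mul_le_mul_of_nonneg_right
      (mul_le_mul_of_nonneg_left (hb w.1 w.1.2.1 w.1.2.2) zero_le_two) (norm_nonneg _))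
    have b4 : ‖jj L Ω (T a w).2‖ ≤ 2 * (‖(a : A)‖ * ‖jj L Ω w.1‖) + ‖(a : A)‖ * ‖jj L Ω w.2‖ := by
      change ‖jj L Ω (ε⁻¹ • (θ (a * w.1) - a * θ w.1) + a * w.2)‖ ≤ _
      rw [map_add, ← Complex.coe_smul, map_smul]
      refine (norm_add_le _ _).trans (add_le_add ?_ b2)
      rw [norm_smul, Complex.norm_real, Real.norm_of_nonneg (by positivity), inv_mul_le_iff₀ hε]
      linarith
    change ‖jj L Ω (a * w.1)‖ ^ 2 + _ ≤ (3 * ‖(a : A)‖) ^ 2 * _
    nlinarith [pow_le_pow_left₀ (norm_nonneg _) b1 2, pow_le_pow_left₀ (norm_nonneg _) b4 2,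
      sq_nonneg (‖(a : A)‖ * ‖jj L Ω w.1‖ - ‖(a : A)‖ * ‖jj L Ω w.2‖),
      sq_nonneg (‖(a : A)‖ * ‖jj L Ω w.1‖), sq_nonneg (‖(a : A)‖ * ‖jj L Ω w.2‖)])
    (U := M u) ⟨by rw [M1, M2 _ _ u.2.1], by rw [M1, M2 _ _ u.2.2]⟩
    fun j => (⟨star (v j) * x, by rw [← mul_assoc, mu.ev], by rw [mul_assoc, hx, mul_zero]⟩, 0)
  simp only [he, map_zero, norm_zero, zero_pow two_ne_zero, add_zero, ct.mu mu] at this
  refine le_trans ?_ (mul_le_mul_of_nonneg_left this (sq_nonneg ε))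
  rw [← ct.mu mu, mul_sum]
  refine sum_le_sum fun i _ => le_trans (le_of_eq ?_) (mul_le_mul_of_nonneg_left
    (le_add_of_nonneg_left (sq_nonneg _)) (sq_nonneg _))
  have b1 : ∀ y, ∑ j, M u i j * (star (v j) * y) = star (v i) * (u * y) := fun y => by
    have : ∀ j, (1 - z) * (star (v j) * y) = 0 := fun j => by
      rw [← mul_assoc, ct.cp.one_sub.2, osub_r.2 (mu.vz j), zero_mul]
    have b : ∀ j, v o * (star (v j) * y) = star (v j) * y := fun j => by rw [← mul_assoc, mu.ev]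
    simp only [M, add_mul, ite_mul, this, zero_mul, ite_self, add_zero, mu.am_act (e1 _ _ _) (b _)]
    simp only [mul_assoc, ← mul_sum]
    simp only [← mul_assoc (v _), ← sum_mul, mu.sum]
    rw [← mul_assoc (u : A), ← ct.cp.2, ← mul_assoc, ← mul_assoc, mu.vz, mul_assoc]
  rw [Prod.snd_sum]
  change _ = _ * ‖jj L Ω (∑ j, (ε⁻¹ • (θ (M u i j * (star (v j) * x))
    - M u i j * θ (star (v j) * x)) + M u i j * 0))‖ ^ 2
  simp only [mul_zero, add_zero, ← smul_sum, sum_sub_distrib, ← IsLinearMap.sum l, lc.m2 mu hθ, b1]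
  rw [← mul_sub, ← Complex.coe_smul, map_smul, norm_smul, Complex.norm_real, mul_pow,
    Real.norm_of_nonneg (by positivity), ← mul_assoc, ← mul_pow, mul_inv_cancel₀ hε.ne', one_pow,
    one_mul]

theorem Sc.bound (sc : Sc L Ω K z C a f) (h : Sys K B) (ct : CT L Ω z C) (i j : ℕ) {x : A}
    (hx : ‖x‖ ≤ 1) : dm L Ω K x ^ 2 ≤ 12 * a * C * ‖Ω‖ ^ 2 * (1 / (i + 1)) +
      (3 * (16384 * a * C ^ 4 * (P104.K2 3 + 1) ^ 2 * ‖Ω‖ ^ 2) * (1 / (j + 1)) +
        12 * B ^ 2 * C ^ 4 * 4 ^ (i + 1) * ‖Ω‖ ^ 2 * (1 / 2) ^ j) := by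
  have C0 := ct.C0
  have a0 := sc.a0
  have B0 := h.nn
  obtain ⟨Q, hQ, q1, q2⟩ := sc.small h ct j
  obtain ⟨ι, _, _, v, o, mu, e⟩ := sc.mu j
  have n1 : ∀ p, IsStarProjection p → ‖x * p‖ ≤ 1 := fun p hp =>
    (norm_mul_le _ _).trans (mul_le_one₀ hx (norm_nonneg _) hp.norm_le)
  have b1 := h.off ct mu (ε := √(512 * (a * (2 / (j + 1))) * C ^ 4)) (by positivity)
    (fun y k1 k2 => by
      rw [← Real.sqrt_sq (norm_nonneg (jj L Ω y)), ← Real.sqrt_mul (by positivity)]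
      refine Real.le_sqrt_of_sq_le (sc.l2 h ct q2 (fun J => ?_) (e ▸ k1) k2)
      have := sum_Ioo_inv_sq_le (α := ℝ) j (J + 1)
      rw [← Ico_add_one_left_eq_Ioo, ← sum_Ico_add'] at this
      simp only [div_eq_mul_inv a, ← mul_sum]
      exact mul_le_mul_of_nonneg_left (by exact_mod_cast this) a0.le)
    (x := x * (1 - Q)) (by rw [mul_assoc, hQ.one_sub_mul_self, mul_zero])
  rw [Real.sq_sqrt (by positivity)] at b1
  have b2 : ‖jj L Ω (x * (1 - Q))‖ ^ 2 ≤ ‖Ω‖ ^ 2 := pow_le_pow_left₀ (norm_nonneg _)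
    ((jj_le' _).trans (mul_le_of_le_one_left (norm_nonneg _) (n1 _ hQ.one_sub))) 2
  obtain ⟨c, hc, c1, c2⟩ := compare hQ (sc.pj i)
  obtain ⟨w, w1, -, w3, -, w5⟩ := polar (star (x * Q))
  rw [star_star] at w3
  obtain ⟨η, d1, d2, -, d4⟩ := h.move (L := L) (Ω := Ω) (x := x * Q * c)
    ((Sb.cut ⟨w, rfl, w1, osub_l.1 (w5 _ (by
      rw [star_mul, pj_st hQ, ← mul_assoc, hQ.one_sub_mul_self, zero_mul]))⟩ hc).trans c1)
    (by rw [hc.mm, w3])
  have d5 := sc.blocks h cp_one (j := i) (fun _ : Unit => η) univ (by simpa using d1) fun ζ => by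
    rw [mul_assoc] at d2
    simpa using pow_le_pow_left₀ (norm_nonneg _) ((rho_le η ζ).trans (mul_le_of_le_one_left
      (norm_nonneg _) (d2.trans (n1 _ (hc.pj hQ))))) 2
  have d6 := sc.t1 i 1 cp_one
  have d7 : dm L Ω K η ^ 2 ≤ a * C * ‖Ω‖ ^ 2 * (1 / (i + 1)) := by
    simp only [univ_unique, sum_singleton, card_singleton, Nat.cast_one] at d5
    refine d5.trans (le_of_le_of_eq (b := a / (i + 1) * (C * ‖Ω‖ ^ 2)) ?_ (by ring))
    rw [← ta_one (L := L)]
    refine mul_le_mul (div_le_div_of_nonneg_left a0.le (by positivity) (by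
      nlinarith [(by positivity : (0 : ℝ) ≤ i)])) (le_trans (mul_le_mul_of_nonneg_right ?_
        (ta_pj0 (cp_one.pj (sc.pj i)))) d6) (mul_nonneg (by positivity)
          (ta_pj0 (cp_one.pj (sc.pj i)))) (by positivity)
    rw [show (4 : ℝ) ^ (i + 1) = 4 * (2 ^ i * 2 ^ i) by rw [← mul_pow, pow_succ']; norm_num]
    nlinarith [one_le_pow₀ (M₀ := ℝ) one_le_two (n := i)]
  have g1 := h.dm_cen (L := L) (Ω := Ω) hc.one_sub (x * Q)
  have g2 := (sc.t2 i _ hc.one_sub).trans (mul_le_mul_of_nonneg_left (mul_le_mul_of_nonneg_left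
    ((ct.sb hQ c2).trans (mul_le_mul_of_nonneg_left q1 C0.le)) (by positivity)) C0.le)
  have g3 := g1.trans (mul_le_mul (pow_le_pow_left₀ (by positivity) (mul_le_of_le_one_right
    (by positivity) (n1 Q hQ)) 2) g2 (ta_pj0 hc.one_sub.1) (by positivity))
  have t : dm L Ω K x ≤ dm L Ω K (x * (1 - Q)) +
      (dm L Ω K (x * Q * c) + dm L Ω K (x * Q * (1 - c))) :=
    le_trans (le_of_eq_of_le (by congr 1; noncomm_ring) (h.pre.dm_add _ _))
      (add_le_add_right (h.pre.dm_add _ _) _)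
  have b3 := mul_le_mul_of_nonneg_left b2
    (show 0 ≤ 16384 * a * C ^ 4 * (P104.K2 3 + 1) ^ 2 * (1 / (j + 1)) by positivity)
  have t2 := pow_le_pow_left₀ (h.pre.dm_nn _) t 2
  have b4 : dm L Ω K (x * (1 - Q)) ^ 2
      ≤ 16384 * a * C ^ 4 * (P104.K2 3 + 1) ^ 2 * (1 / (j + 1)) * ‖Ω‖ ^ 2 :=
    (b1.trans_eq (by ring)).trans b3
  generalize dm L Ω K (x * (1 - Q)) = p1 at t2 b4
  generalize dm L Ω K (x * Q * c) = p2 at t2 d4
  generalize dm L Ω K (x * Q * (1 - c)) = p3 at t2 g3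
  nlinarith [sq_nonneg (p1 - p2), sq_nonneg (p1 - p3), sq_nonneg (p2 - p3)]

theorem Sys.typeII (h : Sys K B) (ct : CT L Ω z C) (hz : ∀ r, Ab r → z * r = r → r = 0) :
    Good K z := by
  obtain ⟨a, f, sc⟩ := exists_sc h ct hz
  have k1 : ∀ x : A, ‖x‖ ≤ 1 → dm L Ω K x ≤ 0 := fun x hx => by
    have t1 := tendsto_one_div_add_atTop_nhds_zero_nat (𝕜 := ℝ)
    have t2 := tendsto_pow_atTop_nhds_zero_of_lt_one (r := (1 / 2 : ℝ)) (by norm_num) (by norm_num)
    have := ge_of_tendsto' (t1.const_mul (12 * a * C * ‖Ω‖ ^ 2)) fun i => by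
      simpa using ge_of_tendsto' (((t1.const_mul _).add (t2.const_mul _)).const_add _)
        fun j => sc.bound h ct i j hx
    nlinarith [h.pre.dm_nn (L := L) (Ω := Ω) x]
  intro θ hθ b x
  have n0 : 0 < ‖x‖ + 1 := by positivity
  have k2 := h.dm_mul (L := L) (Ω := Ω) ((‖x‖ + 1) • 1) ((‖x‖ + 1)⁻¹ • x)
  rw [smul_mul_assoc, one_mul, smul_inv_smul₀ n0.ne', le_antisymm (k1 ((‖x‖ + 1)⁻¹ • x) (by
    rw [norm_smul, norm_inv, Real.norm_of_nonneg n0.le, inv_mul_le_iff₀ n0]; linarith))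
    (h.pre.dm_nn _), mul_zero, zero_mul] at k2
  have k3 := h.der (L := L) (Ω := Ω) hθ b x
  rw [le_antisymm k2 (h.pre.dm_nn _), mul_zero, zero_mul, norm_le_zero_iff] at k3
  have := ct.faith _ k3
  rwa [sub_mul, sub_eq_zero, mul_assoc, ← ct.cp.2, ← ct.cp.2] at this

theorem Sys.fin (h : Sys K B) {q : A} (hf : Fi q) (hq : CP q) : Good K q :=
  good_exhaust hq fun c hc h0 e => by
    have hf' : Fi c := fun p hp k => hf p hp (by rw [← k, ← mul_assoc, e])
    by_cases k : ∃ r, Ab r ∧ c * r = r ∧ r ≠ 0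
    · obtain ⟨r, h1, h2, h3⟩ := k
      exact h.typeI hf' hc h1 h3 h2
    push Not at k
    obtain ⟨z, ι, _, Ω, C, h1, h2, ct⟩ := exists_ct hf' hc h0
    exact ⟨z, ct.cp, h1, h2, h.typeII ct fun r k1 k2 => k r k1 (by rw [← k2, ← mul_assoc, h2])⟩

end Vale.Agent.P082
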