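import Vale.Agent.P082.CB2
import Vale.Agent.P082.Fin6

/-! Cochains on lists and averaging of the first variable. -/

namespace Vale.Agent.P082

open Finset

section Ring

variable {A : Type*} [Ring A]

/-- Fixing the first variable. -/
def cs (x : A) : (List A → A) →ₗ[A] (List A → A) := LinearMap.funLeft A A (x :: ·)

theorem cs_apply (x : A) (F : List A → A) (l : List A) : cs x F l = F (x :: l) := rfl

/-- Multiplying the first variable. -/
def sh (x : A) : (List A → A) →ₗ[A] (List A → A) where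
  toFun F l := List.casesOn l (F [] * x) fun w m => F (x * w :: m)
  map_add' F G := funext fun l => by cases l <;> simp [add_mul]
  map_smul' a F := funext fun l => by cases l <;> simp [mul_assoc]

theorem sh_nil (x : A) (F : List A → A) : sh x F [] = F [] * x := rfl

theorem sh_cons (x w : A) (F : List A → A) (m : List A) : sh x F (w :: m) = F (x * w :: m) := rfl

theorem sh_sh (x y : A) (F : List A → A) : sh y (sh x F) = sh (x * y) F :=
  funext fun l => by cases l <;> simp [sh_nil, sh_cons, mul_assoc]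

/-- The differential without its first term. -/
def DD : List A → (List A → A) →ₗ[A] A
  | [] => 0
  | x :: m => -(LinearMap.proj m ∘ₗ sh x) - DD m ∘ₗ cs x

theorem DD_nil (F : List A → A) : DD [] F = 0 := rfl

theorem DD_cons (x : A) (m : List A) (F : List A → A) :
    DD (x :: m) F = -sh x F m - DD m (cs x F) := rfl

theorem cs_DD (x : A) (F : List A → A) :
    cs x (fun l => DD l F) = -sh x F - fun l => DD l (cs x F) := rfl

theorem DD_sh (x : A) (F : List A → A) (m : List A) :
    DD m (sh x F) = sh x (fun l => DD l F) m := by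
  cases m with
  | nil => simp [DD_nil, sh_nil]
  | cons y l => rw [DD_cons, sh_sh, sh_cons, DD_cons]; rfl

theorem DD_DD (m : List A) (F : List A → A) : DD m (fun l => DD l F) = 0 := by
  induction m generalizing F with
  | nil => rfl
  | cons x m ih => rw [DD_cons, cs_DD, map_sub, map_neg, ih, DD_sh]; simp

/-- The differential. -/
def dd (F : List A → A) : List A → A
  | [] => 0
  | x :: l => x * F l + DD (x :: l) F

theorem dd_add (F G : List A → A) (l : List A) : dd (F + G) l = dd F l + dd G l := by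
  cases l <;> simp [dd, mul_add, add_add_add_comm]

/-- Cocycles. -/
def Co (F : List A → A) : Prop := ∀ y l, dd F (y :: l) = 0

theorem co_dd (F : List A → A) : Co (dd F) := fun y l => by
  have e : cs y (dd F) = y • F + (-sh y F - fun l => DD l (cs y F)) := rfl
  rw [dd, DD_cons, e, map_add, map_smul, ← cs_DD]
  have := DD_DD (y :: l) F
  rw [DD_cons] at this
  cases l with
  | nil => simp [dd, sh_nil, DD_nil]
  | cons w m =>
    rw [sh_cons] at this
    rw [sh_cons, dd, dd, mul_add, ← mul_assoc, smul_eq_mul, ← this]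
    abel

theorem Co.sub {F G : List A → A} (h : Co F) (h' : Co G) : Co (F - G) := fun y l => by
  have := dd_add (F - G) G (y :: l)
  rwa [sub_add_cancel, h, h', add_zero, eq_comm] at this

theorem Co.cen {F : List A → A} (h : Co F) {c : A} (hc : ∀ x, c * x = x * c) : Co (c • F) :=
  fun y l => by
    have := congrArg (c * ·) (h y l)
    simpa only [dd, map_smul, Pi.smul_apply, smul_eq_mul, mul_add, ← mul_assoc, hc y, mul_zero]
      using this

end Ring

variable {A : Type*} [CStarAlgebra A]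

section

variable {f g : A → A}

theorem lin_add (hf : IsLinearMap ℂ f) (hg : IsLinearMap ℂ g) : IsLinearMap ℂ fun x => f x + g x :=
  (hf.mk' f + hg.mk' g).isLinear

theorem lin_sub (hf : IsLinearMap ℂ f) (hg : IsLinearMap ℂ g) : IsLinearMap ℂ fun x => f x - g x :=
  (hf.mk' f - hg.mk' g).isLinear

theorem lin_neg (hf : IsLinearMap ℂ f) : IsLinearMap ℂ fun x => - f x := (-hf.mk' f).isLinear

theorem lin_lmul (hf : IsLinearMap ℂ f) (a : A) : IsLinearMap ℂ fun x => a * f x :=
  (LinearMap.mulLeft ℂ a ∘ₗ hf.mk' f).isLinear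

theorem lin_rmul (hf : IsLinearMap ℂ f) (a : A) : IsLinearMap ℂ fun x => f x * a :=
  (LinearMap.mulRight ℂ a ∘ₗ hf.mk' f).isLinear

theorem lin_comp (hf : IsLinearMap ℂ f) (hg : IsLinearMap ℂ g) : IsLinearMap ℂ fun x => f (g x) :=
  (hf.mk' f ∘ₗ hg.mk' g).isLinear

theorem lin_smul (hf : IsLinearMap ℂ f) (a : ℝ) : IsLinearMap ℂ fun x => a • f x :=
  (a • hf.mk' f).isLinear

theorem lin_id : IsLinearMap ℂ fun x : A => x := LinearMap.id.isLinear

theorem lin_sum {ι : Type*} (s : Finset ι) {f : ι → A → A} (hf : ∀ i, IsLinearMap ℂ (f i)) :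
    IsLinearMap ℂ fun x => ∑ i ∈ s, f i x :=
  ⟨fun x y => by simp only [(hf _).map_add, sum_add_distrib],
    fun c x => by simp only [(hf _).map_smul, smul_sum]⟩

end

/-- Multilinear cochains. -/
def Lin (F : List A → A) : Prop := ∀ l l', IsLinearMap ℂ fun x => F (l ++ x :: l')

section

variable {F G : List A → A}

theorem Lin.cs (h : Lin F) (x : A) : Lin (cs x F) := fun l => h (x :: l)

theorem Lin.add (h : Lin F) (h' : Lin G) : Lin (F + G) := fun l l' => lin_add (h l l') (h' l l')

theorem Lin.sub (h : Lin F) (h' : Lin G) : Lin (F - G) := fun l l' => lin_sub (h l l') (h' l l')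

theorem Lin.smul (h : Lin F) (a : A) : Lin (a • F) := fun l l' => lin_lmul (h l l') a

theorem Lin.map (h : Lin F) (T : (List A → A) →ₗ[A] A) :
    IsLinearMap ℂ fun x => T (P082.cs x F) :=
  ⟨fun x y => by rw [← map_add]; exact congrArg T (funext fun l => (h [] l).map_add x y),
    fun c x => by
      rw [← T.map_smul_of_tower]; exact congrArg T (funext fun l => (h [] l).map_smul c x)⟩

theorem Lin.sh (h : Lin F) (x : A) : Lin (sh x F) := by
  rintro (_ | ⟨w, l⟩) l'
  exacts [lin_comp (h [] l') (lin_lmul lin_id x), h (x * w :: l) l']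

theorem Lin.DD (h : Lin F) : Lin fun l => DD l F := fun l => by
  induction l generalizing F with
  | nil =>
    refine fun l' => lin_sub (lin_neg ?_) (h.map (P082.DD l'))
    cases l' with
    | nil => exact lin_lmul lin_id _
    | cons w m => exact lin_comp (h [] m) (lin_rmul lin_id w)
  | cons w l ih => exact fun l' => lin_sub (lin_neg (h.sh w l l')) (ih (h.cs w) l')

theorem Lin.dd (h : Lin F) : Lin (dd F) := by
  rintro (_ | ⟨w, l⟩) l'
  exacts [lin_add (lin_rmul lin_id _) (h.DD [] l'),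
    lin_add (lin_lmul (h l l') w) (h.DD (w :: l) l')]

end

/-- Weighted products of norms. -/
noncomputable def pn (w : ℝ) : List A → ℝ
  | [] => 1
  | x :: l => w * ‖x‖ * pn w l

theorem pn_nn {w : ℝ} (hw : 0 ≤ w) (l : List A) : 0 ≤ pn w l := by
  induction l with
  | nil => exact zero_le_one
  | cons x l ih => rw [pn]; positivity

theorem pn_mono {w w' : ℝ} (hw : 0 ≤ w) (h : w ≤ w') (l : List A) : pn w l ≤ pn w' l := by
  induction l with
  | nil => rfl
  | cons x l ih =>
    have := pn_nn hw l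
    have := hw.trans h
    rw [pn, pn]; gcongr

/-- Bounded cochains. -/
def BdC (F : List A → A) (C w : ℝ) : Prop := 0 ≤ C ∧ 1 ≤ w ∧ ∀ l, ‖F l‖ ≤ C * pn w l

section

variable {F G : List A → A} {C C' w w' : ℝ}

theorem BdC.w0 (h : BdC F C w) : 0 ≤ w := zero_le_one.trans h.2.1

theorem BdC.cs (h : BdC F C w) (x : A) : BdC (cs x F) (C * (w * ‖x‖)) w :=
  ⟨by have := h.1; have := h.w0; positivity, h.2.1, fun l => (h.2.2 _).trans_eq (by
    rw [pn]; ring)⟩

theorem BdC.add (h : BdC F C w) (h' : BdC G C' w') : BdC (F + G) (C + C') (w + w') :=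
  ⟨add_nonneg h.1 h'.1, by linarith [h.2.1, h'.w0], fun l => (norm_add_le _ _).trans (by
    linarith [h.2.2 l, h'.2.2 l, mul_le_mul_of_nonneg_left (pn_mono h.w0 (le_add_of_nonneg_right
      h'.w0) l) h.1, mul_le_mul_of_nonneg_left (pn_mono h'.w0 (le_add_of_nonneg_left h.w0) l) h'.1])⟩

theorem BdC.neg (h : BdC F C w) : BdC (-F) C w := ⟨h.1, h.2.1, fun l => by simpa using h.2.2 l⟩

theorem BdC.DD (h : BdC F C w) : BdC (fun l => DD l F) C (2 * w) :=
  ⟨h.1, by linarith [h.2.1], fun l => by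
    induction l generalizing F C with
    | nil => simpa [DD_nil, pn] using h.1
    | cons x m ih =>
      have C0 := h.1
      have w0 := h.w0
      have k : ‖sh x F m‖ ≤ C * (w * ‖x‖) * pn w m := by
        cases m with
        | nil =>
          have := mul_le_mul (h.2.2 []) (le_mul_of_one_le_left (norm_nonneg x) h.2.1)
            (norm_nonneg _) (by simpa [pn] using C0)
          simpa [pn, sh_nil] using (norm_mul_le _ _).trans this
        | cons y m =>
          refine (h.2.2 _).trans ?_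
          have := pn_nn w0 m
          have k := (norm_mul_le x y).trans (le_mul_of_one_le_left (by positivity) h.2.1)
          rw [pn, pn]
          exact (mul_le_mul_of_nonneg_left (mul_le_mul_of_nonneg_right
            (mul_le_mul_of_nonneg_left k w0) this) C0).trans_eq (by ring)
      simp only [DD_cons, pn] at ih ⊢
      refine (norm_sub_le _ _).trans ?_
      rw [norm_neg]
      linarith [ih (h.cs x), mul_le_mul_of_nonneg_left (pn_mono w0 (show w ≤ 2 * w by linarith) m)
        (h.cs x).1]⟩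

theorem BdC.dd (h : BdC F C w) : BdC (dd F) (2 * C) (2 * w) :=
  ⟨by linarith [h.1], by linarith [h.2.1], fun l => by
    cases l with
    | nil => simpa [P082.dd, pn] using h.1
    | cons x m =>
      have C0 := h.1
      have w0 := h.w0
      have k := (norm_mul_le x (F m)).trans (mul_le_mul (le_mul_of_one_le_left (norm_nonneg x)
        (show 1 ≤ 2 * w by linarith [h.2.1])) ((h.2.2 m).trans (mul_le_mul_of_nonneg_left
        (pn_mono w0 (show w ≤ 2 * w by linarith) m) C0)) (norm_nonneg _) (by positivity))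
      have k2 := h.DD.2.2 (x :: m)
      refine (norm_add_le _ _).trans ?_
      rw [pn] at k2 ⊢
      linarith⟩

end

/-- Averaging of the first variable. -/
noncomputable def bt2 (m : KF A) (Φ : Fn (A × List A) A) : Fn (A × List A) A :=
  fun p => ∑ j ∈ range m.1.1, star (m.1.2 j) * Φ (m.1.2 j * p.1, p.2)

/-- Fixing the other variables. -/
noncomputable def pr (l : List A) : Fn (A × List A) A →ₗ[ℝ] Fn A A where
  toFun Φ := fun x => Φ (x, l)
  map_add' _ _ := rfl
  map_smul' _ _ := rfl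

theorem pr_bt (m : KF A) (l : List A) (Φ : Fn (A × List A) A) :
    pr l (bt2 m Φ) = bt m (pr l Φ) := funext fun x => (bt_apply m (pr l Φ) x).symm

/-- The family of a unitary. -/
def kf (u : unitary A) : KF A := ⟨(1, fun _ => u), by simp⟩

theorem bt_kf (u : unitary A) : bt (kf u) = ac (u : A) := by simp [bt, kf]

/-- The invariant relation. -/
def Rel (φ : List A → A) (Φ : Fn (A × List A) A) : Prop :=
  (∀ l, IsLinearMap ℂ fun x => Φ (x, l)) ∧ (∀ y, Lin fun l => Φ (y, l)) ∧
    ∀ y x l, y * φ (x :: l) = Φ (y * x, l) + DD (x :: l) fun l => Φ (y, l)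

theorem Rel.fin {φ : List A → A} {Φ : Fn (A × List A) A} (h : Rel φ Φ) {q : A} (hq : CP q)
    {C w : ℝ} (hC : 0 ≤ C) (hw : 1 ≤ w) (hb : ∀ x l, ‖Φ (x, l)‖ ≤ C * pn w l * ‖x‖)
    (k : ∀ x l, q * Φ (x, l) = x * (q * Φ (1, l))) :
    ∃ g, Lin g ∧ BdC g C w ∧ ∀ x l, q * φ (x :: l) = dd g (x :: l) := by
  refine ⟨q • fun l => Φ (1, l), (h.2.1 1).smul q, ⟨hC, hw, fun l => (norm_mul_le _ _).trans
    ((mul_le_of_le_one_left (norm_nonneg _) hq.1.norm_le).trans ((hb 1 l).trans
      (mul_le_of_le_one_right (mul_nonneg hC (pn_nn (by linarith) l))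
        (IsStarProjection.one A).norm_le)))⟩, fun x l => ?_⟩
  have := h.2.2 1 x l
  rw [one_mul, one_mul] at this
  rw [this, mul_add, k, dd, map_smul]
  rfl

variable {H : Type*} [NormedAddCommGroup H] [InnerProductSpace ℂ H] [CompleteSpace H] [VN A H]

theorem wc_DD {α : Type*} [TopologicalSpace α] (m : List A) {F : α → List A → A}
    (h : ∀ l, WC fun t => F t l) : WC fun t => DD m (F t) := by
  induction m generalizing F with
  | nil => exact WC.const 0
  | cons x m ih =>
    refine (WC.neg ?_).sub (ih fun l => h _)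
    cases m
    exacts [(h _).rmul _, h _]

theorem closed_lin {α : Type*} [TopologicalSpace α] {f : α → A → A}
    (h : ∀ x, WC fun t => f t x) : IsClosed {t | IsLinearMap ℂ (f t)} := by
  rw [show {t | IsLinearMap ℂ (f t)} = {t | ∀ x y, f t (x + y) = f t x + f t y} ∩
    {t | ∀ (c : ℂ) x, f t (c • x) = c • f t x} from Set.ext fun t =>
      ⟨fun k => ⟨k.1, k.2⟩, fun k => ⟨k.1, k.2⟩⟩]
  exact (closed_all fun x => closed_all fun y => (h _).closed_eq ((h _).add (h _))).inter
    (closed_all fun c => closed_all fun x => (h _).closed_eq ((h _).smul c))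

theorem pr_cont (l : List A) : Continuous (pr l : Fn (A × List A) A → Fn A A) :=
  WC.fn fun _ => WC.ev _

theorem exists_mod {φ : List A → A} (h1 : Lin φ) (h2 : Co φ) {I : Type*} (m : I → KF A)
    (G : List A → Set (Fn A A)) (b : List A → ℝ) (g1 : ∀ l, IsClosed (G l))
    (g2 : ∀ l, Convex ℝ (G l)) (g3 : ∀ l, ∀ θ ∈ G l, ∀ x, ‖θ x‖ ≤ b l * ‖x‖)
    (g4 : ∀ l i, ∀ θ ∈ G l, bt (m i) θ ∈ G l) (g5 : ∀ l, (fun x => φ (x :: l) : Fn A A) ∈ G l) :
    ∃ K, Minl (Set.range fun i => bt2 (m i)) K ∧ ∀ Φ ∈ K, Rel φ Φ ∧ ∀ l, pr l Φ ∈ G l := by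
  obtain ⟨K, k1, k2⟩ := exists_minl (Set.range fun i => bt2 (m i))
    (K0 := {Φ | Rel φ Φ ∧ ∀ l, pr l Φ ∈ G l})
    ((compact_ball fun p : A × List A => b p.2 * ‖p.1‖).of_isClosed_subset
      (((closed_all fun l => closed_lin fun x => WC.ev _).inter
        ((closed_all fun y => closed_all fun l => closed_all fun l' =>
          closed_lin fun x => WC.ev _).inter (closed_all fun y => closed_all fun x =>
            closed_all fun l => (WC.const _).closed_eq ((WC.ev _).add
              (wc_DD _ fun _ => WC.ev _))))).inter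
        (closed_all fun l => (g1 l).preimage (pr_cont l))) fun Φ k p => g3 _ _ (k.2 p.2) p.1)
    ⟨fun p => φ (p.1 :: p.2), ⟨h1 [], h1.cs, fun y x l => by
      have := h2 y (x :: l)
      rw [dd, DD_cons, sh_cons, sub_eq_add_neg, ← neg_add, add_neg_eq_zero] at this
      exact this⟩, g5⟩
    (fun Φ k Ψ k' a c ha hc e => ⟨⟨fun l => lin_add (lin_smul (k.1.1 l) _) (lin_smul (k'.1.1 l) _),
      fun y l l' => lin_add (lin_smul (k.1.2.1 y l l') _) (lin_smul (k'.1.2.1 y l l') _),
      fun y x l => by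
        rw [show (fun l => (a • Φ + c • Ψ) (y, l)) = a • (fun l => Φ (y, l)) +
          c • fun l => Ψ (y, l) from rfl, map_add, LinearMap.map_smul_of_tower,
          LinearMap.map_smul_of_tower, Fn.add_apply, Fn.smul_apply, Fn.smul_apply,
          add_add_add_comm, ← smul_add, ← smul_add, ← k.1.2.2, ← k'.1.2.2, ← add_smul, e,
          one_smul]⟩,
      fun l => by rw [map_add, map_smul, map_smul]; exact g2 l (k.2 l) (k'.2 l) ha hc e⟩) (by
      rintro _ ⟨i, rfl⟩ Φ k
      refine ⟨⟨fun l => lin_sum _ fun j => lin_lmul (lin_comp (k.1.1 l) (lin_lmul lin_id _)) _,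
        fun y l l' => lin_sum _ fun j => lin_lmul (k.1.2.1 (_ * y) l l') _, fun y x l => ?_⟩,
        fun l => (pr_bt _ l Φ).symm ▸ g4 l i _ (k.2 l)⟩
      change _ = ∑ j ∈ _, _ + DD _ fun l => bt2 (m i) Φ (y, l)
      rw [show (fun l => bt2 (m i) Φ (y, l)) = ∑ j ∈ range (m i).1.1, star ((m i).1.2 j) •
        fun l => Φ ((m i).1.2 j * y, l) from funext fun l => by simp [bt2], map_sum,
        ← sum_add_distrib, ← one_mul (y * _), ← congrArg (· * (y * φ (x :: l))) (m i).2, sum_mul]
      refine sum_congr rfl fun j _ => ?_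
      rw [map_smul, smul_eq_mul, ← mul_add, ← mul_assoc _ y x, ← k.1.2.2]
      simp only [mul_assoc])
  exact ⟨K, k2, k1⟩

variable [PartialOrder A] [StarOrderedRing A]

include H

theorem fin_case {φ : List A → A} (h1 : Lin φ) (h2 : Co φ) {C w : ℝ} (h3 : BdC φ C w) {q : A}
    (hq : CP q) (hf : Fi q) :
    ∃ g, Lin g ∧ BdC g (C * w) w ∧ ∀ x l, q * φ (x :: l) = dd g (x :: l) := by
  obtain ⟨K, k1, k2⟩ := exists_mod h1 h2 kf (fun l => {θ | ∀ x, ‖θ x‖ ≤ C * w * pn w l * ‖x‖})
    (fun l => C * w * pn w l) (fun l => closed_all fun x => (WC.ev x).closed_norm _)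
    (fun l => convex_all fun x => convex_norm (fun _ _ _ _ _ => rfl) _) (fun _ _ k => k)
    (fun l u θ k x => by
      rw [bt_kf, ac_apply, CStarRing.norm_mem_unitary_mul _ (Unitary.star_mem u.2)]
      simpa only [CStarRing.norm_mem_unitary_mul _ u.2] using k (u * x))
    fun l x => (h3.2.2 _).trans_eq (by rw [pn]; ring)
  obtain ⟨Φ, hΦ⟩ := k1.ne
  refine (k2 Φ hΦ).1.fin hq (mul_nonneg h3.1 h3.w0) h3.2.1 (fun x l => (k2 Φ hΦ).2 l x)
    fun x l => ?_
  have s : Sys (pr l '' K) (C * w * pn w l) :=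
    ⟨by rintro _ ⟨Ψ, k, rfl⟩; exact (k2 Ψ k).1.1 l,
      mul_nonneg (mul_nonneg h3.1 h3.w0) (pn_nn h3.w0 l),
      by rintro _ ⟨Ψ, k, rfl⟩; exact (k2 Ψ k).2 l,
      k1.image _ (pr_cont l) fun u Ψ => by rw [pr_bt, bt_kf]⟩
  have := s.fin hf hq _ ⟨Φ, hΦ, rfl⟩ x 1
  rwa [mul_one] at this

theorem cb_case {φ : List A → A} (h1 : Lin φ) (h2 : Co φ) {C w : ℝ} (hC : 0 ≤ C) (hw : 1 ≤ w)
    (h3 : ∀ l n, CBn (fun x => φ (x :: l)) ((C * pn w l) ^ 2) n) :
    ∃ g, Lin g ∧ BdC g C w ∧ ∀ x l, φ (x :: l) = dd g (x :: l) := by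
  choose B b1 b2 using fun l => exists_form (h1 [] l) (sq_nonneg _) (h3 l)
  have hb : ∀ l (θ : Fn A A), Dom θ (B l) 1 1 → ∀ x, ‖θ x‖ ≤ C * pn w l * ‖x‖ := fun l θ k x => by
    simpa only [Real.sqrt_sq (mul_nonneg hC (pn_nn (by linarith) l))] using k.norm (b1 l) x
  obtain ⟨K, k1, k2⟩ := exists_mod h1 h2 (fun m => m) (fun l => {θ | Dom θ (B l) 1 1}) _
    (fun l => closed_dom WC.ev) (fun l _ a _ b _ _ => a.cvx b) hb
    (fun l m θ k => k.bt (b1 l) cp_one m) fun l => dom_of (b2 l)
  obtain ⟨Φ, hΦ⟩ := k1.ne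
  simpa only [one_mul] using (k2 Φ hΦ).1.fin cp_one hC hw (fun x l => hb l _ ((k2 Φ hΦ).2 l) x)
    fun x l => by
      have m := k1.image (g := fun m : KF A => bt m) _ (pr_cont l) fun m Ψ => pr_bt m l Ψ
      have k : ∀ u : unitary A, Φ (u, l) = u * Φ (1, l) := fun u => by
        have := cb_point (b1 l) m (by rintro _ ⟨Ψ, k, rfl⟩; exact (k2 Ψ k).2 l)
          (m.inv _ ⟨kf u, rfl⟩ _ ⟨Φ, hΦ, rfl⟩) ⟨Φ, hΦ, rfl⟩ 1
        simp only [bt_kf, ac_apply, mul_one] at this
        exact (congrArg ((u : A) * ·) this).symm.trans (by rw [← mul_assoc, u.2.2, one_mul]; rfl)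
          |>.symm
      obtain ⟨u, c, rfl, -⟩ := CStarAlgebra.exists_sum_four_unitary x
      have l := (k2 Φ hΦ).1.1 l
      simp only [one_mul, IsLinearMap.sum l, l.map_smul, k, sum_mul, smul_mul_assoc]

end Vale.Agent.P082
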