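import Vale.Agent.P082.Top

/-! Function spaces with the pointwise weak operator topology. -/

namespace Vale.Agent.P082

open scoped InnerProductSpace
open Filter Topology ContinuousLinearMapWOT

variable {A : Type*} [CStarAlgebra A] {H : Type*} [NormedAddCommGroup H] [InnerProductSpace ℂ H]
  [CompleteSpace H] [VN A H]

/-- Functions into the algebra. -/
def Fn (X A : Type*) := X → A

variable {X : Type*}

instance : CoeFun (Fn X A) fun _ => X → A := ⟨fun f => f⟩

noncomputable instance : AddCommGroup (Fn X A) := inferInstanceAs (AddCommGroup (X → A))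

noncomputable instance : Module ℝ (Fn X A) := inferInstanceAs (Module ℝ (X → A))

noncomputable instance : TopologicalSpace (Fn X A) :=
  .induced (fun (f : Fn X A) (x : X) => wk (f x)) inferInstance

omit [VN A H] in
@[simp] theorem Fn.add_apply (f g : Fn X A) (x : X) : (f + g) x = f x + g x := rfl

omit [VN A H] in
@[simp] theorem Fn.smul_apply (r : ℝ) (g : Fn X A) (x : X) : (r • g) x = r • g x := rfl

theorem Fn.emb : IsEmbedding (fun (f : Fn X A) (x : X) => wk (f x)) :=
  ⟨⟨rfl⟩, fun _ _ h => funext fun x => wk_inj (congrFun h x)⟩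

instance : T2Space (Fn X A) := Fn.emb.t2Space

/-- Weakly continuous maps into the algebra. -/
def WC {α : Type*} [TopologicalSpace α] (f : α → A) : Prop := Continuous fun t => wk (f t)

namespace WC

variable {α : Type*} [TopologicalSpace α] {f g : α → A}

theorem ev (x : X) : WC fun f : Fn X A => f x := (continuous_apply x).comp Fn.emb.continuous

theorem fn {f : α → Fn X A} (h : ∀ x, WC fun t => f t x) : Continuous f :=
  Fn.emb.continuous_iff.2 (continuous_pi h)

theorem const (a : A) : WC fun _ : α => a := continuous_const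

theorem add (hf : WC f) (hg : WC g) : WC fun t => f t + g t := by
  simp only [WC, wk_add]; exact Continuous.add hf hg

theorem sub (hf : WC f) (hg : WC g) : WC fun t => f t - g t := by
  simp only [WC, wk_sub]; exact Continuous.sub hf hg

theorem neg (hf : WC f) : WC fun t => - f t := by
  simpa using (const 0).sub hf

theorem smul (hf : WC f) (c : ℂ) : WC fun t => c • f t := by
  simp only [WC, wk_smul]; exact Continuous.const_smul hf c

theorem lmul (hf : WC f) (a : A) : WC fun t => a * f t := by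
  simpa only [WC, wk_mul] using Continuous.const_mul hf (wk a)

theorem rmul (hf : WC f) (a : A) : WC fun t => f t * a := by
  simpa only [WC, wk_mul] using Continuous.mul_const hf (wk a)

theorem sum {ι : Type*} {f : ι → α → A} (s : Finset ι) (hf : ∀ i, WC (f i)) :
    WC fun t => ∑ i ∈ s, f i t := by
  classical
  induction s using Finset.induction_on with
  | empty => simpa using const 0
  | insert j s hj ih => simpa only [Finset.sum_insert hj] using (hf j).add ih

theorem inner (hf : WC f) (η ξ : H) : Continuous fun t => ⟪η, ρ (f t) ξ⟫_ℂ :=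
  ContinuousLinearMapWOT.continuous_iff.1 hf ξ η

theorem closed_eq (hf : WC f) (hg : WC g) : IsClosed {t | f t = g t} := by
  simpa only [wk_inj.eq_iff] using isClosed_eq hf hg

end WC

theorem closed_all {α : Type*} {ι : Sort*} [TopologicalSpace α] {P : ι → α → Prop}
    (h : ∀ i, IsClosed {t | P i t}) : IsClosed {t | ∀ i, P i t} := by
  rw [Set.setOf_forall]; exact isClosed_iInter h

theorem convex_all {α : Type*} {ι : Sort*} [AddCommGroup α] [Module ℝ α] {P : ι → α → Prop}
    (h : ∀ i, Convex ℝ {t | P i t}) : Convex ℝ {t | ∀ i, P i t} := by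
  rw [Set.setOf_forall]; exact convex_iInter h

/-- Weak lower semicontinuity of sums of squared norms. -/
theorem closed_sq {α ι E : Type*} [TopologicalSpace α] [NormedAddCommGroup E]
    [InnerProductSpace ℂ E] (s : Finset ι) {v : ι → α → E}
    (hv : ∀ i η, Continuous fun t => ⟪η, v i t⟫_ℂ) {g : α → ℝ} (hg : Continuous g) :
    IsClosed {t | ∑ i ∈ s, ‖v i t‖ ^ 2 ≤ g t} := by
  have : {t | ∑ i ∈ s, ‖v i t‖ ^ 2 ≤ g t}
      = {t | ∀ η : ι → E, ∑ i ∈ s, (2 * (⟪η i, v i t⟫_ℂ).re - ‖η i‖ ^ 2) ≤ g t} := by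
    ext t
    refine ⟨fun h η => le_trans (Finset.sum_le_sum fun i _ => ?_) h, fun h => ?_⟩
    · have := re_inner_le_norm (𝕜 := ℂ) (η i) (v i t)
      rw [RCLike.re_to_complex] at this
      nlinarith [sq_nonneg (‖η i‖ - ‖v i t‖)]
    · refine le_trans (Finset.sum_le_sum fun i _ => ?_) (h fun i => v i t)
      have := inner_self_eq_norm_sq (𝕜 := ℂ) (v i t)
      rw [RCLike.re_to_complex] at this
      linarith
  rw [this]
  refine closed_all fun η => isClosed_le (continuous_finset_sum _ fun i _ => ?_) hg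
  exact ((Complex.continuous_re.comp (hv i _)).const_mul 2).sub continuous_const

theorem closed_norm {α E : Type*} [TopologicalSpace α] [NormedAddCommGroup E]
    [InnerProductSpace ℂ E] {v : α → E} (hv : ∀ η, Continuous fun t => ⟪η, v t⟫_ℂ) (c : ℝ) :
    IsClosed {t | ‖v t‖ ≤ c} := by
  rcases lt_or_ge c 0 with hc | hc
  · rw [Set.eq_empty_of_forall_notMem (s := {t | ‖v t‖ ≤ c}) fun t ht => by
      linarith [norm_nonneg (v t), show ‖v t‖ ≤ c from ht]]
    exact isClosed_empty
  have e : {t | ‖v t‖ ≤ c} = {t | ∑ _i : Unit, ‖v t‖ ^ 2 ≤ c ^ 2} :=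
    Set.ext fun t => by simp [sq_le_sq₀ (norm_nonneg (v t)) hc]
  rw [e]
  exact closed_sq _ (fun _ => hv) continuous_const

theorem WC.closed_norm {α : Type*} [TopologicalSpace α] {f : α → A} (hf : WC f) (c : ℝ) :
    IsClosed {t | ‖f t‖ ≤ c} := by
  rcases lt_or_ge c 0 with hc | hc
  · rw [Set.eq_empty_of_forall_notMem (s := {t | ‖f t‖ ≤ c}) fun t ht => by
      linarith [norm_nonneg (f t), show ‖f t‖ ≤ c from ht]]
    exact isClosed_empty
  have : {t | ‖f t‖ ≤ c} = {t | ∀ ξ : H, ‖ρ (f t) ξ‖ ≤ c * ‖ξ‖} := by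
    ext t
    exact ⟨fun h ξ => (rho_le _ _).trans (mul_le_mul_of_nonneg_right h (norm_nonneg _)),
      fun h => (norm_rho (f t)).ge.trans ((ρ (f t)).opNorm_le_bound hc h)⟩
  rw [this]
  exact closed_all fun ξ => P082.closed_norm (fun η => hf.inner η ξ) _

theorem compact_ball (b : X → ℝ) : IsCompact {f : Fn X A | ∀ x, ‖f x‖ ≤ b x} := by
  refine isCompact_iff_ultrafilter_le_nhds'.2 fun U hU => ?_
  choose y h1 h2 using fun x => exists_wl U (x := fun f : Fn X A => f x) (C := b x)
    (mem_of_superset hU fun f hf => hf x)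
  refine ⟨y, h1, ?_⟩
  have : Tendsto (fun (f : Fn X A) (x : X) => wk (f x)) U (𝓝 fun x => wk (y x)) :=
    tendsto_pi_nhds.2 h2
  exact (map_le_iff_le_comap.1 this).trans_eq (Fn.emb.isInducing.nhds_eq_comap y).symm

omit [VN A H] in
theorem convex_norm {α E : Type*} [AddCommGroup α] [Module ℝ α] [SeminormedAddCommGroup E]
    [NormedSpace ℝ E] {v : α → E}
    (hv : ∀ x y (a b : ℝ), a + b = 1 → v (a • x + b • y) = a • v x + b • v y) (c : ℝ) :
    Convex ℝ {t | ‖v t‖ ≤ c} := fun x hx y hy a b ha hb hab => by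
  rw [Set.mem_setOf_eq, hv _ _ _ _ hab]
  have := convex_closedBall (0 : E) c (mem_closedBall_zero_iff.2 hx)
    (mem_closedBall_zero_iff.2 hy) ha hb hab
  exact mem_closedBall_zero_iff.1 this

omit [VN A H] in
theorem convex_sq {α ι E : Type*} [AddCommGroup α] [Module ℝ α] [SeminormedAddCommGroup E]
    [NormedSpace ℝ E] (s : Finset ι) {v : ι → α → E}
    (hv : ∀ i x y (a b : ℝ), a + b = 1 → v i (a • x + b • y) = a • v i x + b • v i y) (c : ℝ) :
    Convex ℝ {t | ∑ i ∈ s, ‖v i t‖ ^ 2 ≤ c} := fun x hx y hy a b ha hb hab => by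
  rw [Set.mem_setOf_eq] at hx hy ⊢
  calc _ ≤ ∑ i ∈ s, (a * ‖v i x‖ ^ 2 + b * ‖v i y‖ ^ 2) := Finset.sum_le_sum fun i _ => ?_
    _ ≤ a * c + b * c := by
      rw [Finset.sum_add_distrib, ← Finset.mul_sum, ← Finset.mul_sum]; gcongr
    _ = c := by rw [← add_mul, hab, one_mul]
  rw [hv _ _ _ _ _ hab]
  have h := norm_add_le (a • v i x) (b • v i y)
  rw [norm_smul, norm_smul, Real.norm_of_nonneg ha, Real.norm_of_nonneg hb] at h
  have h2 := pow_le_pow_left₀ (norm_nonneg _) h 2
  obtain rfl : b = 1 - a := by linarith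
  nlinarith [mul_nonneg (mul_nonneg ha hb) (sq_nonneg (‖v i x‖ - ‖v i y‖))]

omit [VN A H] in
theorem convex_eq {α E : Type*} [AddCommGroup α] [Module ℝ α] [AddCommGroup E]
    [Module ℝ E] {v w : α → E}
    (hv : ∀ x y (a b : ℝ), a + b = 1 → v (a • x + b • y) = a • v x + b • v y)
    (hw : ∀ x y (a b : ℝ), a + b = 1 → w (a • x + b • y) = a • w x + b • w y) :
    Convex ℝ {t | v t = w t} := fun x hx y hy a b _ _ hab => by
  rw [Set.mem_setOf_eq] at hx hy ⊢
  rw [hv _ _ _ _ hab, hw _ _ _ _ hab, hx, hy]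

end Vale.Agent.P082
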