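import Vale.Agent.P082.VN2
import Vale.Agent.P082.Fn

/-! Averaging over finite groups of unitaries; minimal systems of maps. -/

namespace Vale.Agent.P082

open Finset

variable {A : Type*} [CStarAlgebra A]

theorem sign_zero {ι : Type} [Fintype ι] [DecidableEq ι] (f : (ι → ℤˣ) → ℝ) (i : ι)
    (h : ∀ ε, f (ε * Pi.mulSingle i (-1)) = - f ε) : ∑ ε, f ε = 0 := by
  have := Equiv.sum_comp (Equiv.mulRight (Pi.mulSingle i (-1) : ι → ℤˣ)) f
  simp only [Equiv.coe_mulRight, h, sum_neg_distrib] at this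
  linarith

theorem sign_one {ι : Type} [Fintype ι] [DecidableEq ι] (i : ι) :
    ∑ ε : ι → ℤˣ, ((ε i : ℤ) : ℝ) = 0 := sign_zero _ i fun ε => by simp

theorem sign_sq (u : ℤˣ) : ((u : ℤ) : ℝ) * (u : ℤ) = 1 := by
  rcases Int.units_eq_one_or u with rfl | rfl <;> simp

theorem sign_two {ι : Type} [Fintype ι] [DecidableEq ι] (i j : ι) :
    ∑ ε : ι → ℤˣ, ((ε i : ℤ) : ℝ) * (ε j : ℤ)
      = if i = j then (Fintype.card (ι → ℤˣ) : ℝ) else 0 := by
  split_ifs with h
  · simp [h, sign_sq]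
  · exact sign_zero _ i fun ε => by simp [Pi.mulSingle_eq_of_ne' h]

theorem MU.zpj {ι : Type*} [Fintype ι] [DecidableEq ι] {v : ι → A} {e z : A} (h : MU v e z) :
    IsStarProjection z :=
  ⟨by
    rw [IsIdempotentElem]; nth_rw 2 [← h.sum]
    simp only [mul_sum, ← mul_assoc, h.zv]; exact h.sum,
    by simp [IsSelfAdjoint, ← h.sum]⟩

theorem MU.ev {ι : Type*} [Fintype ι] [DecidableEq ι] {v : ι → A} {e z : A} (h : MU v e z)
    (i : ι) : e * star (v i) = star (v i) := st_r h.pj (h.ve i)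

theorem MU.vz {ι : Type*} [Fintype ι] [DecidableEq ι] {v : ι → A} {e z : A} (h : MU v e z)
    (i : ι) : star (v i) * z = star (v i) := st_l h.zpj (h.zv i)

theorem MU.orth' {ι : Type*} [Fintype ι] [DecidableEq ι] {v : ι → A} {e z : A} (h : MU v e z)
    (i j : ι) (x : A) : star (v i) * (v j * x) = if i = j then e * x else 0 := by
  rw [← mul_assoc, h.orth]; simp

theorem MU.avg {ι : Type} [Fintype ι] [DecidableEq ι] [Nonempty ι] {v : ι → A} {e z : A}
    (h : MU v e z) : ∃ (Γ : Type) (_ : Fintype Γ) (_ : Nonempty Γ) (g : Γ → A),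
      (∀ a, g a ∈ unitary A) ∧ ∀ β : A →ₗ[ℝ] A →ₗ[ℝ] A,
      ∑ a, (Fintype.card Γ : ℝ)⁻¹ • β (star (g a)) (g a) = (Fintype.card ι : ℝ)⁻¹ •
        ∑ i, ∑ j, β (v i * star (v j)) (v j * star (v i)) + β (1 - z) (1 - z) := by
  obtain ⟨n, hn⟩ := Nat.exists_eq_succ_of_ne_zero (Fintype.card_ne_zero (α := ι))
  letI := (Fintype.equivFinOfCardEq hn).addCommGroup
  have r1 : ∀ i, (1 - z) * v i = 0 := fun i => osub_l.2 (h.zv i)
  have r2 : ∀ i, star (v i) * (1 - z) = 0 := fun i => osub_r.2 (h.vz i)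
  have r3 := pj_sq h.zpj.one_sub
  have r4 := pj_st h.zpj.one_sub
  let G : (ι → ℤˣ) → (ι → ι) → (ι → ι) → A := fun ε a b =>
    ∑ i, ((ε i : ℤ) : ℝ) • (v (a i) * star (v (b i))) + (1 - z)
  have G1 : ∀ ε a b, star (G ε a b) = G ε b a := fun ε a b => by simp [G, r4]
  have G2 : ∀ ε (a b : ι ≃ ι), G ε a b * G ε b a = 1 := fun ε a b => by
    have := a.sum_comp fun i => v i * star (v i)
    simp only [G, add_mul, mul_add, sum_mul, mul_sum, smul_mul_assoc, mul_smul_comm, mul_assoc,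
      h.orth', r2, r3, b.injective.eq_iff, h.ev]
    simp [← mul_assoc, r1, smul_smul, sign_sq, this, h.sum]
  refine ⟨(ι → ℤˣ) × ι, inferInstance, inferInstance,
    fun a => G a.1 (Equiv.addRight a.2) (Equiv.refl ι),
    fun a => ⟨by rw [G1, G2], by rw [G1, G2]⟩, fun β => ?_⟩
  simp only [G1]
  simp only [G, map_add, map_sum, map_smul, LinearMap.add_apply, LinearMap.sum_apply,
    LinearMap.smul_apply, Equiv.coe_addRight, Equiv.coe_refl, id]
  rw [← smul_sum, Fintype.sum_prod_type_right, inv_smul_eq_iff₀ (by positivity)]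
  simp only [smul_add, smul_sum, smul_smul, sum_add_distrib]
  have e1 : ∀ t : ι, ∑ ε : ι → ℤˣ, ∑ j, ∑ i, (((ε j : ℤ) : ℝ) * (ε i : ℤ)) •
      β (v i * star (v (i + t))) (v (j + t) * star (v j))
      = (Fintype.card (ι → ℤˣ) : ℝ) • ∑ j, β (v j * star (v (j + t))) (v (j + t) * star (v j)) :=
    fun t => by
      rw [sum_comm, smul_sum]
      refine sum_congr rfl fun j _ => ?_
      rw [sum_comm]
      simp [← sum_smul, sign_two]
  have e2 : ∀ f : ι → A, ∑ ε : ι → ℤˣ, ∑ j, ((ε j : ℤ) : ℝ) • f j = 0 := fun f => by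
    rw [sum_comm]; simp [← sum_smul, sign_one]
  have e3 : ∑ t : ι, ∑ j, β (v j * star (v (j + t))) (v (j + t) * star (v j))
      = ∑ i, ∑ j, β (v i * star (v j)) (v j * star (v i)) := by
    rw [sum_comm]
    exact sum_congr rfl fun i _ => Equiv.sum_comp (Equiv.addLeft i)
      fun j => β (v i * star (v j)) (v j * star (v i))
  have c1 : (Fintype.card (ι → ℤˣ) : ℝ) ≠ 0 := by positivity
  have c2 : (Fintype.card ι : ℝ) ≠ 0 := by positivity
  simp only [e1, e2, sum_const, card_univ, ← Nat.cast_smul_eq_nsmul ℝ, smul_smul,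
    Fintype.card_prod, Nat.cast_mul, smul_zero, add_zero, zero_add]
  rw [← smul_sum, e3, mul_assoc, mul_inv_cancel₀ c2, mul_one, mul_comm]
  simp only [smul_sum]

/-- The action of a single element on maps. -/
noncomputable def ac (u : A) : Fn A A →ₗ[ℝ] Fn A A where
  toFun θ := fun x => star u * θ (u * x)
  map_add' θ θ' := funext fun x => mul_add _ _ _
  map_smul' r θ := funext fun x => mul_smul_comm _ _ _

theorem ac_apply (u : A) (θ : Fn A A) (x : A) : ac u θ x = star u * θ (u * x) := rfl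

theorem ac_one (θ : Fn A A) : ac 1 θ = θ := funext fun x => by simp [ac_apply]

theorem ac_mul (a b : A) (θ : Fn A A) : ac (a * b) θ = ac b (ac a θ) :=
  funext fun x => by simp [ac_apply, mul_assoc]

theorem Fn.sum_apply {X ι : Type*} (s : Finset ι) (f : ι → Fn X A) (x : X) :
    (∑ i ∈ s, f i) x = ∑ i ∈ s, f i x := Finset.sum_apply x s f

theorem IsLinearMap.sum {f : A → A} (h : IsLinearMap ℂ f) {ι : Type*} (s : Finset ι) (x : ι → A) :
    f (∑ i ∈ s, x i) = ∑ i ∈ s, f (x i) := map_sum (h.mk' f) x s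

theorem IsLinearMap.rsmul {f : A → A} (h : IsLinearMap ℂ f) (r : ℝ) (x : A) :
    f (r • x) = r • f x := by rw [← Complex.coe_smul, h.map_smul, Complex.coe_smul]

variable {H : Type*} [NormedAddCommGroup H] [InnerProductSpace ℂ H] [CompleteSpace H] [VN A H]

theorem ac_cont (u : A) : Continuous (ac u : Fn A A → Fn A A) :=
  WC.fn fun _ => (WC.ev _).lmul _

/-- A minimal system of bounded linear maps. -/
structure Sys (K : Set (Fn A A)) (B : ℝ) : Prop where
  lin : ∀ θ ∈ K, IsLinearMap ℂ θ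
  nn : 0 ≤ B
  bd : ∀ θ ∈ K, ∀ x, ‖θ x‖ ≤ B * ‖x‖
  min : Minl (Set.range fun u : unitary A => ac (u : A)) K

theorem closed_mod (a b : A) : IsClosed {θ : Fn A A | ∀ x, b * θ (a * x) = a * (b * θ x)} :=
  closed_all fun _ => ((WC.ev _).lmul _).closed_eq (((WC.ev _).lmul _).lmul _)

omit [VN A H] in
theorem convex_mod (a b : A) : Convex ℝ {θ : Fn A A | ∀ x, b * θ (a * x) = a * (b * θ x)} :=
  convex_all fun _ => convex_eq (by simp [mul_add]) (by simp [mul_add])

namespace Sys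

variable {K : Set (Fn A A)} {B : ℝ}

theorem inv (h : Sys K B) {u : A} (hu : u ∈ unitary A) {θ : Fn A A} (hθ : θ ∈ K) : ac u θ ∈ K :=
  h.min.inv _ ⟨⟨u, hu⟩, rfl⟩ θ hθ

theorem all (h : Sys K B) {S : Set (Fn A A)} (h1 : IsClosed S) (h2 : Convex ℝ S)
    (h3 : ∃ θ ∈ K, θ ∈ S) (h4 : ∀ u ∈ unitary A, ∀ θ ∈ K, θ ∈ S → ac u θ ∈ S) : ∀ θ ∈ K, θ ∈ S :=
  h.min.min S h1 h2 h3 (by rintro _ ⟨u, rfl⟩; exact h4 u u.2)

theorem mu (h : Sys K B) {ι : Type} [Fintype ι] [DecidableEq ι] [Nonempty ι] {v : ι → A} {e z : A}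
    (mu : MU v e z) : ∃ θ ∈ K, ∀ i j x, θ (v i * star (v j) * x) = v i * star (v j) * θ x := by
  obtain ⟨Γ, _, _, g, h1, h2⟩ := mu.avg
  obtain ⟨θ, hθ⟩ := h.min.ne
  have l := h.lin θ hθ
  refine ⟨∑ a, (Fintype.card Γ : ℝ)⁻¹ • ac (g a) θ, h.min.cvx.sum_mem (fun _ _ => by positivity)
    (by simp) fun a _ => h.inv (h1 a) hθ, fun i j x => ?_⟩
  have k := fun x => h2 (LinearMap.mk₂ ℝ (fun a b => a * θ (b * x)) (by simp [add_mul])
    (by simp) (by simp [add_mul, l.map_add, mul_add]) (by simp [IsLinearMap.rsmul l]))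
  simp only [LinearMap.mk₂_apply] at k
  have r1 : ∀ y, (1 - z) * (v i * y) = 0 := fun y => by
    rw [← mul_assoc, osub_l.2 (mu.zv i), zero_mul]
  have r2 : ∀ y, star (v j) * ((1 - z) * y) = 0 := fun y => by
    rw [← mul_assoc, osub_r.2 (mu.vz j), zero_mul]
  have r3 : ∀ i y, e * (star (v i) * y) = star (v i) * y := fun i y => by
    rw [← mul_assoc, mu.ev]
  simp only [Fn.sum_apply, Fn.smul_apply, ac_apply, k, mul_add, mul_smul_comm, mul_sum, mul_assoc,
    r1, r2, mu.orth', r3, l.map_zero]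
  simp [apply_ite θ, l.map_zero]

theorem cen (h : Sys K B) {c : A} (hc : CP c) : ∀ θ ∈ K, ∀ x, θ (c * x) = c * θ x := by
  have := h.all (closed_mod c 1) (convex_mod c 1) (by
    simpa [pj_st hc.1, pj_sq hc.1] using h.mu (ι := Unit) (v := fun _ => c) (e := c) (z := c)
      ⟨hc.1, by simp [pj_st hc.1, pj_sq hc.1], by simp [pj_st hc.1, pj_sq hc.1]⟩)
    fun u _ θ _ k x => by
      have := k (u * x)
      simp only [one_mul, ac_apply] at this ⊢
      rw [← mul_assoc u, ← hc.2, mul_assoc, this, ← mul_assoc, ← hc.2, mul_assoc]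
  simpa using this

end Sys

end Vale.Agent.P082
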