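import Vale.Agent.P082.VN2
import Vale.Agent.P082.Fn

/-! Approximate traces on finite summands. -/

namespace Vale.Agent.P082

open scoped InnerProductSpace
open Filter Topology Finset ContinuousLinearMapWOT

variable {A : Type*} [CStarAlgebra A] {H : Type*} [NormedAddCommGroup H] [InnerProductSpace ℂ H]
  [CompleteSpace H] [VN A H]

/-- Diagonal amplification. -/
noncomputable def dg0 (ι : Type*) [Fintype ι] (x : A) :
    PiLp 2 (fun _ : ι => H) →L[ℂ] PiLp 2 (fun _ : ι => H) :=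
  (PiLp.continuousLinearEquiv 2 ℂ _).symm.toContinuousLinearMap ∘L
    ContinuousLinearMap.pi fun i => ρ x ∘L PiLp.proj 2 (fun _ : ι => H) i

@[simp] theorem dg0_apply {ι : Type*} [Fintype ι] (x : A) (ξ : PiLp 2 (fun _ : ι => H)) (i : ι) :
    dg0 ι x ξ i = ρ x (ξ i) := rfl

variable (A) in
/-- Diagonal amplification as a star homomorphism. -/
noncomputable def dg (ι : Type*) [Fintype ι] :
    A →⋆ₐ[ℂ] (PiLp 2 (fun _ : ι => H) →L[ℂ] PiLp 2 (fun _ : ι => H)) where
  toFun := dg0 ι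
  map_one' := by ext; simp
  map_mul' x y := by ext; simp
  map_zero' := by ext; simp
  map_add' x y := by ext; simp
  commutes' c := by ext; simp [Algebra.algebraMap_eq_smul_one]
  map_star' x := by
    rw [ContinuousLinearMap.star_eq_adjoint, ContinuousLinearMap.eq_adjoint_iff]
    intro a b
    simp only [PiLp.inner_apply, dg0_apply, inner_rho']

@[simp] theorem dg_apply {ι : Type*} [Fintype ι] (x : A) (ξ : PiLp 2 (fun _ : ι => H)) (i : ι) :
    dg A ι x ξ i = ρ x (ξ i) := rfl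

/-- A vector implementing a faithful approximate trace on the central summand `z`. -/
structure CT {K : Type*} [NormedAddCommGroup K] [InnerProductSpace ℂ K] [CompleteSpace K]
    (L : A →⋆ₐ[ℂ] (K →L[ℂ] K)) (Ω : K) (z : A) (C : ℝ) : Prop where
  cp : CP z
  one_le : 1 ≤ C
  supp : L z Ω = Ω
  faith : ∀ x, L x Ω = 0 → x * z = 0
  tr : ∀ x, ‖L (star x) Ω‖ ^ 2 ≤ C * ‖L x Ω‖ ^ 2
  wc : ∀ ζ, ∃ g : (H →WOT[ℂ] H) → ℂ, Continuous g ∧ ∀ x, ⟪ζ, L x Ω⟫_ℂ = g (wk x)

/-- Vector functionals. -/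
noncomputable def om (ξ : H) (a : A) : ℝ := (⟪ξ, ρ a ξ⟫_ℂ).re

theorem om_add (ξ : H) (a b : A) : om ξ (a + b) = om ξ a + om ξ b := by
  simp [om, inner_add_right]

theorem om_sub (ξ : H) (a b : A) : om ξ (a - b) = om ξ a - om ξ b := by
  simp [om, inner_sub_right]

theorem om_smul (ξ : H) (r : ℝ) (a : A) : om ξ (r • a) = r * om ξ a := by
  rw [om, ← Complex.coe_smul, map_smul, ContinuousLinearMap.smul_apply, inner_smul_right]
  simp [om]

theorem om_zero (ξ : H) : om ξ (0 : A) = 0 := by simp [om]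

theorem om_one (ξ : H) : om ξ (1 : A) = ‖ξ‖ ^ 2 := by
  simpa [om] using inner_self_eq_norm_sq (𝕜 := ℂ) ξ

theorem om_sum {ι : Type*} (ξ : H) (s : Finset ι) (a : ι → A) :
    om ξ (∑ i ∈ s, a i) = ∑ i ∈ s, om ξ (a i) := by
  simp [om, inner_sum]

theorem om_sq (ξ : H) (a : A) : om ξ (star a * a) = ‖ρ a ξ‖ ^ 2 := (norm_sq_rho a ξ).symm

theorem om_conj (ξ : H) (a b : A) : om (ρ b ξ) a = om ξ (star b * a * b) := by
  rw [om, inner_rho, om, rho_mul, rho_mul]

variable [PartialOrder A] [StarOrderedRing A]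

theorem local_trace {q : A} (h : Fi q) (hq : CP q) (h0 : q ≠ 0) :
    ∃ (f : A) (ξ : H) (C : ℝ), IsStarProjection f ∧ f ≠ 0 ∧ q * f = f ∧ 1 ≤ C ∧
      (∀ a : A, ρ a ξ = 0 → a * f = 0) ∧
      ∀ x, f * x = x → x * f = x → om ξ (star x * x) ≤ C * om ξ (x * star x) := by
  obtain ⟨ξ', hξ'⟩ : ∃ ξ' : H, ρ q ξ' ≠ 0 := by
    by_contra h1
    push Not at h1
    exact h0 (rho_ext fun ξ => by simp [h1])
  obtain ⟨ξ, hξ⟩ : ∃ ξ, ξ = ρ q ξ' := ⟨_, rfl⟩
  rw [← hξ] at hξ'
  obtain ⟨e, he, e1, e2⟩ := exists_proj (A := A)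
    {ζ | ∃ S : H →L[ℂ] H, (∀ a : A, Commute (ρ a) S) ∧ ζ = S ξ} (by
      rintro T hT _ ⟨S, hS, rfl⟩
      exact ⟨T * S, fun a => (hT a).mul_right (hS a), rfl⟩)
  have eξ : ρ e ξ = ξ := e1 ξ ⟨1, fun a => .one_right _, rfl⟩
  have fa : ∀ a : A, ρ a ξ = 0 → a * e = 0 := fun a ha => VN.inj (by
    rw [map_mul, map_zero]
    refine e2 _ ?_
    rintro _ ⟨S, hS, rfl⟩
    exact (DFunLike.congr_fun (hS a).eq ξ).trans (by simp [ha]))
  have qe : q * e = e := osub_l.1 (fa _ (by rw [hξ, ← rho_mul, hq.1.one_sub_mul_self]; simp))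
  have pos : ∀ p, IsStarProjection p → e * p = p → p ≠ 0 → 0 < om ξ p := fun p hp h1 h2 => by
    have := om_sq ξ p
    rw [pj_st hp, pj_sq hp] at this
    rw [this]
    refine pow_pos (norm_pos_iff.2 fun h3 => h2 ?_) 2
    rw [← fa p h3]; simpa [pj_st hp] using (st_l he h1).symm
  obtain ⟨W, ⟨h1, h2, h3, h4⟩, hm⟩ := max_pi (fun v => PI v ∧ e * v = v ∧ v * e = v ∧
      2 * om ξ (v * star v) ≤ om ξ (star v * v)) ⟨pi_zero, by simp [om_zero]⟩ (fun v h => h.1)
    fun U W a b c _ d f => ⟨c, (b.lmul e).eq b (a.mono fun v h => h.2.1),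
      (b.rmul e).eq b (a.mono fun v h => h.2.2.1),
      le_of_tendsto_of_tendsto ((f.re ξ ξ).const_mul 2) (d.re ξ ξ) (a.mono fun v h => h.2.2.2)⟩
  have p1 : IsStarProjection (e - star W * W) :=
    h1.ini.sub_of_mul_eq_left he (by rw [mul_assoc, h3])
  have p2 : IsStarProjection (e - W * star W) :=
    h1.fin.sub_of_mul_eq_right he (by rw [← mul_assoc, h2])
  have a1 : W * (e - star W * W) = 0 := by rw [mul_sub, h3, h1, sub_self]
  have a2 : star W * (e - W * star W) = 0 := by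
    rw [mul_sub, st_l he h2]; simpa [sub_eq_zero] using h1.star.symm
  have a3 : (e - star W * W) * e = e - star W * W := by rw [sub_mul, pj_sq he, mul_assoc, h3]
  have a3' : e * (e - star W * W) = e - star W * W := by simpa [pj_st p1] using st_r he a3
  have a4 : e * (e - W * star W) = e - W * star W := by rw [mul_sub, pj_sq he, ← mul_assoc, h2]
  have key : ∀ v, PI v → v * (e - star W * W) = v → (e - W * star W) * v = v →
      om ξ (star v * v) ≤ 2 * om ξ (v * star v) := fun v v2 v4 v3 => by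
    have b1 : star W * v = 0 := by rw [← v3, ← mul_assoc, a2, zero_mul]
    have b2 : W * star v = 0 := by rw [← st_r p1 v4, ← mul_assoc, a1, zero_mul]
    by_contra hc
    obtain rfl := hm v b1 b2 ⟨h1.add v2 b1 b2, by rw [mul_add, h2, ← v3, ← mul_assoc, a4],
      by rw [add_mul, h3, ← v4, mul_assoc, a3],
      by rw [PI.add_ini b1, PI.add_fin b2, om_add, om_add]; linarith⟩
    simp [om_zero] at hc
  obtain ⟨v, v0, v1, v2, v3⟩ : ∃ v, v ≠ 0 ∧ PI v ∧ v * (e - star W * W) = v ∧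
      (e - W * star W) * v = v := by
    obtain ⟨c, hc, ⟨v, v1, v2, v3⟩, w, w1, w2, w3⟩ := compare p1 p2
    have pv := pi_of_ini (v1 ▸ hc.pj p1)
    have pw := pi_of_ini (w1 ▸ hc.one_sub.pj p2)
    by_cases hv : v = 0
    · by_cases hw : w = 0
      · exfalso
        rw [hv, mul_zero, sub_mul, eq_comm, sub_eq_zero, ← hc.ini] at v1
        have k := h.iso (hc.pj he) (by rw [← mul_assoc, qe]) v1.symm (by rw [hc.mm, h2])
        rw [hw, mul_zero, eq_comm, osub_r, sub_mul, ← hc.fin, k, sub_self, eq_comm,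
          sub_eq_zero] at w1
        have k1 := re_mono (pj_le h1.ini he (by rw [← mul_assoc, st_r he h3])) ξ
        have k2 := pos e he (pj_sq he) fun h => hξ' (by rw [← eξ, h]; simp)
        rw [← w1] at h4
        change om ξ _ ≤ om ξ _ at k1
        linarith
      · refine ⟨star w, by simpa using hw, pw.star, st_l p1 w3, st_r p2 ?_⟩
        rw [← w2, mul_assoc, ← hc.one_sub.2, mul_assoc, pj_sq p2]
    · refine ⟨v, hv, pv, ?_, v3⟩
      rw [← v2, mul_assoc, ← hc.2, mul_assoc, pj_sq p1]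
  have ep : e * (star v * v) = star v * v := by
    rw [← st_r p1 v2, ← mul_assoc, ← mul_assoc, a3']
  have pp := pos _ v1.ini ep fun h => v0 (by rw [← v1, h, mul_zero])
  obtain ⟨Λ, Λ0, hΛ⟩ : ∃ Λ : ℝ, 1 ≤ Λ ∧ om (ρ (star v) ξ) (star v * v) < Λ * om ξ (star v * v) := by
    refine ⟨max 1 (om (ρ (star v) ξ) (star v * v) / om ξ (star v * v) + 1), le_max_left _ _,
      lt_of_lt_of_le ?_ (mul_le_mul_of_nonneg_right (le_max_right _ _) pp.le)⟩
    rw [add_mul, div_mul_cancel₀ _ pp.ne']; linarith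
  obtain ⟨G, ⟨g1, g2, g3⟩, gm⟩ := max_pj (fun G => IsStarProjection G ∧ star v * v * G = G ∧
      Λ * om ξ G ≤ om (ρ (star v) ξ) G) ⟨.zero A, by simp [om_zero]⟩ (fun _ h => h.1)
    fun U G a b c _ => ⟨c, (b.lmul _).eq b (a.mono fun v h => h.2.1),
      le_of_tendsto_of_tendsto ((b.re ξ ξ).const_mul Λ) (b.re _ _) (a.mono fun v h => h.2.2)⟩
  have hf := g1.sub_of_mul_eq_right v1.ini g2
  have pf : star v * v * (star v * v - G) = star v * v - G := by rw [mul_sub, pj_sq v1.ini, g2]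
  have Gf : G * (star v * v - G) = 0 := by
    rw [mul_sub, pj_sq g1, sub_eq_zero]; simpa [pj_st g1] using st_l v1.ini g2
  have f0 : star v * v - G ≠ 0 := fun h => by rw [← sub_eq_zero.1 h] at g3; linarith
  generalize star v * v - G = f at hf pf Gf f0
  have ef : e * f = f := by rw [← pf, ← mul_assoc, ep]
  have key2 : ∀ y, PI y → f * y = y → y * f = y →
      om ξ (star y * y) ≤ 2 * Λ * om ξ (y * star y) := fun y y1 y2 y3 => by
    have c1 : star (v * y) * (v * y) = star y * y := by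
      rw [star_mul, mul_assoc, ← mul_assoc (star v), ← y2, ← mul_assoc _ f, pf]
    have k1 := key (v * y) (pi_of_ini (c1 ▸ y1.ini)) (by
      have : f * (e - star W * W) = f := by
        rw [← pj_st hf, ← pf, star_mul, pj_st v1.ini, mul_assoc, mul_assoc, v2]
      rw [← y3, mul_assoc, mul_assoc, this]) (by rw [← mul_assoc, v3])
    have k2 : om (ρ (star v) ξ) (y * star y) ≤ Λ * om ξ (y * star y) := by
      by_contra hc
      have c2 : G * (y * star y) = 0 := by rw [← y2, ← mul_assoc, ← mul_assoc, Gf]; simp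
      have := gm _ y1.fin c2 ⟨g1.add y1.fin c2,
        by rw [mul_add, g2, ← mul_assoc, ← y2, ← mul_assoc, pf], by rw [om_add, om_add]; linarith⟩
      simp [this, om_zero] at hc
    rw [om_conj, star_star] at k2
    rw [c1, star_mul, mul_assoc, ← mul_assoc y, ← mul_assoc v] at k1
    linarith
  refine ⟨f, ξ, 2 * Λ, hf, f0, by rw [← ef, ← mul_assoc, qe], by linarith,
    fun a ha => by rw [← ef, ← mul_assoc, fa a ha, zero_mul],
    fun x x1 x2 => le_of_forall_pos_le_add fun ε hε => ?_⟩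
  obtain ⟨w, w1, w2, w3, w4, w5⟩ := polar x
  obtain ⟨E, hE⟩ := exists_spec (star_mul_self_nonneg x)
  have hδ : 0 < ε / (‖ξ‖ ^ 2 + 1) := by positivity
  have hδ' : ε / (‖ξ‖ ^ 2 + 1) * ‖ξ‖ ^ 2 ≤ ε := by
    rw [div_mul_eq_mul_div, div_le_iff₀ (by positivity)]; nlinarith
  generalize ε / (‖ξ‖ ^ 2 + 1) = δ at hδ hδ'
  obtain ⟨n, hn⟩ := exists_nat_ge (‖star x * x‖ / δ)
  have u1 := re_mono (hE.cake_up' (star_mul_self_nonneg x) hδ.le ((div_le_iff₀ hδ).1 hn)) ξ
  have u2 := re_mono (star_right_conjugate_le_conjugate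
    (hE.cake_lo (star_mul_self_nonneg x) hδ.le n) w) ξ
  change om ξ _ ≤ om ξ _ at u1 u2
  rw [w2, mul_smul_comm, smul_mul_assoc, om_smul, mul_sum, sum_mul, om_sum] at u2
  rw [om_add, om_smul, om_smul, om_one, om_sum] at u1
  have u3 : ∑ j ∈ range n, om ξ (E ((j + 1 : ℕ) * δ))
      ≤ 2 * Λ * ∑ j ∈ range n, om ξ (w * E ((j + 1 : ℕ) * δ) * star w) := by
    rw [mul_sum]
    refine sum_le_sum fun j _ => ?_
    have ht : 0 ≤ ((j + 1 : ℕ) : ℝ) * δ := by positivity
    generalize ((j + 1 : ℕ) : ℝ) * δ = t at ht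
    have c0 : star w * w * E t = E t :=
      osub_l.1 (hE.kill t _ ht (by rw [← mul_assoc, osub_l.2 w3, zero_mul]))
    have c1 : star (w * E t) * (w * E t) = E t := by
      rw [star_mul, pj_st (hE.pj t), mul_assoc, ← mul_assoc (star w), c0, pj_sq (hE.pj t)]
    have c2 : f * E t = E t :=
      osub_l.1 (hE.kill t _ ht (by rw [← mul_assoc, osub_l.2 (st_r hf x2), zero_mul]))
    have := key2 (w * E t) (pi_of_ini (by rw [c1]; exact hE.pj t))
      (by rw [← mul_assoc, osub_l.1 (w5 _ (osub_l.2 x1))])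
      (by rw [mul_assoc]; congr 1; simpa [pj_st (hE.pj t)] using st_l hf c2)
    rwa [c1, star_mul, pj_st (hE.pj t), mul_assoc w, pj_sq' (hE.pj t), ← mul_assoc w] at this
  nlinarith [mul_le_mul_of_nonneg_left u3 hδ.le, mul_le_mul_of_nonneg_left u2
    (show 0 ≤ 2 * Λ by linarith)]

theorem exists_ct {q : A} (h : Fi q) (hq : CP q) (h0 : q ≠ 0) :
    ∃ (z : A) (ι : Type) (_ : Fintype ι) (Ω : PiLp 2 (fun _ : ι => H)) (C : ℝ),
      z ≠ 0 ∧ q * z = z ∧ CT (dg A ι) Ω z C := by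
  obtain ⟨f, ξ, C, hf, f0, qf, hC, fa, tr⟩ := local_trace h hq h0
  obtain ⟨z, hz, z0, qz, ι, _, w, w1, w2, w3, -⟩ := h.cover hq hf f0 qf
  have wz : ∀ i, w i * z = w i := fun i => by
    have k : (1 - z) * (star (w i) * w i) * star (1 - z) ≤ 0 := by
      have := star_right_conjugate_le_conjugate (single_le_sum
        (f := fun i => star (w i) * w i) (fun i _ => star_mul_self_nonneg _) (mem_univ i)) (1 - z)
      rwa [w2, hz.1.one_sub_mul_self, zero_mul] at this
    have k2 := st_zero (conj_zero (star_mul_self_nonneg _) k)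
    rw [pj_st (w3 i).ini, pj_st hz.1.one_sub] at k2
    rw [← osub_r, ← w3 i, mul_assoc, k2, mul_zero]
  have hn : ∀ x : A, ‖dg A ι x (WithLp.toLp 2 fun i => ρ (star (w i)) ξ)‖ ^ 2
      = ∑ i, ∑ j, om ξ (star (w j * x * star (w i)) * (w j * x * star (w i))) := fun x => by
    rw [PiLp.norm_sq_eq_of_L2]
    refine sum_congr rfl fun i _ => ?_
    rw [dg_apply, ← rho_mul, ← om_sq, ← om_sum]
    congr 1
    simp only [star_mul, star_star, mul_assoc]
    rw [← mul_sum, ← mul_sum]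
    simp only [← mul_assoc (star (w _)), ← sum_mul, w2]
    rw [← mul_assoc z, hz.2, mul_assoc, st_r hz.1 (wz i)]
  refine ⟨z, ι, inferInstance, WithLp.toLp 2 fun i => ρ (star (w i)) ξ, C, z0, qz, hz, hC, ?_,
    fun x hx => ?_, fun x => ?_, fun ζ => ⟨fun T => ∑ i, ⟪ζ i, T (ρ (star (w i)) ξ)⟫_ℂ,
      continuous_finset_sum _ fun i _ => ContinuousLinearMapWOT.continuous_iff.1 continuous_id _ _,
      fun x => by rw [PiLp.inner_apply]; rfl⟩⟩
  · ext i
    rw [dg_apply, ← rho_mul, st_r hz.1 (wz i)]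
  · rw [← w2, mul_sum]
    refine sum_eq_zero fun i _ => ?_
    have := fa (x * star (w i)) (by rw [rho_mul]; exact congrArg (· i) hx)
    rw [mul_assoc, st_l hf (w1 i)] at this
    rw [← mul_assoc, this, zero_mul]
  · rw [hn, hn, sum_comm, mul_sum]
    refine sum_le_sum fun i _ => ?_
    rw [mul_sum]
    refine sum_le_sum fun j _ => ?_
    have := tr (w i * star x * star (w j)) (by rw [← mul_assoc, ← mul_assoc, w1])
      (by rw [mul_assoc, st_l hf (w1 j)])
    simpa only [star_mul, star_star, mul_assoc] using this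

end Vale.Agent.P082
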