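import Vale.Agent.P082.Avg
import Vale.Agent.P082.Trace
import Vale.Agent.P104.Dom

/-! A dominating quadratic form for a completely bounded map. -/

namespace Vale.Agent.P082

open scoped InnerProductSpace
open Finset

section Frame

variable {H : Type*} [NormedAddCommGroup H] [InnerProductSpace ℂ H]

theorem exists_frame {κ : Type} [Fintype κ] (x : κ → H) : ∃ α : κ → H →ₗ[ℂ] ℂ,
    (∀ k, ∑ j, α j (x k) • x j = x k) ∧
    ∀ h : κ → H, ∑ k, ‖∑ j, α j (x k) • h j‖ ^ 2 ≤ ∑ j, ‖h j‖ ^ 2 := by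
  classical
  let F : EuclideanSpace ℂ κ →ₗ[ℂ] H :=
    Fintype.linearCombination ℂ x ∘ₗ (WithLp.linearEquiv 2 ℂ _).toLinearMap
  have hF : ∀ l, F l = ∑ j, l j • x j := fun l => by simp [F, Fintype.linearCombination_apply]
  obtain ⟨G, hG⟩ := (F ∘ₗ (LinearMap.ker F)ᗮ.subtype).exists_leftInverse_of_injective
    (LinearMap.ker_eq_bot'.2 fun m hm => Subtype.ext (inner_self_eq_zero.1 (m.2 _ hm)))
  obtain ⟨P, hP⟩ : ∃ P, P = (LinearMap.ker F)ᗮ.starProjection := ⟨_, rfl⟩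
  have h1 : ∀ l, F (P l) = F l := fun l => by
    rw [hP, Submodule.starProjection_orthogonal_val, map_sub,
      LinearMap.mem_ker.1 (Submodule.starProjection_apply_mem (LinearMap.ker F) l), sub_zero]
  have h2 : ∀ l, G (F l) = P l := fun l => by
    rw [← h1, hP]
    exact congrArg Subtype.val (LinearMap.congr_fun hG ⟨_, Submodule.starProjection_apply_mem _ l⟩)
  have h3 : ∀ k, (G (x k) : EuclideanSpace ℂ κ) = P (EuclideanSpace.single k 1) := fun k => by
    rw [← h2, hF]; simp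
  have h4 : ∀ k j, (starRingEnd ℂ) (P (EuclideanSpace.single k 1) j)
      = P (EuclideanSpace.single j 1) k := fun k j => by
    have := Submodule.inner_starProjection_left_eq_right (LinearMap.ker F)ᗮ
      (EuclideanSpace.single k 1) (EuclideanSpace.single j 1)
    simpa [hP, EuclideanSpace.inner_single_left, EuclideanSpace.inner_single_right] using this
  have h5 : ∀ j l, ∑ k, P (EuclideanSpace.single j 1) k * P (EuclideanSpace.single k 1) l
      = P (EuclideanSpace.single j 1) l := fun j l => by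
    have e : P (P (EuclideanSpace.single j 1)) = P (EuclideanSpace.single j 1) := by
      rw [hP]; exact Submodule.starProjection_eq_self_iff.2 (Submodule.starProjection_apply_mem _ _)
    nth_rw 2 [← e]
    generalize P (EuclideanSpace.single j 1) = y
    nth_rw 2 [← (EuclideanSpace.basisFun κ ℂ).sum_repr y]
    simp
  refine ⟨fun j => (EuclideanSpace.projₗ j) ∘ₗ (LinearMap.ker F)ᗮ.subtype ∘ₗ G, fun k => ?_,
    fun h => ?_⟩
  · refine (hF (G (x k))).symm.trans ?_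
    rw [h3, h1, hF]; simp
  change ∑ k, ‖∑ j, (G (x k) : EuclideanSpace ℂ κ) j • h j‖ ^ 2 ≤ _
  simp only [h3]
  obtain ⟨u, hu⟩ : ∃ u : κ → H, ∀ k, u k = ∑ j, P (EuclideanSpace.single k 1) j • h j :=
    ⟨_, fun _ => rfl⟩
  have e : ∑ k, ⟪u k, u k⟫_ℂ = ∑ j, ⟪u j, h j⟫_ℂ := by
    have : ∀ j, u j = ∑ k, P (EuclideanSpace.single j 1) k • u k := fun j => by
      simp only [hu, smul_sum, smul_smul]
      rw [sum_comm]
      simp only [← sum_smul, h5]
    rw [sum_congr rfl fun k _ => congrArg (⟪u k, ·⟫_ℂ) (hu k),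
      sum_congr rfl fun j _ => congrArg (⟪·, h j⟫_ℂ) (this j)]
    simp only [inner_sum, sum_inner, inner_smul_left, inner_smul_right, h4]
    exact sum_comm
  simp only [← hu]
  have e2 := congrArg Complex.re e
  simp only [Complex.re_sum] at e2
  have e3 : ∑ j, (⟪u j, h j⟫_ℂ).re ≤ ∑ j, (‖u j‖ ^ 2 + ‖h j‖ ^ 2) / 2 := sum_le_sum fun j _ => by
    have := re_inner_le_norm (𝕜 := ℂ) (u j) (h j)
    rw [RCLike.re_to_complex] at this
    nlinarith [sq_nonneg (‖u j‖ - ‖h j‖)]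
  rw [← e2, ← sum_div, sum_add_distrib, sum_congr rfl fun j _ =>
    show (⟪u j, u j⟫_ℂ).re = ‖u j‖ ^ 2 from inner_self_eq_norm_sq (𝕜 := ℂ) _] at e3
  linarith

/-- Domination by a finite family of vectors. -/
def Fam (φ : (H →ₗ[ℂ] H) → ℝ) (r : ℝ) : Prop := ∃ (κ : Type) (_ : Fintype κ) (x : κ → H),
  (∀ ξ, φ ξ ≤ ∑ j, ‖ξ (x j)‖ ^ 2) ∧ ∑ j, ‖x j‖ ^ 2 ≤ r

variable {φ ψ : (H →ₗ[ℂ] H) → ℝ} {r s : ℝ}

theorem Fam.nn (h : Fam φ r) : 0 ≤ r := by
  obtain ⟨_, _, x, -, h⟩ := h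
  exact le_trans (by positivity) h

theorem Fam.add (h : Fam φ r) (h' : Fam ψ s) : Fam (φ + ψ) (r + s) := by
  obtain ⟨κ, _, x, h1, h2⟩ := h
  obtain ⟨κ', _, x', k1, k2⟩ := h'
  exact ⟨κ ⊕ κ', inferInstance, Sum.elim x x', fun ξ => by simpa using add_le_add (h1 ξ) (k1 ξ),
    by simpa using add_le_add h2 k2⟩

theorem Fam.smul (h : Fam φ r) {c : ℝ} (hc : 0 ≤ c) : Fam (c • φ) (c * r) := by
  obtain ⟨κ, _, x, h1, h2⟩ := h
  refine ⟨κ, inferInstance, fun j => (√c : ℂ) • x j, fun ξ => ?_, ?_⟩ <;>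
    simp only [map_smul, norm_smul, mul_pow, Complex.norm_real, Real.norm_eq_abs, sq_abs,
      Real.sq_sqrt hc, ← mul_sum]
  exacts [mul_le_mul_of_nonneg_left (h1 ξ) hc, mul_le_mul_of_nonneg_left h2 hc]

theorem Fam.mono (h : Fam φ r) (k : ∀ ξ, ψ ξ ≤ φ ξ) : Fam ψ r := by
  obtain ⟨κ, _, x, h1, h2⟩ := h
  exact ⟨κ, inferInstance, x, fun ξ => (k ξ).trans (h1 ξ), h2⟩

theorem fam_zero : Fam (0 : (H →ₗ[ℂ] H) → ℝ) 0 := ⟨Empty, inferInstance, Empty.elim, by simp⟩

theorem fam_one (y : H) : Fam (fun ξ => ‖ξ y‖ ^ 2) (‖y‖ ^ 2) :=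
  ⟨Unit, inferInstance, fun _ => y, by simp⟩

variable (H) in
/-- Dominated functions. -/
def Dm : Submodule ℝ ((H →ₗ[ℂ] H) → ℝ) where
  carrier := {φ | (∃ r, Fam φ r) ∧ ∃ r, Fam (-φ) r}
  add_mem' := fun ⟨⟨_, a⟩, _, b⟩ ⟨⟨_, c⟩, _, d⟩ => 
    ⟨⟨_, a.add c⟩, _, (b.add d).mono fun ξ => by simp [add_comm]⟩
  zero_mem' := ⟨⟨_, fam_zero⟩, _, fam_zero.mono fun ξ => by simp⟩
  smul_mem' := fun c _ ⟨⟨_, a⟩, _, b⟩ => (le_total 0 c).elim
    (fun h => ⟨⟨_, a.smul h⟩, _, by simpa using b.smul h⟩) fun h =>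
      ⟨⟨_, by simpa using b.smul (neg_nonneg.2 h)⟩, _, by simpa using a.smul (neg_nonneg.2 h)⟩

theorem mem_Dm : φ ∈ Dm H ↔ (∃ r, Fam φ r) ∧ ∃ r, Fam (-φ) r := Iff.rfl

end Frame

/-- Sums along formal tensors. -/
def ev {A H E : Type*} [AddCommMonoid E] (g : A → H → E) (w : List (A × H)) : E :=
  (w.map fun p => g p.1 p.2).sum

@[simp] theorem ev_nil {A H E : Type*} [AddCommMonoid E] (g : A → H → E) : ev g [] = 0 := rfl

@[simp] theorem ev_cons {A H E : Type*} [AddCommMonoid E] (g : A → H → E) (p : A × H)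
    (w : List (A × H)) : ev g (p :: w) = g p.1 p.2 + ev g w := List.sum_cons

variable {A : Type*} [CStarAlgebra A] {H : Type*} [NormedAddCommGroup H] [InnerProductSpace ℂ H]
  [CompleteSpace H] [VN A H]

/-- Bounds for matrices. -/
def Ctr {ι κ : Type} [Fintype ι] [Fintype κ] (y : ι → κ → A) (k : ℝ) : Prop :=
  ∀ h : κ → H, ∑ i, ‖∑ j, ρ (y i j) (h j)‖ ^ 2 ≤ k * ∑ j, ‖h j‖ ^ 2

/-- Boundedness on matrices of size at most `n`. -/
def CBn (θ : A → A) (k : ℝ) (n : ℕ) : Prop :=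
  ∀ (ι κ : Type) [Fintype ι] [Fintype κ], Fintype.card ι ≤ n → Fintype.card κ ≤ n →
    ∀ y : ι → κ → A, Ctr y 1 → Ctr (fun i j => θ (y i j)) k

/-- The map induced on formal tensors. -/
noncomputable def tt (θ : A → A) (w : List (A × H)) : H := ev (fun a y => ρ (θ a) y) w

/-- Evaluation of formal tensors. -/
noncomputable def hat (ξ : H →ₗ[ℂ] H) (w : List (A × H)) : H := ev (fun a y => ρ a (ξ y)) w

/-- Left multiplication of formal tensors. -/
def lm (m : A) (w : List (A × H)) : List (A × H) := w.map fun p => (m * p.1, p.2)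

theorem key_ineq {θ : A → A} (l : IsLinearMap ℂ θ) {k : ℝ} (hk : 0 ≤ k) (h : ∀ n, CBn θ k n)
    {ι : Type} [Fintype ι] (w : ι → List (A × H)) {r : ℝ}
    (hr : Fam (fun ξ => ∑ i, ‖hat ξ (w i)‖ ^ 2) r) : ∑ i, ‖tt θ (w i)‖ ^ 2 ≤ k * r := by
  obtain ⟨κ, _, x, h1, h2⟩ := hr
  obtain ⟨M, hM⟩ : ∃ M, M = ∑ p : Σ i, Fin (w i).length, ‖((w p.1).get p.2).2‖ ^ 2 := ⟨_, rfl⟩
  have M0 : 0 ≤ M := by rw [hM]; positivity
  refine le_of_forall_pos_le_add fun ε hε => ?_
  have hδ : 0 < ε / (k * M + 1) := by positivity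
  have hδ' : k * M * (ε / (k * M + 1)) ≤ ε := by
    rw [← mul_div_assoc, div_le_iff₀ (by positivity)]; nlinarith
  generalize ε / (k * M + 1) = δ at hδ hδ'
  let x' : κ ⊕ (Σ i, Fin (w i).length) → H :=
    Sum.elim x fun p => (√δ : ℂ) • ((w p.1).get p.2).2
  obtain ⟨α, a1, a2⟩ := exists_frame x'
  have := h _ ι _ (le_max_left _ _) (le_max_right _ _)
    (fun i j => ev (fun a y => α j y • a) (w i)) (fun h => ?_) x'
  · refine le_trans (le_of_eq (sum_congr rfl fun i _ => ?_)) (this.trans ?_)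
    · have : ∀ p ∈ w i, ∑ j, α j p.2 • x' j = p.2 := fun p hp => by
        obtain ⟨n, rfl⟩ := List.get_of_mem hp
        have := a1 (.inr ⟨i, n⟩)
        simp only [x', Sum.elim_inr, map_smul, smul_eq_mul, mul_smul, ← smul_sum] at this
        exact smul_right_injective _ (by simpa using (Real.sqrt_pos.2 hδ).ne') this
      congr 2
      beta_reduce
      generalize w i = u at this
      induction u with
      | nil => simp [tt, l.map_zero]
      | cons p u ih =>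
        simp only [tt, ev_cons, l.map_add, l.map_smul, map_add, map_smul, sum_add_distrib,
          ContinuousLinearMap.add_apply, ContinuousLinearMap.smul_apply] at ih ⊢
        rw [ih fun q hq => this q (List.mem_cons_of_mem _ hq)]
        nth_rw 1 [← this p List.mem_cons_self]
        simp only [map_sum, map_smul]
    · simp only [Fintype.sum_sum_type, x', Sum.elim_inl, Sum.elim_inr, norm_smul, mul_pow,
        Complex.norm_real, Real.norm_eq_abs, sq_abs, Real.sq_sqrt hδ.le, ← mul_sum, ← hM]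
      nlinarith [mul_le_mul_of_nonneg_left h2 hk]
  have k1 := h1 (∑ j, (α j).smulRight (h j))
  have k2 := a2 h
  rw [Fintype.sum_sum_type] at k2
  simp only [LinearMap.sum_apply, LinearMap.smulRight_apply] at k1
  refine le_trans (le_of_eq (sum_congr rfl fun i _ => ?_)) (k1.trans ?_)
  · congr 2
    beta_reduce
    generalize w i = u
    induction u with
    | nil => simp [hat]
    | cons p u ih =>
      simp only [hat, ev_cons, map_add, map_smul, sum_add_distrib, ContinuousLinearMap.add_apply,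
        ContinuousLinearMap.smul_apply, LinearMap.sum_apply, LinearMap.smulRight_apply,
        map_sum] at ih ⊢
      rw [ih]
  · rw [one_mul]
    exact le_trans (le_add_of_nonneg_right (by positivity)) k2

/-- Finite families with `∑ m* m = 1`. -/
def KF (A : Type*) [CStarAlgebra A] :=
  {m : ℕ × (ℕ → A) // ∑ j ∈ range m.1, star (m.2 j) * m.2 j = 1}

/-- Quadratic forms on formal tensors. -/
structure Form (B : List (A × H) → ℝ) (k : ℝ) : Prop where
  nn : 0 ≤ k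
  nil : B [] = 0
  par : ∀ x y w, B ((x, y) :: w) + B ((x, -y) :: w) ≤ 2 * B w + 2 * (k * (‖x‖ ^ 2 * ‖y‖ ^ 2))
  kr : ∀ (m : KF A) w, ∑ j ∈ range m.1.1, B (lm (m.1.2 j) w) = B w

theorem hat_lm (ξ : H →ₗ[ℂ] H) (m : A) (w : List (A × H)) : hat ξ (lm m w) = ρ m (hat ξ w) := by
  induction w with
  | nil => simp [hat, lm]
  | cons p w ih => simp only [hat, lm, List.map_cons, ev_cons, map_add, rho_mul] at ih ⊢; rw [ih]

theorem fam_sq (a : A) (y : H) : Fam (fun ξ => ‖ρ a (ξ y)‖ ^ 2) (‖a‖ ^ 2 * ‖y‖ ^ 2) :=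
  ((fam_one y).smul (sq_nonneg ‖a‖)).mono fun ξ => by
    simpa [← mul_pow] using pow_le_pow_left₀ (norm_nonneg _) (rho_le a (ξ y)) 2

theorem exists_form {θ : A → A} (l : IsLinearMap ℂ θ) {k : ℝ} (hk : 0 ≤ k) (h : ∀ n, CBn θ k n) :
    ∃ B, Form B k ∧ ∀ w, ‖tt θ w‖ ^ 2 ≤ B w := by
  have m : ∀ w : List (A × H), (fun ξ => ‖hat ξ w‖ ^ 2) ∈ Dm H := fun w => by
    refine mem_Dm.2 ⟨?_, _, fam_zero.mono fun ξ => by simp⟩
    induction w with
    | nil => exact ⟨_, fam_zero.mono fun ξ => by simp [hat]⟩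
    | cons p w ih =>
      obtain ⟨r, hr⟩ := ih
      refine ⟨_, (((fam_sq p.1 p.2).add hr).smul zero_le_two).mono fun ξ => ?_⟩
      have := pow_le_pow_left₀ (norm_nonneg _) (norm_add_le (ρ p.1 (ξ p.2)) (hat ξ w)) 2
      simp only [hat, ev_cons, Pi.smul_apply, Pi.add_apply, smul_eq_mul] at this ⊢
      nlinarith [sq_nonneg (‖ρ p.1 (ξ p.2)‖ - ‖ev (fun a y => ρ a (ξ y)) w‖)]
  let p : Dm H → ℝ := fun φ => sInf {r | Fam φ.1 r}
  have p1 : ∀ φ r, Fam φ.1 r → p φ ≤ r := fun φ r hr => csInf_le ⟨0, fun _ h => h.nn⟩ hr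
  have p2 : ∀ φ t, (∀ r, Fam φ.1 r → t ≤ r) → t ≤ p φ := fun φ t h => le_csInf (mem_Dm.1 φ.2).1 h
  have p3 : ∀ c : ℝ, 0 < c → ∀ φ, p (c • φ) ≤ c * p φ := fun c hc φ => by
    rw [← div_le_iff₀' hc]
    exact p2 _ _ fun r hr => (div_le_iff₀' hc).2 (p1 _ _ (hr.smul hc.le))
  obtain ⟨g, g1, g2⟩ := P104.mo_family (fun φ => k * p φ) (fun c hc φ => by
      have := p3 _ (inv_pos.2 hc) (c • φ)
      rw [inv_smul_smul₀ hc.ne', le_inv_mul_iff₀ hc] at this
      rw [le_antisymm (p3 c hc φ) this, mul_left_comm]) (fun φ ψ => by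
      rw [← mul_add]
      refine mul_le_mul_of_nonneg_left (sub_le_iff_le_add.1 (p2 _ _ fun r hr => ?_)) hk
      rw [sub_le_comm]
      exact p2 _ _ fun s hs => sub_le_iff_le_add'.2 (p1 _ _ (hr.add hs)))
    (fun w => ⟨_, m w⟩) (fun w => ‖tt θ w‖ ^ 2) (fun c hc w => by
      have : ∀ g : A → H →ₗ[ℂ] H, ‖ev (fun a y => g a y)
          (w.map fun p => (p.1, (√c : ℂ) • p.2))‖ ^ 2 = c * ‖ev (fun a y => g a y) w‖ ^ 2 :=
        fun g => by
          have : ev (fun a y => g a y) (w.map fun p => (p.1, (√c : ℂ) • p.2))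
              = (√c : ℂ) • ev (fun a y => g a y) w := by
            induction w with
            | nil => simp
            | cons p w ih => simp only [List.map_cons, ev_cons, ih, map_smul, smul_add]
          rw [this, norm_smul, mul_pow, Complex.norm_real, Real.norm_eq_abs, sq_abs,
            Real.sq_sqrt hc.le]
      exact ⟨_, Subtype.ext (funext fun ξ => this fun a => (ρ a).toLinearMap ∘ₗ ξ),
        this fun a => (ρ (θ a)).toLinearMap⟩) fun ι _ w => by
      rcases hk.eq_or_lt with rfl | hk'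
      · obtain ⟨r, hr⟩ := (mem_Dm.1 (∑ i, (⟨_, m (w i)⟩ : Dm H)).2).1
        simpa using key_ineq l le_rfl h w (hr.mono fun ξ => by simp)
      rw [← div_le_iff₀' hk']
      exact p2 _ _ fun r hr => (div_le_iff₀' hk').2 (key_ineq l hk h w (hr.mono fun ξ => by simp))
  refine ⟨fun w => g ⟨_, m w⟩, ⟨hk, ?_, fun x y w => ?_, fun a w => ?_⟩, g2⟩
  · rw [← g.map_zero]; congr; ext; simp [hat]
  · have := (g1 ⟨_, m [(x, y)]⟩).trans (mul_le_mul_of_nonneg_left
      (p1 _ _ ((fam_sq x y).mono fun ξ => by simp [hat])) hk)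
    refine le_of_eq_of_le ?_ (add_le_add_right (mul_le_mul_of_nonneg_left this zero_le_two) _)
    rw [← map_add, ← smul_eq_mul, ← smul_eq_mul, ← map_smul, ← map_smul, ← map_add]
    congr 1
    ext ξ
    have := parallelogram_law_with_norm ℂ (hat ξ w) (ρ x (ξ y))
    simp only [hat, Submodule.coe_add, Submodule.coe_smul, Pi.add_apply, Pi.smul_apply, ev_cons,
      ev_nil, smul_eq_mul, add_zero, map_neg] at this ⊢
    rw [add_comm (ρ x _), neg_add_eq_sub]
    linarith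
  · rw [← map_sum]
    congr 1
    ext ξ
    simp only [AddSubmonoidClass.coe_finset_sum, Finset.sum_apply, hat_lm, ← om_sq, ← om_sum, a.2,
      om_one]

end Vale.Agent.P082
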