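import Vale.Agent.P082.CB1

/-! Averaging of completely bounded maps. -/

namespace Vale.Agent.P082

open scoped InnerProductSpace
open Finset Filter Topology ContinuousLinearMapWOT

variable {A : Type*} [CStarAlgebra A]

/-- Averaging along a family. -/
noncomputable def bt (m : KF A) : Fn A A →ₗ[ℝ] Fn A A := ∑ j ∈ range m.1.1, ac (m.1.2 j)

theorem bt_apply (m : KF A) (θ : Fn A A) (x : A) :
    bt m θ x = ∑ j ∈ range m.1.1, star (m.1.2 j) * θ (m.1.2 j * x) := by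
  simp only [bt, LinearMap.sum_apply, Fn.sum_apply, ac_apply]

variable {H : Type*} [NormedAddCommGroup H] [InnerProductSpace ℂ H] [CompleteSpace H] [VN A H]

theorem tt_bt (m : KF A) (θ : Fn A A) (w : List (A × H)) :
    tt (bt m θ) w = ∑ j ∈ range m.1.1, ρ (star (m.1.2 j)) (tt θ (lm (m.1.2 j) w)) := by
  induction w with
  | nil => simp [tt, lm]
  | cons p w ih =>
    simp only [tt, lm, List.map_cons, ev_cons, map_add, sum_add_distrib] at ih ⊢
    rw [ih, bt_apply]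
    simp only [map_sum, ContinuousLinearMap.sum_apply, rho_mul]

theorem tt_lin (θ θ' : Fn A A) (a b : ℝ) (w : List (A × H)) :
    tt (a • θ + b • θ' : Fn A A) w = (a : ℂ) • tt θ w + (b : ℂ) • tt θ' w := by
  induction w with
  | nil => simp [tt]
  | cons p w ih =>
    simp only [tt, ev_cons, Fn.add_apply, Fn.smul_apply, ← Complex.coe_smul, map_add, map_smul,
      ContinuousLinearMap.add_apply, ContinuousLinearMap.smul_apply] at ih ⊢
    rw [ih]; module

theorem tt_cont {α : Type*} [TopologicalSpace α] {f : α → A → A} (hf : ∀ x, WC fun t => f t x)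
    (ζ : H) (w : List (A × H)) : Continuous fun t => (⟪ζ, tt (f t) w⟫_ℂ).re := by
  refine Complex.continuous_re.comp ?_
  induction w with
  | nil => simpa [tt] using continuous_const
  | cons p w ih =>
    simp only [tt, ev_cons, inner_add_right]
    exact ((hf _).inner ζ p.2).add ih

/-- Domination of a map by a form on the range of `p`. -/
def Dom (θ : A → A) (B : List (A × H) → ℝ) (p : A) (s : ℝ) : Prop :=
  ∀ ζ : H, ρ p ζ = ζ → ∀ w, 2 * (⟪ζ, tt θ w⟫_ℂ).re ≤ B w + s * ‖ζ‖ ^ 2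

variable {B : List (A × H) → ℝ} {k s : ℝ} {p : A}

theorem closed_dom {α : Type*} [TopologicalSpace α] {f : α → A → A}
    (hf : ∀ x, WC fun t => f t x) : IsClosed {t | Dom (f t) B p s} :=
  closed_all fun ζ => closed_all fun _ => closed_all fun w =>
    isClosed_le ((tt_cont hf ζ w).const_mul 2) continuous_const

theorem Dom.cvx {θ θ' : Fn A A} (h : Dom θ B p s) (h' : Dom θ' B p s) {a b : ℝ} (ha : 0 ≤ a)
    (hb : 0 ≤ b) (e : a + b = 1) : Dom (a • θ + b • θ' : Fn A A) B p s := fun ζ hζ w => by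
  have h1 := mul_le_mul_of_nonneg_left (h ζ hζ w) ha
  have h2 := mul_le_mul_of_nonneg_left (h' ζ hζ w) hb
  rw [tt_lin, inner_add_right, inner_smul_right, inner_smul_right, Complex.add_re,
    Complex.re_ofReal_mul, Complex.re_ofReal_mul, ← one_mul (B w + _), ← e]
  linarith

theorem kr_bound (hB : Form B k) (θ : Fn A A) (m : KF A) (ζ : H) (t : ℕ → ℝ)
    (h : ∀ j w, 2 * (⟪ρ (m.1.2 j) ζ, tt θ w⟫_ℂ).re ≤ B w + t j * ‖ρ (m.1.2 j) ζ‖ ^ 2)
    (w : List (A × H)) : 2 * (⟪ζ, tt (bt m θ) w⟫_ℂ).re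
      ≤ B w + ∑ j ∈ range m.1.1, t j * ‖ρ (m.1.2 j) ζ‖ ^ 2 := by
  rw [tt_bt, inner_sum, Complex.re_sum, mul_sum, ← hB.kr m w, ← sum_add_distrib]
  exact sum_le_sum fun j _ => by rw [← inner_rho]; exact h j _

theorem Dom.bt (hB : Form B k) {θ : Fn A A} (hp : CP p) (h : Dom θ B p s) (m : KF A) :
    Dom (bt m θ) B p s := fun ζ hζ w => by
  have := kr_bound hB θ m ζ (fun _ => s) (fun j => h _ (by rw [← rho_mul, hp.2, rho_mul, hζ])) w
  simpa only [← mul_sum, ← om_sq, ← om_sum, m.2, om_one] using this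

theorem dom_of {θ : A → A} (h : ∀ w, ‖tt θ w‖ ^ 2 ≤ B w) : Dom θ B 1 1 := fun ζ _ w => by
  have := re_inner_le_norm (𝕜 := ℂ) ζ (tt θ w)
  rw [RCLike.re_to_complex] at this
  nlinarith [h w, sq_nonneg (‖ζ‖ - ‖tt θ w‖)]

theorem Dom.norm (hB : Form B k) {θ : A → A} (h : Dom θ B 1 1) (x : A) :
    ‖θ x‖ ≤ √k * ‖x‖ := by
  have := hB.nn
  rw [← norm_rho]
  refine (ρ (θ x)).opNorm_le_bound (by positivity) fun y => ?_
  have h1 := h (ρ (θ x) y) (by simp) [(x, y)]
  have h2 := h (-ρ (θ x) y) (by simp) [(x, -y)]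
  have h3 := hB.par x y []
  have h4 : (⟪ρ (θ x) y, ρ (θ x) y⟫_ℂ).re = ‖ρ (θ x) y‖ ^ 2 := inner_self_eq_norm_sq (𝕜 := ℂ) _
  simp only [tt, ev_cons, ev_nil, add_zero, map_neg, inner_neg_neg, norm_neg, h4] at h1 h2
  rw [← sq_le_sq₀ (norm_nonneg _) (by positivity), mul_pow, mul_pow, Real.sq_sqrt hB.nn]
  linarith [hB.nil]

variable [PartialOrder A] [StarOrderedRing A]

theorem fill (hp : IsStarProjection p) : ∃ z, CP z ∧ z * p = p ∧ ∃ Q, Q * z = z ∧
    wk Q ∈ closure (wk '' {r | IsStarProjection r ∧ ∃ (n : ℕ) (m : ℕ → A), (∀ j, p * m j = m j) ∧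
      ∑ j ∈ range n, star (m j) * m j = r}) := by
  obtain ⟨z, h1, h2, h3⟩ := exists_cs p
  obtain ⟨Q, ⟨k1, k2⟩, hm⟩ := max_pj (fun Q => IsStarProjection Q ∧ wk Q ∈ closure (wk ''
      {r | Q * r = r ∧ IsStarProjection r ∧ ∃ (n : ℕ) (m : ℕ → A), (∀ j, p * m j = m j) ∧
        ∑ j ∈ range n, star (m j) * m j = r}))
    ⟨.zero A, subset_closure ⟨0, ⟨by simp, .zero A, 0, 0, by simp⟩, rfl⟩⟩ (fun _ k => k.1)
    fun U W b1 b2 b3 b4 => ⟨b3, isClosed_closure.mem_of_tendsto b2 (by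
      filter_upwards [b1, b4] with v c1 c2
      refine closure_mono (Set.image_mono fun r hr => ?_) c1.2
      exact ⟨by rw [← hr.1, ← mul_assoc, c2], hr.2⟩)⟩
  refine ⟨z, h1, h2, Q, osub_l.1 (h3 _ fun x => ?_),
    closure_mono (Set.image_mono fun r hr => hr.2) k2⟩
  by_contra hx
  obtain ⟨v, v1, v2, v3, v4⟩ := exists_pi (x := star ((1 - Q) * x * p)) (e := 1 - Q) (f := p)
    (star_ne_zero.2 hx) (st_r hp (by rw [mul_assoc, pj_sq hp]))
    (st_l k1.one_sub (by rw [← mul_assoc, ← mul_assoc, pj_sq k1.one_sub]))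
  have b0 : v * Q = 0 := by rw [← v4, mul_assoc, k1.one_sub_mul_self, mul_zero]
  have b1 : star v * v * Q = 0 := by rw [mul_assoc, b0, mul_zero]
  have b2 : Q * (star v * v) = 0 := by simpa only [pj_st k1, pj_st v2.ini] using st_zero b1
  refine v1 (v2.symm.trans ((congrArg (v * ·) (hm _ v2.ini b2 ⟨k1.add v2.ini b2, ?_⟩)).trans
    (mul_zero v)))
  rw [wk_add]
  refine map_mem_closure (f := (· + wk (star v * v))) (by fun_prop) k2 ?_
  rintro _ ⟨r, ⟨c1, c2, n, m, c3, c4⟩, rfl⟩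
  have c5 : star v * v * r = 0 := by rw [← c1, ← mul_assoc, b1, zero_mul]
  refine ⟨r + star v * v, ⟨?_, c2.add v2.ini ?_, n + 1, fun j => Nat.casesOn j v m, ?_, ?_⟩,
    wk_add _ _⟩
  · rw [add_mul, mul_add, mul_add, c1, b2, c5, pj_sq v2.ini, add_zero, zero_add]
  · simpa only [pj_st c2, pj_st v2.ini] using st_zero c5
  · rintro (_ | j)
    exacts [v3, c3 j]
  · rw [sum_range_succ', c4]; rfl

theorem cb_point (hB : Form B k) {K : Set (Fn A A)} (h : Minl (Set.range fun m : KF A => bt m) K)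
    (h1 : ∀ θ ∈ K, Dom θ B 1 1) {θ θ' : Fn A A} (hθ : θ ∈ K) (hθ' : θ' ∈ K) (x : A) :
    θ x = θ' x := by
  by_contra hx
  obtain ⟨D, hD⟩ : ∃ D, D = θ x - θ' x := ⟨_, rfl⟩
  have D0 : 0 < ‖D * star D‖ / 2 := by
    rw [CStarRing.norm_self_mul_star]
    have := norm_pos_iff.2 (hD ▸ sub_ne_zero.2 hx)
    positivity
  obtain ⟨F, hF⟩ := exists_spec (mul_star_self_nonneg D)
  have hp := hF.pj (‖D * star D‖ / 2)
  have p0 : F (‖D * star D‖ / 2) ≠ 0 := fun e => by
    have := hF.up (‖D * star D‖ / 2)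
    rw [e, sub_zero, mul_one] at this
    linarith [P104.norm_le_of_le (mul_star_self_nonneg D) D0.le this]
  have p1 := hF.lo' hp (pj_sq hp)
  generalize F (‖D * star D‖ / 2) = p at hp p0 p1
  generalize ‖D * star D‖ / 2 = δ at D0 p1
  obtain ⟨z, z1, z2, Q, z3, z4⟩ := fill hp
  have k0 := hB.nn
  obtain ⟨t, t0, t1⟩ : ∃ t : ℝ, 0 < t ∧ k * ‖x‖ ^ 2 * t ≤ 1 / 2 :=
    ⟨1 / (2 * (k * ‖x‖ ^ 2) + 1), by positivity, by
      rw [mul_one_div, div_le_div_iff₀ (by positivity) two_pos]; linarith⟩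
  have key : ∀ n : ℕ, ∀ θ ∈ K, Dom θ B z (1 - n * (t * δ / 2)) := fun n => by
    induction n with
    | zero => exact fun θ k ζ _ => by simpa using h1 θ k ζ (by simp)
    | succ n ih =>
      rw [show 1 - (n + 1 : ℕ) * (t * δ / 2) = 1 - n * (t * δ / 2) - t * δ / 2 by push_cast; ring]
      generalize 1 - n * (t * δ / 2) = s at ih
      have m := h.cvx hθ hθ' (a := 1 / 2) (b := 1 / 2) (by norm_num) (by norm_num) (by norm_num)
      have d : Dom ((1 / 2 : ℝ) • θ + (1 / 2 : ℝ) • θ' : Fn A A) B p (s - t * δ / 2) :=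
        fun ζ hζ w => by
          have e : ρ z ζ = ζ := by rw [← hζ, ← rho_mul, z2]
          have b1 := ih θ hθ ζ e ((x, (t : ℂ) • ρ (star D) ζ) :: w)
          have b2 := ih θ' hθ' ζ e ((x, -((t : ℂ) • ρ (star D) ζ)) :: w)
          have b3 := hB.par x ((t : ℂ) • ρ (star D) ζ) w
          have b4 := re_mono p1 ζ
          have b5 : (⟪ζ, ρ (θ x) (ρ (star D) ζ)⟫_ℂ).re - (⟪ζ, ρ (θ' x) (ρ (star D) ζ)⟫_ℂ).re
              = ‖ρ (star D) ζ‖ ^ 2 := by
            rw [norm_sq_rho, star_star, rho_mul, ← Complex.sub_re, ← inner_sub_right, hD, map_sub,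
              ContinuousLinearMap.sub_apply]
          change om ζ _ ≤ om ζ _ at b4
          nth_rw 2 [← pj_st hp] at b4
          rw [← om_conj, hζ, om_smul, om, hζ, ← star_star D, star_star (star D), om_sq,
            show (⟪ζ, ζ⟫_ℂ).re = ‖ζ‖ ^ 2 from inner_self_eq_norm_sq (𝕜 := ℂ) _] at b4
          rw [norm_smul, Complex.norm_real, mul_pow, Real.norm_eq_abs, sq_abs] at b3
          simp only [tt, ev_cons, map_neg, map_smul, inner_add_right, inner_neg_right,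
            inner_smul_right, Complex.add_re, Complex.neg_re, Complex.re_ofReal_mul] at b1 b2
          rw [tt_lin, inner_add_right, inner_smul_right, inner_smul_right, Complex.add_re,
            Complex.re_ofReal_mul, Complex.re_ofReal_mul]
          simp only [tt]
          nlinarith [mul_le_mul_of_nonneg_left b4 t0.le, congrArg (t * ·) b5,
            mul_le_mul_of_nonneg_right t1 (mul_nonneg t0.le (sq_nonneg ‖ρ (star D) ζ‖))]
      generalize ((1 / 2 : ℝ) • θ + (1 / 2 : ℝ) • θ' : Fn A A) = θ0 at m d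
      obtain ⟨U, u1, u2⟩ := mem_closure_iff_ultrafilter.1 z4
      have : ∀ T : H →WOT[ℂ] H, ∃ θ1 ∈ K, T ∈ wk '' {r | IsStarProjection r ∧ ∃ (n : ℕ) (m : ℕ → A),
          (∀ j, p * m j = m j) ∧ ∑ j ∈ range n, star (m j) * m j = r} → ∀ ζ : H, ρ z ζ = ζ → ∀ w,
          2 * (⟪ζ, tt θ1 w⟫_ℂ).re ≤ B w + s * ‖ζ‖ ^ 2 - t * δ / 2 * (⟪ζ, T ζ⟫_ℂ).re := fun T => by
        by_cases hT : T ∈ wk '' {r | IsStarProjection r ∧ ∃ (n : ℕ) (m : ℕ → A),
          (∀ j, p * m j = m j) ∧ ∑ j ∈ range n, star (m j) * m j = r}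
        swap
        · exact ⟨θ0, m, fun e => absurd e hT⟩
        obtain ⟨r, ⟨c1, n, a, c2, c3⟩, rfl⟩ := hT
        have c4 : star (1 - r) * (1 - r) = 1 - r := by rw [pj_st c1.one_sub, pj_sq c1.one_sub]
        let b : KF A := ⟨(n + 1, fun j => Nat.casesOn j (1 - r) a), by
          rw [sum_range_succ', c3]
          exact (congrArg (r + ·) c4).trans (add_sub_cancel _ _)⟩
        refine ⟨_, h.inv _ ⟨b, rfl⟩ _ m, fun _ ζ hζ w => (kr_bound hB θ0 b ζ
          (fun j => Nat.casesOn j s fun _ => s - t * δ / 2) ?_ w).trans_eq ?_⟩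
        · rintro (_ | j)
          · exact ih θ0 m _ (by rw [← rho_mul, z1.2, rho_mul, hζ])
          · exact d _ (by rw [← rho_mul]; exact congrArg (ρ · ζ) (c2 j))
        · change _ + ∑ j ∈ range (n + 1), _ = _ - _ * om ζ r
          rw [sum_range_succ']
          change _ + (_ + s * ‖ρ (1 - r) ζ‖ ^ 2) = _
          rw [← om_sq (a := 1 - r), c4, om_sub, om_one]
          simp only [b, ← mul_sum, ← om_sq, ← om_sum, c3]
          ring
      choose θf f1 f2 using this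
      obtain ⟨θ1, g1, g2⟩ := h.cpt.ultrafilter_le_nhds' (U.map θf)
        (Ultrafilter.mem_map.2 (univ_mem' f1))
      refine h.min {θ | Dom θ B z (s - t * δ / 2)} (closed_dom WC.ev)
        (fun _ a _ b _ _ => a.cvx b) ⟨θ1, g1, fun ζ hζ w => ?_⟩ (by
          rintro _ ⟨m, rfl⟩ θ - k
          exact k.bt hB z1 m)
      have := le_of_tendsto_of_tendsto ((((tt_cont WC.ev ζ w).tendsto θ1).comp g2).const_mul 2)
        (((((Complex.continuous_re.comp (ContinuousLinearMapWOT.continuous_iff.1 continuous_id ζ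
          ζ)).tendsto _).mono_left u2).const_mul (t * δ / 2)).const_sub (B w + s * ‖ζ‖ ^ 2))
        (mem_of_superset u1 fun T hT => f2 T hT ζ hζ w)
      refine this.trans_eq ?_
      change _ - _ * (⟪ζ, ρ Q ζ⟫_ℂ).re = _
      rw [← hζ, ← rho_mul, z3, show (⟪ρ z ζ, ρ z ζ⟫_ℂ).re = ‖ρ z ζ‖ ^ 2 from
        inner_self_eq_norm_sq (𝕜 := ℂ) _]
      ring
  obtain ⟨n, hn⟩ := exists_nat_gt (1 / (t * δ / 2))
  rw [div_lt_iff₀ (by positivity)] at hn
  refine p0 (rho_ext fun ξ => ?_)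
  have := key n θ hθ (ρ p ξ) (by rw [← rho_mul, z2]) []
  simp only [tt, ev_nil, inner_zero_right, Complex.zero_re, hB.nil] at this
  rw [map_zero, ContinuousLinearMap.zero_apply, ← norm_eq_zero, ← sq_eq_zero_iff]
  nlinarith [sq_nonneg ‖ρ p ξ‖]

end Vale.Agent.P082
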