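import Mathlib

namespace Vale.Agent.P082

/-- The Hochschild differential of a `k`-cochain `f : A^k → A`, evaluated at
`(a_1, …, a_{k+1}) = (a 0, …, a k)`:
`a_1 f(a_2, …) + ∑_{j=1}^k (-1)^j f(…, a_j a_{j+1}, …) + (-1)^{k+1} f(a_1, …, a_k) a_{k+1}`. -/
def hochD {A : Type*} [Ring A] {k : ℕ} (f : (Fin k → A) → A) (a : Fin (k + 1) → A) : A :=
  a 0 * f (fun i => a i.succ)
    + ∑ j : Fin k, (-1 : ℤ) ^ (j.val + 1) • f (Fin.contractNth j.castSucc (· * ·) a)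
    + (-1 : ℤ) ^ (k + 1) • (f (fun i => a i.castSucc) * a (Fin.last k))

end Vale.Agent.P082
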