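import Vale.Agent.P082.Top

/-! Subalgebras: relative commutants are again von Neumann algebras. -/

namespace Vale.Agent.P082

open scoped InnerProductSpace

variable {A : Type*} [CStarAlgebra A]

scoped instance cent_closed (S : Set A) : IsClosed (StarSubalgebra.centralizer ℂ S : Set A) := by
  rw [StarSubalgebra.coe_centralizer]
  exact Set.isClosed_centralizer _

scoped instance sub_order [PartialOrder A] [StarOrderedRing A] (S : StarSubalgebra ℂ A)
    [IsClosed (S : Set A)] : StarOrderedRing S :=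
  .of_nonneg_iff' (fun h z => add_le_add_right (α := A) h z) fun x => by
    refine ⟨fun (h : (0 : A) ≤ x) => ⟨⟨CFC.sqrt (x : A), ?_⟩, Subtype.ext ?_⟩, fun ⟨s, h⟩ => ?_⟩
    · rw [CFC.sqrt_eq_real_sqrt (x : A) h]
      exact cfcₙ_mem _ x.2
    · change (x : A) = star (CFC.sqrt (x : A)) * CFC.sqrt (x : A)
      rw [(CFC.sqrt_nonneg _).star_eq, CFC.sqrt_mul_sqrt_self (x : A) h]
    · rw [h]; exact star_mul_self_nonneg (s : A)

variable {H : Type*} [NormedAddCommGroup H] [InnerProductSpace ℂ H] [CompleteSpace H]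

noncomputable scoped instance vnTop : VN (H →L[ℂ] H) H where
  ρ := StarAlgHom.id ℂ _
  inj := Function.injective_id
  bicomm T _ := ⟨T, rfl⟩

noncomputable scoped instance vnCent [VN A H] (S : Set A) : VN (StarSubalgebra.centralizer ℂ S) H where
  ρ := (ρ : A →⋆ₐ[ℂ] _).comp (StarSubalgebra.subtype _)
  inj := VN.inj.comp Subtype.val_injective
  bicomm T h := by
    obtain ⟨a, rfl⟩ := VN.bicomm (A := A) T fun U hU => h U fun a => hU a
    refine ⟨⟨a, (StarSubalgebra.mem_centralizer_iff _).2 fun g hg => ⟨VN.inj ?_, VN.inj ?_⟩⟩, rfl⟩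
    · rw [map_mul, map_mul]
      exact (h _ fun b => (Commute.map (((StarSubalgebra.mem_centralizer_iff _).1 b.2 g hg).1.symm)
        (ρ : A →⋆ₐ[ℂ] _))).symm
    · rw [map_mul, map_mul]
      exact (h _ fun b => (Commute.map (((StarSubalgebra.mem_centralizer_iff _).1 b.2 g hg).2.symm)
        (ρ : A →⋆ₐ[ℂ] _))).symm

theorem rho_cent [VN A H] {S : Set A} (a : StarSubalgebra.centralizer ℂ S) :
    ρ a = ρ (a : A) := rfl

theorem rho_top (a : H →L[ℂ] H) : ρ a = a := rfl

scoped instance vn_closed (M : VonNeumannAlgebra H) :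
    IsClosed (M.toStarSubalgebra : Set (H →L[ℂ] H)) :=
  M.centralizer_centralizer ▸ Set.isClosed_centralizer _

noncomputable scoped instance vnAlg (M : VonNeumannAlgebra H) : VN M.toStarSubalgebra H where
  ρ := StarSubalgebra.subtype _
  inj := Subtype.val_injective
  bicomm T h := ⟨⟨T, by
    rw [VonNeumannAlgebra.mem_carrier, ← M.centralizer_centralizer]
    exact fun S hS => (h S fun a => hS a a.2).symm⟩, rfl⟩

end Vale.Agent.P082
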