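import Vale.Agent.P082.TypeI
import Vale.Agent.P082.Trace
import Vale.Agent.P082.Sub

/-! The approximate trace and the diameter seminorm. -/

namespace Vale.Agent.P082

open scoped InnerProductSpace
open Finset Filter Topology

variable {A : Type*} [CStarAlgebra A] {E : Type*} [NormedAddCommGroup E] [InnerProductSpace ℂ E]

theorem four (G : A →ₗ[ℂ] E) {r : ℝ} (h : ∀ u ∈ unitary A, ‖G u‖ ≤ r) (a : A) :
    ‖G a‖ ≤ 2 * r * ‖a‖ := by
  obtain ⟨u, c, e, k⟩ := CStarAlgebra.exists_sum_four_unitary a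
  have r0 : 0 ≤ r := (norm_nonneg _).trans (h 1 (one_mem _))
  calc ‖G a‖ = ‖∑ i, c i • G (u i)‖ := by nth_rw 1 [e]; simp
    _ ≤ ∑ _i : Fin 4, ‖a‖ / 2 * r := (norm_sum_le _ _).trans (sum_le_sum fun i _ => by
        rw [norm_smul]; exact mul_le_mul (k i) (h _ (u i).2) (norm_nonneg _) (by positivity))
    _ = _ := by simp; ring

variable [CompleteSpace E]

/-- The vector map. -/
noncomputable def jj (L : A →⋆ₐ[ℂ] (E →L[ℂ] E)) (Ω : E) : A →ₗ[ℂ] E where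
  toFun x := L x Ω
  map_add' x y := by simp
  map_smul' c x := by simp

/-- The vector functional. -/
noncomputable def ta (L : A →⋆ₐ[ℂ] (E →L[ℂ] E)) (Ω : E) : A →ₗ[ℝ] ℝ where
  toFun x := (⟪Ω, L x Ω⟫_ℂ).re
  map_add' x y := by simp [inner_add_right]
  map_smul' c x := by
    rw [← Complex.coe_smul, map_smul, ContinuousLinearMap.smul_apply, inner_smul_right]; simp

variable {L : A →⋆ₐ[ℂ] (E →L[ℂ] E)} {Ω : E}

theorem jj_mul (a x : A) : jj L Ω (a * x) = L a (jj L Ω x) := by simp [jj]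

theorem jj_le (a x : A) : ‖jj L Ω (a * x)‖ ≤ ‖a‖ * ‖jj L Ω x‖ := by
  rw [jj_mul]
  exact ((L a).le_opNorm _).trans (mul_le_mul_of_nonneg_right
    (NonUnitalStarAlgHom.norm_apply_le L a) (norm_nonneg _))

theorem jj_le' (x : A) : ‖jj L Ω x‖ ≤ ‖x‖ * ‖Ω‖ := by
  simpa [jj] using jj_le (L := L) (Ω := Ω) x 1

theorem inner_jj (ζ : E) (a x : A) : ⟪ζ, jj L Ω (star a * x)⟫_ℂ = ⟪L a ζ, jj L Ω x⟫_ℂ := by
  rw [jj_mul, map_star, ContinuousLinearMap.star_eq_adjoint, ContinuousLinearMap.adjoint_inner_right]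

theorem ta_sq (x : A) : ta L Ω (star x * x) = ‖jj L Ω x‖ ^ 2 :=
  (congrArg Complex.re (inner_jj Ω x x)).trans (inner_self_eq_norm_sq (𝕜 := ℂ) _)

theorem ta_pj {p : A} (hp : IsStarProjection p) : ta L Ω p = ‖jj L Ω p‖ ^ 2 := by
  rw [← ta_sq, pj_st hp, pj_sq hp]

theorem ta_pj0 {p : A} (hp : IsStarProjection p) : 0 ≤ ta L Ω p := by
  rw [ta_pj hp]; exact sq_nonneg _

theorem ta_one : ta L Ω 1 = ‖Ω‖ ^ 2 := by rw [ta_pj (.one A)]; simp [jj]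

theorem jj_iso {u : A} (hu : star u * u = 1) (x : A) : ‖jj L Ω (u * x)‖ = ‖jj L Ω x‖ := by
  rw [← sq_eq_sq₀ (norm_nonneg _) (norm_nonneg _), ← ta_sq, ← ta_sq, star_mul, mul_assoc,
    ← mul_assoc (star u), hu, one_mul]

theorem jj_unit {u : A} (hu : u ∈ unitary A) (x : A) : ‖jj L Ω (star u * x)‖ = ‖jj L Ω x‖ :=
  jj_iso (by rw [star_star]; exact hu.2) x

theorem jj_sum {ι : Type*} [Fintype ι] (w : ι → A) (y : A) :
    ∑ i, ‖jj L Ω (w i * y)‖ ^ 2 = ta L Ω (star y * ((∑ i, star (w i) * w i) * y)) := by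
  simp only [← ta_sq, ← map_sum, star_mul, sum_mul, mul_sum, mul_assoc]

theorem Part.jj {κ : Type} [Fintype κ] {d : κ → A} (h : Part d) (y : A) :
    ∑ k, ‖jj L Ω (d k * y)‖ ^ 2 = ‖jj L Ω y‖ ^ 2 := by
  rw [jj_sum, ← ta_sq]
  simp only [fun k => pj_st (h.cp k).1, fun k => pj_sq (h.cp k).1, h.sum, one_mul]

theorem Part.ta {κ : Type} [Fintype κ] {d : κ → A} (h : Part d) (y : A) :
    ∑ k, ta L Ω (y * d k) = ta L Ω y := by
  rw [← map_sum, ← mul_sum, h.sum, mul_one]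

/-- The diameter of a set of maps at a point. -/
noncomputable def dm (L : A →⋆ₐ[ℂ] (E →L[ℂ] E)) (Ω : E) (S : Set (Fn A A)) (x : A) : ℝ :=
  ⨆ θ : S × S, ‖jj L Ω (θ.1.1 x - θ.2.1 x)‖

/-- Nonempty bounded sets of linear maps. -/
structure Pre (S : Set (Fn A A)) (B : ℝ) : Prop where
  lin : ∀ θ ∈ S, IsLinearMap ℂ θ
  nn : 0 ≤ B
  bd : ∀ θ ∈ S, ∀ x, ‖θ x‖ ≤ B * ‖x‖
  ne : S.Nonempty

namespace Pre

variable {S : Set (Fn A A)} {B : ℝ} {θ θ' : Fn A A}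

theorem sub_le (h : Pre S B) (h1 : θ ∈ S) (h2 : θ' ∈ S) (x : A) :
    ‖θ x - θ' x‖ ≤ 2 * B * ‖x‖ :=
  (norm_sub_le _ _).trans (by linarith [h.bd θ h1 x, h.bd θ' h2 x])

theorem le_dm (h : Pre S B) (h1 : θ ∈ S) (h2 : θ' ∈ S) (x : A) :
    ‖jj L Ω (θ x - θ' x)‖ ≤ dm L Ω S x :=
  le_ciSup (f := fun θ : S × S => ‖jj L Ω (θ.1.1 x - θ.2.1 x)‖) ⟨2 * B * ‖x‖ * ‖Ω‖, by
    rintro _ ⟨θ, rfl⟩
    exact (jj_le' _).trans (mul_le_mul_of_nonneg_right (h.sub_le θ.1.2 θ.2.2 x) (norm_nonneg _))⟩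
    (⟨θ, h1⟩, ⟨θ', h2⟩)

theorem dm_le (h : Pre S B) {x : A} {r : ℝ}
    (k : ∀ θ ∈ S, ∀ θ' ∈ S, ‖jj L Ω (θ x - θ' x)‖ ≤ r) : dm L Ω S x ≤ r :=
  have := h.ne.to_subtype
  ciSup_le fun θ => k _ θ.1.2 _ θ.2.2

theorem dm_nn (h : Pre S B) (x : A) : 0 ≤ dm L Ω S x :=
  h.ne.elim fun θ k => (norm_nonneg (jj L Ω (θ x - θ x))).trans (h.le_dm k k x)

theorem sq_le (h : Pre S B) (h1 : θ ∈ S) (h2 : θ' ∈ S) (x : A) :
    ‖jj L Ω (θ x - θ' x)‖ ^ 2 ≤ dm L Ω S x ^ 2 :=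
  pow_le_pow_left₀ (norm_nonneg _) (h.le_dm h1 h2 x) 2

theorem dm_sq (h : Pre S B) {x : A} {r : ℝ}
    (k : ∀ θ ∈ S, ∀ θ' ∈ S, ‖jj L Ω (θ x - θ' x)‖ ^ 2 ≤ r) : dm L Ω S x ^ 2 ≤ r :=
  (Real.le_sqrt (h.dm_nn x) (h.ne.elim fun _ a => (sq_nonneg _).trans (k _ a _ a))).1
    (h.dm_le fun θ a θ' b => Real.le_sqrt_of_sq_le (k θ a θ' b))

theorem dm_sum (h : Pre S B) {ι : Type*} (s : Finset ι) (η : ι → A) {r : ℝ}
    (k : ∀ θ θ' : ι → Fn A A, (∀ i, θ i ∈ S) → (∀ i, θ' i ∈ S) →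
      ∑ i ∈ s, ‖jj L Ω (θ i (η i) - θ' i (η i))‖ ^ 2 ≤ r) : ∑ i ∈ s, dm L Ω S (η i) ^ 2 ≤ r := by
  refine le_of_forall_pos_le_add fun ε hε => ?_
  have hδ : 0 < ε / (s.card + 1) := by positivity
  have : ∀ i, ∃ θ ∈ S, ∃ θ' ∈ S,
      dm L Ω S (η i) ^ 2 ≤ ‖jj L Ω (θ (η i) - θ' (η i))‖ ^ 2 + ε / (s.card + 1) := fun i => by
    by_contra hn
    push Not at hn
    linarith [h.dm_sq (L := L) (Ω := Ω) (x := η i) (r := dm L Ω S (η i) ^ 2 - ε / (s.card + 1))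
      fun θ a θ' b => by linarith [hn θ a θ' b]]
  choose θ a θ' b c using this
  refine (sum_le_sum fun i _ => c i).trans ?_
  rw [sum_add_distrib, sum_const, nsmul_eq_mul]
  refine add_le_add (k θ θ' a b) ?_
  rw [← mul_div_assoc, div_le_iff₀ (by positivity)]
  nlinarith

theorem dm_add (h : Pre S B) (x y : A) : dm L Ω S (x + y) ≤ dm L Ω S x + dm L Ω S y :=
  h.dm_le fun θ a θ' b => by
    rw [(h.lin θ a).map_add, (h.lin θ' b).map_add, add_sub_add_comm, map_add]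
    exact (norm_add_le _ _).trans (add_le_add (h.le_dm a b x) (h.le_dm a b y))

theorem dm_zero (h : Pre S B) : dm L Ω S 0 = 0 :=
  le_antisymm (h.dm_le fun θ a θ' b => by simp [(h.lin θ a).map_zero, (h.lin θ' b).map_zero])
    (h.dm_nn 0)

theorem dm_sum_le (h : Pre S B) {ι : Type*} (s : Finset ι) (x : ι → A) :
    dm L Ω S (∑ i ∈ s, x i) ≤ ∑ i ∈ s, dm L Ω S (x i) :=
  Finset.le_sum_of_subadditive _ h.dm_zero.le h.dm_add s x

end Pre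

variable {H : Type*} [NormedAddCommGroup H] [InnerProductSpace ℂ H] [CompleteSpace H] [VN A H]
variable {K : Set (Fn A A)} {B C : ℝ} {z : A}

theorem Sys.pre (h : Sys K B) : Pre K B := ⟨h.lin, h.nn, h.bd, h.min.ne⟩

theorem Sys.dm_mul (h : Sys K B) (a x : A) : dm L Ω K (a * x) ≤ 2 * dm L Ω K x * ‖a‖ :=
  h.pre.dm_le fun θ h1 θ' h2 => four (jj L Ω ∘ₗ ((h.lin θ h1).mk' θ - (h.lin θ' h2).mk' θ') ∘ₗ
    LinearMap.mulRight ℂ x) (fun u hu => by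
      have := h.pre.le_dm (L := L) (Ω := Ω) (h.inv hu h1) (h.inv hu h2) x
      rwa [ac_apply, ac_apply, ← mul_sub, jj_unit hu] at this) a

theorem Sys.dm_part (h : Sys K B) {κ : Type} [Fintype κ] {d : κ → A} (hd : Part d) (x : A) :
    dm L Ω K x ^ 2 ≤ ∑ k, dm L Ω K (x * d k) ^ 2 :=
  h.pre.dm_sq fun θ h1 θ' h2 => by
    rw [← hd.jj]
    refine sum_le_sum fun k _ => ?_
    rw [mul_sub, ← h.cen (hd.cp k) θ h1, ← h.cen (hd.cp k) θ' h2, (hd.cp k).2]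
    exact h.pre.sq_le h1 h2 _

theorem Sys.dm_cen (h : Sys K B) {c : A} (hc : CP c) (x : A) :
    dm L Ω K (x * c) ^ 2 ≤ (2 * B * ‖x‖) ^ 2 * ta L Ω c :=
  h.pre.dm_sq fun θ h1 θ' h2 => by
    rw [← hc.2, h.cen hc θ h1, h.cen hc θ' h2, ← mul_sub, hc.2, ta_pj hc.1, ← mul_pow]
    exact pow_le_pow_left₀ (norm_nonneg _) ((jj_le _ _).trans
      (mul_le_mul_of_nonneg_right (h.pre.sub_le h1 h2 x) (norm_nonneg _))) 2

namespace CT

theorem C0 (h : CT L Ω z C) : 0 < C := one_pos.trans_le h.one_le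

theorem jz (h : CT L Ω z C) (x : A) : jj L Ω (z * x) = jj L Ω x := by
  rw [h.cp.2, jj_mul]
  exact congrArg (L x) h.supp

theorem tr' (h : CT L Ω z C) (x : A) : ta L Ω (x * star x) ≤ C * ta L Ω (star x * x) := by
  have := ta_sq (L := L) (Ω := Ω) (star x)
  rw [star_star] at this
  rw [this, ta_sq]
  exact h.tr x

theorem left (h : CT L Ω z C) {f y : A} (hf : IsStarProjection f) (e : f * y = y) :
    ‖jj L Ω y‖ ^ 2 ≤ C * ‖y‖ ^ 2 * ta L Ω f := by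
  have := h.tr (star y)
  rw [star_star] at this
  refine this.trans ?_
  rw [mul_assoc, ta_pj hf, ← mul_pow, ← norm_star y]
  refine mul_le_mul_of_nonneg_left (pow_le_pow_left₀ (norm_nonneg _) ?_ 2) h.C0.le
  nth_rw 1 [← st_l hf e]
  exact jj_le _ _

theorem sb (h : CT L Ω z C) {e f : A} (hf : IsStarProjection f) (k : Sb e f) :
    ta L Ω e ≤ C * ta L Ω f := by
  obtain ⟨v, h1, h2, h3⟩ := k
  have hv : PI v := by rw [PI, h1, h2]
  rw [← h1, ta_sq]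
  refine (h.left hf h3).trans (mul_le_mul_of_nonneg_right (mul_le_of_le_one_right h.C0.le ?_)
    (ta_pj0 hf))
  exact pow_le_one₀ (norm_nonneg _) hv.norm_le

theorem cont (h : CT L Ω z C) {α : Type*} [TopologicalSpace α] {f : α → A} (hf : WC f) (ζ : E) :
    Continuous fun t => ⟪ζ, jj L Ω (f t)⟫_ℂ := by
  obtain ⟨g, h1, h2⟩ := h.wc ζ
  exact (h1.comp hf).congr fun t => (h2 _).symm

theorem wl (h : CT L Ω z C) {α : Type*} {l : Filter α} {x : α → A} {y : A} (k : WL l x y) :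
    Tendsto (fun i => ta L Ω (x i)) l (𝓝 (ta L Ω y)) := by
  obtain ⟨g, h1, h2⟩ := h.wc Ω
  have := ((Complex.continuous_re.comp h1).tendsto _).comp k
  simp only [Function.comp_def, ← h2] at this
  exact this

theorem mu (h : CT L Ω z C) {ι : Type*} [Fintype ι] [DecidableEq ι] {v : ι → A} {e : A}
    (mu : MU v e z) (y : A) : ∑ i, ‖jj L Ω (star (v i) * y)‖ ^ 2 = ‖jj L Ω y‖ ^ 2 := by
  rw [jj_sum, ← h.jz y, ← ta_sq, star_mul, pj_st h.cp.1, mul_assoc, pj_sq' h.cp.1]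
  simp only [star_star, mu.sum]

theorem mu_ta (h : CT L Ω z C) {ι : Type*} [Fintype ι] [DecidableEq ι] {v : ι → A} {e : A}
    (mu : MU v e z) {c : A} (hc : CP c) :
    Fintype.card ι * ta L Ω (e * c) ≤ C * ta L Ω c ∧
      ta L Ω c ≤ C * (Fintype.card ι * ta L Ω (e * c)) := by
  have e1 : ∀ i, ta L Ω (e * c) = ‖jj L Ω (v i * c)‖ ^ 2 := fun i => by
    rw [← ta_sq, hc.ini, mu.orth, if_pos rfl]
  have e2 : ∀ i, star (v i * c) = star (v i) * c := fun i => by rw [star_mul, pj_st hc.1, hc.2]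
  rw [ta_pj hc.1, ← h.mu mu c, ← card_univ, ← nsmul_eq_mul, ← sum_const, mul_sum, mul_sum]
  refine ⟨sum_le_sum fun i _ => ?_, sum_le_sum fun i _ => ?_⟩
  · have := h.tr (star (v i * c))
    rw [star_star, e2] at this
    rw [e1 i]; exact this
  · rw [e1 i, ← e2]; exact h.tr _

theorem cent (h : CT L Ω z C) (S : Set A) :
    ∃ z' : StarSubalgebra.centralizer ℂ S, (z' : A) = z ∧
      CT (L.comp (StarSubalgebra.centralizer ℂ S).subtype) Ω z' C :=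
  ⟨⟨z, (StarSubalgebra.mem_centralizer_iff _).2 fun g _ => ⟨(h.cp.2 g).symm, (h.cp.2 _).symm⟩⟩, rfl,
    ⟨⟨Subtype.ext h.cp.1.1, Subtype.ext h.cp.1.2⟩, fun x => Subtype.ext (h.cp.2 x)⟩, h.one_le,
    h.supp, fun x k => Subtype.ext (h.faith x k), fun x => h.tr x,
    fun ζ => (h.wc ζ).imp fun _ k => ⟨k.1, fun x => k.2 x⟩⟩

end CT

variable [PartialOrder A] [StarOrderedRing A]

omit [VN A H] in
theorem ta_mono {a b : A} (h : a ≤ b) : ta L Ω a ≤ ta L Ω b := by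
  obtain ⟨s, h1, h2, -⟩ := P104.exists_sqrt (sub_nonneg.2 h)
  have := ta_sq (L := L) (Ω := Ω) s
  rw [h1.star_eq, h2, map_sub] at this
  nlinarith [sq_nonneg ‖jj L Ω s‖]

end Vale.Agent.P082
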