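import Vale.Agent.P082.Top

/-! The half graph lemma, random signs and the discrete Hilbert kernel. -/

namespace Vale.Agent.P082

open scoped InnerProductSpace ComplexConjugate
open Finset

theorem Minl.sup {E G : Type*} [TopologicalSpace E] [AddCommGroup E] [Module ℝ E] [Monoid G]
    {act : G → E →ₗ[ℝ] E} (hc : ∀ g, Continuous (act g)) (h1 : ∀ x, act 1 x = x)
    (hm : ∀ a b x, act (a * b) x = act b (act a x)) {K : Set E}
    (h : Minl (Set.range fun g => act g) K) (Λ : E →ₗ[ℝ] ℝ) (hΛ : Continuous Λ) {x y : E}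
    (hx : x ∈ K) (hy : y ∈ K) {ε : ℝ} (hε : 0 < ε) : ∃ g, Λ y ≤ Λ (act g x) + ε := by
  by_contra hn
  push Not at hn
  have := h.min {w | ∀ g, Λ (act g w) ≤ Λ y - ε} (by
    rw [Set.setOf_forall]
    exact isClosed_iInter fun g => isClosed_le (hΛ.comp (hc g)) continuous_const) (by
    rw [Set.setOf_forall]
    exact convex_iInter fun g => convex_halfSpace_le (Λ ∘ₗ act g).isLinear _)
    ⟨x, hx, fun g => by linarith [hn g]⟩ (by
    rintro _ ⟨a, rfl⟩ w - hw g
    rw [← hm]; exact hw _) y hy 1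
  rw [h1] at this
  linarith

theorem half_graph {E G : Type*} [TopologicalSpace E] [AddCommGroup E] [Module ℝ E] [Group G]
    {act : G → E →ₗ[ℝ] E} (hc : ∀ g, Continuous (act g)) (h1 : ∀ x, act 1 x = x)
    (hm : ∀ a b x, act (a * b) x = act b (act a x)) {K : Set E}
    (h : Minl (Set.range fun g => act g) K) (L : ℕ) (ℓ : ℕ → ℕ → E →ₗ[ℝ] ℝ)
    (hℓ : ∀ p q, Continuous (ℓ p q)) (x y : ℕ → E) (hx : ∀ p, x p ∈ K) (hy : ∀ p, y p ∈ K) {B : ℝ}
    (hB : ∀ (χ : ℕ → ℝ) (t : ℕ → G) (θ : ℕ → E), (∀ p, |χ p| ≤ 1) → (∀ q, θ q ∈ K) →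
      ∑ p ∈ range L, χ p * ∑ q ∈ range L, ℓ p q (act (t p) (θ q)) ≤ B) :
    ∑ p ∈ range L, ∑ q ∈ Ioo p L, (ℓ p q (x p) - ℓ p q (y p)) / 2 ≤ B := by
  have hi : ∀ g, ∀ w ∈ K, act g w ∈ K := fun g => h.inv _ ⟨g, rfl⟩
  have key : ∀ j : ℕ, ∀ ε > 0, ∃ (χ : ℕ → ℝ) (t : ℕ → G) (θ : ℕ → E), (∀ p, |χ p| ≤ 1) ∧
      (∀ q, θ q ∈ K) ∧ (∀ q, j ≤ q → θ q = θ j) ∧
      ∑ p ∈ range j, ∑ q ∈ Ioo p L, (ℓ p q (x p) - ℓ p q (y p)) / 2 - ε
        ≤ ∑ p ∈ range j, χ p * ∑ q ∈ range L, ℓ p q (act (t p) (θ q)) := by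
    intro j
    induction j with
    | zero => exact fun ε hε => ⟨0, 1, fun _ => x 0, by simp, fun _ => hx 0, by simp, by simpa using hε.le⟩
    | succ j ih =>
      intro ε hε
      obtain ⟨χ, t, θ, k1, k2, k3, k4⟩ := ih _ (half_pos hε)
      let Λ : E →ₗ[ℝ] ℝ := ∑ p ∈ range j, χ p • ∑ q ∈ Ioo j L, ℓ p q ∘ₗ act (t p)
      have hΛ : ∀ w, Λ w = ∑ p ∈ range j, χ p * ∑ q ∈ Ioo j L, ℓ p q (act (t p) w) := fun w => by
        simp [Λ, LinearMap.sum_apply]
      obtain ⟨b, hb⟩ := h.sup hc h1 hm Λ (by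
        rw [show ⇑Λ = _ from funext hΛ]
        exact continuous_finset_sum _ fun p _ => (continuous_finset_sum _ fun q _ =>
          (hℓ p q).comp (hc _)).const_mul _)
        (h.cvx (hx j) (hy j) (a := 1 / 2) (b := 1 / 2) (by norm_num) (by norm_num) (by norm_num))
        (k2 j) (half_pos hε)
      have sp : ∀ f : ℕ → ℝ, ∑ q ∈ range L, f q
          = ∑ q ∈ (range L).filter (· ≤ j), f q + ∑ q ∈ Ioo j L, f q := fun f => by
        rw [← sum_filter_add_sum_filter_not (range L) (· ≤ j)]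
        congr 2
        ext q; simp; omega
      have val : ∀ (s : ℝ) (w : E), ∑ p ∈ range (j + 1), (if p = j then s else χ p) *
          ∑ q ∈ range L, ℓ p q (act (if p = j then 1 else b * t p)
            (if q ≤ j then act b⁻¹ (θ q) else w))
          = ∑ p ∈ range j, χ p * ∑ q ∈ (range L).filter (· ≤ j), ℓ p q (act (t p) (θ q))
            + Λ (act b w) + s * (∑ q ∈ (range L).filter (· ≤ j), ℓ j q (act b⁻¹ (θ q))
              + ∑ q ∈ Ioo j L, ℓ j q w) := fun s w => by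
        rw [sum_range_succ, if_pos rfl, if_pos rfl, hΛ, ← sum_add_distrib, sp]
        congr 1
        · refine sum_congr rfl fun p hp => ?_
          rw [if_neg (mem_range.1 hp).ne, if_neg (mem_range.1 hp).ne, sp, ← mul_add]
          congr 2
          · exact sum_congr rfl fun q hq => by
              rw [if_pos (mem_filter.1 hq).2, ← hm, inv_mul_cancel_left]
          · exact sum_congr rfl fun q hq => by rw [if_neg (mem_Ioo.1 hq).1.not_ge, hm]
        · congr 2
          · exact sum_congr rfl fun q hq => by rw [if_pos (mem_filter.1 hq).2, h1]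
          · exact sum_congr rfl fun q hq => by rw [if_neg (mem_Ioo.1 hq).1.not_ge, h1]
      have old : ∑ p ∈ range j, χ p * ∑ q ∈ range L, ℓ p q (act (t p) (θ q))
          = ∑ p ∈ range j, χ p * ∑ q ∈ (range L).filter (· ≤ j), ℓ p q (act (t p) (θ q))
            + Λ (θ j) := by
        rw [hΛ, ← sum_add_distrib]
        refine sum_congr rfl fun p _ => ?_
        rw [sp, ← mul_add]
        congr 2
        exact sum_congr rfl fun q hq => by rw [k3 q (mem_Ioo.1 hq).1.le]
      have fin : ∀ (s : ℝ) (w : E), |s| ≤ 1 → w ∈ K →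
          (∀ p, |if p = j then s else χ p| ≤ 1) ∧
          (∀ q, (if q ≤ j then act b⁻¹ (θ q) else w) ∈ K) ∧ ∀ q, j + 1 ≤ q →
            (if q ≤ j then act b⁻¹ (θ q) else w) = if j + 1 ≤ j then act b⁻¹ (θ (j + 1)) else w :=
        fun s w hs hw => ⟨fun p => by split_ifs; exacts [hs, k1 p],
          fun q => by split_ifs; exacts [hi _ _ (k2 q), hw],
          fun q hq => by rw [if_neg (by omega), if_neg (by omega)]⟩
      simp only [map_add, map_smul, smul_eq_mul] at hb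
      have e : ∑ q ∈ Ioo j L, (ℓ j q (x j) - ℓ j q (y j)) / 2
          = (∑ q ∈ Ioo j L, ℓ j q (x j) - ∑ q ∈ Ioo j L, ℓ j q (y j)) / 2 := by
        rw [← sum_sub_distrib, sum_div]
      by_contra hn
      push Not at hn
      have f1 := fin 1 (x j) (by simp) (hx j)
      have f2 := fin (-1) (y j) (by simp) (hy j)
      have g1 := hn _ (fun p => if p = j then 1 else b * t p) _ f1.1 f1.2.1 f1.2.2
      have g2 := hn _ (fun p => if p = j then 1 else b * t p) _ f2.1 f2.2.1 f2.2.2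
      rw [val, sum_range_succ, e] at g1 g2
      linarith
  refine le_of_forall_pos_le_add fun ε hε => ?_
  obtain ⟨χ, t, θ, k1, k2, -, k4⟩ := key L ε hε
  linarith [hB χ t θ k1 k2]

theorem exists_signs {E : Type*} [NormedAddCommGroup E] [InnerProductSpace ℂ E] (a : ℕ → E)
    (n : ℕ) : ∃ s : ℕ → ℝ, (∀ p, s p ^ 2 = 1) ∧
      ∑ p ∈ range n, ‖a p‖ ^ 2 ≤ ‖∑ p ∈ range n, s p • a p‖ ^ 2 := by
  induction n with
  | zero => exact ⟨1, by simp, by simp⟩
  | succ n ih =>
    obtain ⟨s, h1, h2⟩ := ih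
    have key : ∀ t : ℝ, ∑ p ∈ range (n + 1), (if p = n then t else s p) • a p
        = ∑ p ∈ range n, s p • a p + t • a n := fun t => by
      rw [sum_range_succ, if_pos rfl]
      congr 1
      exact sum_congr rfl fun p hp => by rw [if_neg (mem_range.1 hp).ne]
    have := parallelogram_law_with_norm ℂ (∑ p ∈ range n, s p • a p) (a n)
    by_contra hn
    push Not at hn
    have g1 := hn (fun p => if p = n then 1 else s p) fun p => by split_ifs <;> simp [h1]
    have g2 := hn (fun p => if p = n then -1 else s p) fun p => by split_ifs <;> simp [h1]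
    rw [key, sum_range_succ] at g1 g2
    rw [one_smul] at g1
    rw [neg_one_smul, ← sub_eq_add_neg] at g2
    nlinarith

theorem parseval {E : Type*} [NormedAddCommGroup E] [InnerProductSpace ℂ E] {n m : ℕ} {ω : ℂ}
    (hω : IsPrimitiveRoot ω n) (hm : m ≤ n) (a : ℕ → E) :
    ∑ q ∈ range n, ‖∑ j ∈ range m, ω ^ (j * q) • a j‖ ^ 2 = n * ∑ j ∈ range m, ‖a j‖ ^ 2 := by
  rcases n.eq_zero_or_pos with rfl | hn
  · simp
  have h1 : conj ω * ω = 1 := by
    rw [mul_comm, Complex.mul_conj, Complex.normSq_eq_norm_sq, hω.norm'_eq_one hn.ne']; simp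
  have key : ∀ i ∈ range m, ∀ j ∈ range m,
      ∑ q ∈ range n, conj (ω ^ (i * q)) * ω ^ (j * q) = if i = j then (n : ℂ) else 0 := by
    intro i hi j hj
    have e : ∀ q, conj (ω ^ (i * q)) * ω ^ (j * q) = (conj ω ^ i * ω ^ j) ^ q := fun q => by
      rw [map_pow, pow_mul, pow_mul, mul_pow]
    simp only [e]
    split_ifs with h
    · simp [h, ← mul_pow, h1]
    have h2 : conj ω ^ i * ω ^ j ≠ 1 := fun h2 => h (hω.pow_inj ((mem_range.1 hi).trans_le hm)
      ((mem_range.1 hj).trans_le hm) (by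
        have := congrArg (ω ^ i * ·) h2
        simp only [← mul_assoc, ← mul_pow, mul_comm ω, h1, one_pow, one_mul, mul_one] at this
        exact this.symm))
    rw [geom_sum_eq h2, mul_pow, ← pow_mul, ← pow_mul, mul_comm i, mul_comm j, pow_mul, pow_mul,
      ← map_pow, hω.pow_eq_one]
    simp
  apply Complex.ofReal_injective
  push_cast
  simp only [← inner_self_eq_norm_sq_to_K (𝕜 := ℂ), ← RCLike.ofReal_eq_complex_ofReal, sum_inner,
    inner_sum, inner_smul_left, inner_smul_right]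
  rw [sum_comm, mul_sum]
  refine sum_congr rfl fun j hj => ?_
  simp only [mul_sum]
  rw [sum_comm, sum_congr rfl fun i hi => show _ = if i = j then (n : ℂ) * ⟪a i, a j⟫_ℂ else 0 by
    simp only [← mul_assoc, ← sum_mul]
    simp only [mul_comm (ω ^ _), key i hi j hj, ite_mul, zero_mul]]
  simp [hj]

theorem im_geom {L k : ℕ} (hk : 0 < k) (hL : k < L) :
    0 ≤ (∑ j ∈ range L, Complex.exp ((Real.pi * k / L : ℝ) * Complex.I) ^ j).im ∧
      (Odd k → 2 * k ≤ L → 2 * L / (5 * k) ≤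
        (∑ j ∈ range L, Complex.exp ((Real.pi * k / L : ℝ) * Complex.I) ^ j).im) := by
  have L0 : (0 : ℝ) < L := by exact_mod_cast hk.trans hL
  have k0 : (0 : ℝ) < k := by exact_mod_cast hk
  have kL : (k : ℝ) < L := by exact_mod_cast hL
  obtain ⟨θ, hθ⟩ : ∃ θ : ℝ, θ = Real.pi * k / L := ⟨_, rfl⟩
  have p0 := Real.pi_pos
  have t0 : 0 < θ := by rw [hθ]; positivity
  have t1 : θ < Real.pi := by rw [hθ, div_lt_iff₀ L0]; nlinarith
  have c1 : Real.cos θ < 1 := by
    have := Real.cos_lt_cos_of_nonneg_of_le_pi le_rfl t1.le t0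
    rwa [Real.cos_zero] at this
  have s0 := Real.sin_pos_of_pos_of_lt_pi t0 t1
  have u1 : Complex.exp (θ * Complex.I) ≠ 1 := fun h => by
    have := congrArg Complex.re h
    rw [Complex.exp_ofReal_mul_I_re, Complex.one_re] at this
    linarith
  have u2 : Complex.exp (θ * Complex.I) ^ L = (-1) ^ k := by
    rw [← Complex.exp_nat_mul, ← Complex.exp_pi_mul_I, ← Complex.exp_nat_mul, hθ]
    congr 1
    push_cast
    field_simp [show (L : ℂ) ≠ 0 by exact_mod_cast L0.ne']
  rw [← hθ, geom_sum_eq u1, u2]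
  rcases k.even_or_odd with h | h
  · exact ⟨by simp [h.neg_one_pow], fun h' => absurd h (Nat.not_even_iff_odd.2 h')⟩
  have e : (((-1 : ℂ) ^ k - 1) / (Complex.exp (θ * Complex.I) - 1)).im
      = Real.sin θ / (1 - Real.cos θ) := by
    have := Real.sin_sq_add_cos_sq θ
    have n : Complex.normSq (Complex.exp (θ * Complex.I) - 1) = 2 * (1 - Real.cos θ) := by
      rw [Complex.normSq_apply]
      simp only [Complex.sub_re, Complex.sub_im, Complex.exp_ofReal_mul_I_re,
        Complex.exp_ofReal_mul_I_im, Complex.one_re, Complex.one_im]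
      nlinarith
    rw [h.neg_one_pow, Complex.div_im, n]
    simp only [Complex.sub_re, Complex.sub_im, Complex.exp_ofReal_mul_I_re,
      Complex.exp_ofReal_mul_I_im, Complex.one_re, Complex.one_im, Complex.neg_re, Complex.neg_im]
    have : 1 - Real.cos θ ≠ 0 := by linarith
    field_simp
    ring
  rw [e]
  refine ⟨div_nonneg s0.le (by linarith), fun _ h2 => ?_⟩
  have h2' : 2 * (k : ℝ) ≤ L := by exact_mod_cast h2
  have a1 := Real.mul_le_sin t0.le (show θ ≤ Real.pi / 2 by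
    rw [hθ, div_le_div_iff₀ L0 two_pos]; nlinarith)
  have a2 := Real.one_sub_sq_div_two_le_cos (x := θ)
  have a3 : Real.pi ^ 2 ≤ 10 := by nlinarith [Real.pi_lt_d2]
  have a4 : θ * L = Real.pi * k := by rw [hθ]; field_simp
  rw [div_mul_eq_mul_div, div_le_iff₀ p0] at a1
  rw [div_le_div_iff₀ (by positivity) (by linarith)]
  have b1 : 2 * L * (1 - Real.cos θ) ≤ Real.pi * k * θ := by rw [← a4]; nlinarith
  refine b1.trans (le_of_mul_le_mul_left ?_ p0)
  nlinarith [mul_pos k0 t0]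

universe u

theorem exists_kernel (r : ℕ) : ∃ z : ℕ → ℕ → ℂ,
    (∀ (E : Type u) [NormedAddCommGroup E] [InnerProductSpace ℂ E] (y : ℕ → E),
      ∑ q ∈ range (4 * r), ‖∑ p ∈ range (4 * r), z p q • y p‖ ^ 2
        ≤ ∑ p ∈ range (4 * r), ‖y p‖ ^ 2) ∧
    ∀ p < 2 * r, Real.log (r + 1) / 10 ≤ ∑ q ∈ Ioo p (4 * r), (z p q).im := by
  rcases r.eq_zero_or_pos with rfl | hr
  · exact ⟨0, by simp, by simp⟩
  obtain ⟨L, hL⟩ : ∃ L, L = 4 * r := ⟨_, rfl⟩
  have L0 : (0 : ℝ) < L := by exact_mod_cast (by omega : 0 < L)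
  have hω := Complex.isPrimitiveRoot_exp (2 * L) (by omega)
  obtain ⟨ω, hω'⟩ : ∃ ω, ω = Complex.exp (2 * Real.pi * Complex.I / (2 * L : ℕ)) := ⟨_, rfl⟩
  rw [← hω'] at hω
  rw [← hL]
  refine ⟨fun p q => (2 * L : ℂ)⁻¹ * ∑ j ∈ range L, ω ^ (j * q) * ω⁻¹ ^ (p * j),
    fun E _ _ y => ?_, fun p hp => ?_⟩
  · have h1 := parseval hω (show L ≤ 2 * L by omega) fun j => ∑ p ∈ range L, ω⁻¹ ^ (p * j) • y p
    have h2 := parseval hω.inv (show L ≤ 2 * L by omega) y
    have sub : range L ⊆ range (2 * L) := range_subset_range.2 (by omega)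
    have h3 := (sum_le_sum_of_subset_of_nonneg sub fun _ _ _ => sq_nonneg _).trans_eq h1
    have h4 := (sum_le_sum_of_subset_of_nonneg sub fun _ _ _ => sq_nonneg _).trans_eq h2
    have e : ∀ q, ‖∑ p ∈ range L, ((2 * L : ℂ)⁻¹ * ∑ j ∈ range L, ω ^ (j * q) * ω⁻¹ ^ (p * j))
        • y p‖ ^ 2 = ((2 * L : ℝ)⁻¹) ^ 2 *
          ‖∑ j ∈ range L, ω ^ (j * q) • ∑ p ∈ range L, ω⁻¹ ^ (p * j) • y p‖ ^ 2 := fun q => by
      simp only [mul_smul, sum_smul, ← smul_sum]
      rw [norm_smul, mul_pow, sum_comm]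
      simp [smul_sum]
    simp only [e, ← mul_sum]
    push_cast at h3 h4
    refine (mul_le_mul_of_nonneg_left (h3.trans (mul_le_mul_of_nonneg_left h4 (by positivity)))
      (sq_nonneg _)).trans_eq ?_
    field_simp
  have e : ∀ k : ℕ, ((2 * L : ℂ)⁻¹ * ∑ j ∈ range L, ω ^ (j * (p + k)) * ω⁻¹ ^ (p * j)).im
      = (2 * L : ℝ)⁻¹ * (∑ j ∈ range L,
        Complex.exp ((Real.pi * k / L : ℝ) * Complex.I) ^ j).im := fun k => by
    rw [← Complex.im_ofReal_mul]
    congr 2
    · simp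
    refine sum_congr rfl fun j _ => ?_
    rw [mul_add, pow_add, mul_right_comm, mul_comm p, ← mul_pow,
      mul_inv_cancel₀ (hω.ne_zero (by omega)), one_pow, one_mul, mul_comm j, pow_mul, hω',
      ← Complex.exp_nat_mul]
    congr 2
    push_cast
    field_simp [show (L : ℂ) ≠ 0 by exact_mod_cast L0.ne']
  have inj : Function.Injective fun i : ℕ => p + (2 * i + 1) := fun a b h => by
    simp only at h; omega
  refine le_trans ?_ (sum_le_sum_of_subset_of_nonneg (s := (range r).image fun i => p + (2 * i + 1))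
    (fun q hq => ?_) fun q hq _ => ?_)
  · rw [sum_image inj.injOn]
    have h1 := log_add_one_le_harmonic r
    rw [harmonic] at h1
    push_cast at h1
    refine (div_le_div_of_nonneg_right h1 (by norm_num)).trans ?_
    rw [sum_div]
    refine sum_le_sum fun i hi => ?_
    have hi' := mem_range.1 hi
    rw [e]
    refine le_trans ?_ (mul_le_mul_of_nonneg_left ((im_geom (k := 2 * i + 1) (by omega)
      (by omega)).2 ⟨i, rfl⟩ (by omega)) (by positivity))
    push_cast
    rw [← mul_div_assoc, inv_mul_cancel₀ (by positivity), inv_eq_one_div, div_div]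
    exact one_div_le_one_div_of_le (by positivity) (by linarith)
  · obtain ⟨i, hi, rfl⟩ := mem_image.1 hq
    have := mem_range.1 hi
    exact mem_Ioo.2 ⟨by omega, by omega⟩
  · obtain ⟨k, rfl⟩ := Nat.exists_eq_add_of_le (mem_Ioo.1 hq).1.le
    have := mem_Ioo.1 hq
    rw [e]
    exact mul_nonneg (by positivity) (im_geom (by omega) (by omega)).1

end Vale.Agent.P082
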