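import Vale.Agent.P082.Fin1
import Vale.Agent.P082.Half

/-! Systems that are modular over matrix units; the logarithmic gain. -/

namespace Vale.Agent.P082

open scoped InnerProductSpace
open Finset Filter Topology

theorem closed_sq1 {α E : Type*} [TopologicalSpace α] [NormedAddCommGroup E]
    [InnerProductSpace ℂ E] {v : α → E} (hv : ∀ η, Continuous fun t => ⟪η, v t⟫_ℂ) (c : ℝ) :
    IsClosed {t | ‖v t‖ ^ 2 ≤ c} := by
  simpa using closed_sq (univ : Finset Unit) (v := fun _ => v) (fun _ => hv)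
    (continuous_const (y := c))

theorem convex_sq1 {α E : Type*} [AddCommGroup α] [Module ℝ α] [SeminormedAddCommGroup E]
    [NormedSpace ℝ E] {v : α → E}
    (hv : ∀ x y (a b : ℝ), a + b = 1 → v (a • x + b • y) = a • v x + b • v y) (c : ℝ) :
    Convex ℝ {t | ‖v t‖ ^ 2 ≤ c} := by
  simpa using convex_sq (univ : Finset Unit) (v := fun _ => v) (fun _ => hv) c

variable {A : Type*} [CStarAlgebra A] {E : Type*} [NormedAddCommGroup E] [InnerProductSpace ℂ E]
  [CompleteSpace E] {L : A →⋆ₐ[ℂ] (E →L[ℂ] E)} {Ω : E}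
variable {ι : Type} [Fintype ι] [DecidableEq ι] {v : ι → A} {o : ι}

/-- The relative commutant of the matrix units. -/
abbrev NN (v : ι → A) : StarSubalgebra ℂ A :=
  StarSubalgebra.centralizer ℂ (Set.range fun p : ι × ι => v p.1 * star (v p.2))

omit [Fintype ι] [DecidableEq ι] in
theorem mem_NN {a : A} : a ∈ NN v ↔ ∀ i j, v i * star (v j) * a = a * (v i * star (v j)) := by
  rw [StarSubalgebra.mem_centralizer_iff]
  exact ⟨fun h i j => (h _ ⟨(i, j), rfl⟩).1, by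
    rintro h _ ⟨⟨i, j⟩, rfl⟩
    exact ⟨h i j, by simpa using h j i⟩⟩

theorem MU.nv {z : A} (mu : MU v (v o) z) (a : NN v) (i : ι) : v i * a = a * v i := by
  simpa only [pj_st mu.pj, mu.ve] using mem_NN.1 a.2 i o

omit [Fintype ι] [DecidableEq ι] in
theorem nn_unit (u : unitary (NN v)) : ((u : NN v) : A) ∈ unitary A :=
  ⟨congrArg Subtype.val u.2.1, congrArg Subtype.val u.2.2⟩

/-- The test functionals. -/
noncomputable def lf (L : A →⋆ₐ[ℂ] (E →L[ℂ] E)) (Ω : E) (w : ℂ) (ζ : E) (x : A) :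
    Fn A A →ₗ[ℝ] ℝ where
  toFun θ := (w * ⟪ζ, jj L Ω (θ x)⟫_ℂ).re
  map_add' θ θ' := by simp [inner_add_right, mul_add]
  map_smul' r θ := by
    rw [Fn.smul_apply, ← Complex.coe_smul, map_smul, inner_smul_right, mul_left_comm]; simp

theorem lf_apply (w : ℂ) (ζ : E) (x : A) (θ : Fn A A) :
    lf L Ω w ζ x θ = (w * ⟪ζ, jj L Ω (θ x)⟫_ℂ).re := rfl

variable {H : Type*} [NormedAddCommGroup H] [InnerProductSpace ℂ H] [CompleteSpace H] [VN A H]
variable {K S : Set (Fn A A)} {B C : ℝ} {z : A}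

theorem rho_sq_le {a : A} {k : ℝ} (hk : 0 ≤ k) (h : ∀ ζ : H, ‖ρ a ζ‖ ^ 2 ≤ k * ‖ζ‖ ^ 2) :
    ‖a‖ ^ 2 ≤ k := by
  rw [← Real.le_sqrt (norm_nonneg _) hk, ← norm_rho]
  refine (ρ a).opNorm_le_bound (Real.sqrt_nonneg _) fun ζ => ?_
  rw [← Real.sqrt_sq (norm_nonneg ζ), ← Real.sqrt_mul hk]
  exact Real.le_sqrt_of_sq_le (h ζ)

theorem rho_sq (a : A) (ζ : H) : ‖ρ a ζ‖ ^ 2 ≤ ‖a‖ ^ 2 * ‖ζ‖ ^ 2 := by
  rw [← mul_pow]; exact pow_le_pow_left₀ (norm_nonneg _) (rho_le a ζ) 2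

theorem rho_iso {u : A} (hu : star u * u = 1) (x : A) (ζ : H) :
    ‖ρ (u * x) ζ‖ ^ 2 = ‖ρ x ζ‖ ^ 2 := by
  rw [norm_sq_rho, norm_sq_rho, star_mul, mul_assoc, ← mul_assoc (star u), hu, one_mul]

theorem MU.col {e : A} (mu : MU v e z) {s : Finset ℕ} {f : ℕ → ι} (hf : Set.InjOn f s)
    {y : ℕ → A} (hy : ∀ q, e * y q = y q) (ζ : H) :
    ‖ρ (∑ q ∈ s, v (f q) * y q) ζ‖ ^ 2 = ∑ q ∈ s, ‖ρ (y q) ζ‖ ^ 2 := by
  simp only [← om_sq, ← om_sum, star_sum, sum_mul, mul_sum, star_mul, mul_assoc, mu.orth', hy]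
  congr 1
  refine sum_congr rfl fun q hq => ?_
  rw [sum_eq_single q (fun p hp e => by rw [if_neg fun e' => e (hf hp hq e'), mul_zero])
    (fun h => absurd hq h), if_pos rfl]

/-- Minimal systems of maps modular over the matrix units. -/
structure Loc (K : Set (Fn A A)) (v : ι → A) (S : Set (Fn A A)) : Prop where
  sub : S ⊆ K
  md : ∀ θ ∈ S, ∀ i j x, θ (v i * star (v j) * x) = v i * star (v j) * θ x
  min : Minl (Set.range fun u : unitary (NN v) => ac ((u : NN v) : A)) S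

theorem Sys.loc (h : Sys K B) (mu : MU v (v o) z) : ∃ S, Loc K v S := by
  have : Nonempty ι := ⟨o⟩
  obtain ⟨S, h1, h2⟩ := exists_minl (Set.range fun u : unitary (NN v) => ac ((u : NN v) : A))
    (K0 := K ∩ {θ | ∀ i j x, 1 * θ (v i * star (v j) * x) = v i * star (v j) * (1 * θ x)})
    (h.min.cpt.inter_right (closed_all fun i => closed_all fun j => closed_mod _ _))
    (by simpa [Set.Nonempty] using h.mu mu)
    (h.min.cvx.inter (convex_all fun i => convex_all fun j => convex_mod _ _)) (by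
      rintro _ ⟨u, rfl⟩ θ ⟨k1, k2⟩
      refine ⟨h.inv (nn_unit u) k1, fun i j x => ?_⟩
      have := k2 i j (u * x)
      simp only [one_mul, ac_apply] at this ⊢
      rw [← mul_assoc, ← mem_NN.1 u.1.2, mul_assoc _ _ x, this, ← mul_assoc, ← mul_assoc _ (star _)]
      exact congrArg (· * _) (mem_NN.1 (star u.1).2 i j).symm)
  exact ⟨S, fun θ k => (h1 k).1, fun θ k => by simpa using (h1 k).2, h2⟩

namespace Loc

theorem pre (lc : Loc K v S) (h : Sys K B) : Pre S B :=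
  ⟨fun θ k => h.lin θ (lc.sub k), h.nn, fun θ k => h.bd θ (lc.sub k), lc.min.ne⟩

theorem m1 (lc : Loc K v S) (mu : MU v (v o) z) {θ : Fn A A} (k : θ ∈ S) (i : ι) (x : A) :
    θ (v i * x) = v i * θ x := by
  simpa only [pj_st mu.pj, mu.ve] using lc.md θ k i o x

theorem m2 (lc : Loc K v S) (mu : MU v (v o) z) {θ : Fn A A} (k : θ ∈ S) (i : ι) (x : A) :
    θ (star (v i) * x) = star (v i) * θ x := by
  simpa only [mu.ev] using lc.md θ k o i x

theorem inv (lc : Loc K v S) (u : unitary (NN v)) {θ : Fn A A} (k : θ ∈ S) :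
    ac ((u : NN v) : A) θ ∈ S := lc.min.inv _ ⟨u, rfl⟩ θ k

theorem col (lc : Loc K v S) (h : Sys K B) (mu : MU v (v o) z) {s : Finset ℕ} {f : ℕ → ι}
    (hf : Set.InjOn f s) {θ : ℕ → Fn A A} (hθ : ∀ q, θ q ∈ S) (ξ : ℕ → A)
    (h1 : ∀ q, v o * ξ q = ξ q) (h2 : ∀ ζ : H, ∑ q ∈ s, ‖ρ (ξ q) ζ‖ ^ 2 ≤ ‖ζ‖ ^ 2) (ζ : H) :
    ∑ q ∈ s, ‖ρ (θ q (ξ q)) ζ‖ ^ 2 ≤ B ^ 2 * ‖ζ‖ ^ 2 := by
  have key : ∀ t : Finset ℕ, ∀ ξ : ℕ → A, (∀ q, v o * ξ q = ξ q) →
      (∀ ζ : H, ∑ q ∈ s, ‖ρ (ξ q) ζ‖ ^ 2 ≤ ‖ζ‖ ^ 2) →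
      ∑ q ∈ s, ‖ρ ((if q ∈ t then θ q else θ 0) (ξ q)) ζ‖ ^ 2 ≤ B ^ 2 * ‖ζ‖ ^ 2 := by
    intro t
    induction t using Finset.induction_on with
    | empty =>
      intro ξ h1 h2
      have k := rho_sq_le (a := ∑ q ∈ s, v (f q) * ξ q) zero_le_one fun ζ => by
        rw [mu.col hf h1, one_mul]; exact h2 ζ
      simp only [notMem_empty, if_false]
      rw [← mu.col hf fun q => by rw [← lc.m1 mu (hθ 0), h1]]
      simp only [← lc.m1 mu (hθ 0), ← IsLinearMap.sum (h.lin _ (lc.sub (hθ 0)))]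
      refine (rho_sq _ _).trans (mul_le_mul_of_nonneg_right ?_ (sq_nonneg _))
      refine (pow_le_pow_left₀ (norm_nonneg _) (h.bd _ (lc.sub (hθ 0)) _) 2).trans ?_
      rw [mul_pow]
      exact mul_le_of_le_one_right (sq_nonneg _) k
    | insert j t hj ih =>
      intro ξ h1 h2
      by_cases hs : j ∈ s
      swap
      · refine le_of_eq_of_le (sum_congr rfl fun q hq => ?_) (ih ξ h1 h2)
        have : q ≠ j := fun e => hs (e ▸ hq)
        simp only [mem_insert, this, false_or]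
      have := lc.min.min {t' | ∀ u : unitary (NN v), ‖ρ (t' (u * ξ j)) ζ‖ ^ 2 ≤ B ^ 2 * ‖ζ‖ ^ 2 -
          ∑ q ∈ s.erase j, ‖ρ ((if q ∈ t then θ q else θ 0) (ξ q)) ζ‖ ^ 2}
        (closed_all fun u => closed_sq1 (fun η => (WC.ev _).inner η ζ) _)
        (convex_all fun u => convex_sq1 (fun x y a b _ => by
          simp [← Complex.coe_smul]) _) ⟨θ 0, hθ 0, fun u => ?_⟩ (by
          rintro _ ⟨w, rfl⟩ t' - k u
          dsimp only
          rw [ac_apply, rho_iso (by simpa using (nn_unit w).2), ← mul_assoc]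
          exact k (w * u)) _ (hθ j) 1
      · rw [← add_sum_erase _ _ hs, if_pos (mem_insert_self _ _),
          sum_congr rfl fun q hq => by rw [if_congr (mem_insert.trans (or_iff_right
            (ne_of_mem_erase hq))) rfl rfl]]
        simpa [le_sub_iff_add_le] using this
      have := ih (Function.update ξ j (u * ξ j)) (fun q => by
        rcases eq_or_ne q j with rfl | e
        · rw [Function.update_self, ← mul_assoc, mu.nv, mul_assoc, h1]
        · rw [Function.update_of_ne e, h1]) fun ζ => by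
        refine le_of_eq_of_le (sum_congr rfl fun q _ => ?_) (h2 ζ)
        rcases eq_or_ne q j with rfl | e
        · rw [Function.update_self, rho_iso (nn_unit u).1]
        · rw [Function.update_of_ne e]
      rwa [← add_sum_erase _ _ hs, if_neg hj, Function.update_self, ← le_sub_iff_add_le,
        sum_congr rfl fun q hq => by rw [Function.update_of_ne (ne_of_mem_erase hq)]] at this
  exact le_of_eq_of_le (sum_congr rfl fun q hq => by rw [if_pos hq]) (key s ξ h1 h2)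

theorem rows (lc : Loc K v S) (h : Sys K B) (ct : CT L Ω z C) (mu : MU v (v o) z) {r : ℕ}
    (hr : 4 * r ≤ Fintype.card ι) {c : A} (hc : CP c) (η : ℕ → A) (h1 : ∀ p, v o * c * η p = η p)
    (h0 : ∀ p, 2 * r ≤ p → η p = 0)
    (h2 : ∀ ζ : H, ∑ p ∈ range (4 * r), ‖ρ (η p) ζ‖ ^ 2 ≤ ‖ζ‖ ^ 2) {Z : ℝ} (Z0 : 0 < Z)
    (hZ : Z ≤ Real.log (r + 1) / 10) :
    ∑ p ∈ range (4 * r), dm L Ω S (η p) ^ 2
      ≤ 4 * (C * (4 * r * B ^ 2) * ta L Ω (v o * c)) / Z ^ 2 := by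
  refine (lc.pre h).dm_sum _ _ fun x y hx hy => ?_
  obtain ⟨w, w1, w2⟩ := exists_kernel r
  obtain ⟨f, hf⟩ : ∃ f : ℕ → ι, Set.InjOn f (range (4 * r)) := by
    refine ⟨fun n => if h : n < Fintype.card ι then (Fintype.equivFin ι).symm ⟨n, h⟩ else o,
      fun a ha b hb e => ?_⟩
    have ha' := (mem_range.1 ha).trans_le hr
    have hb' := (mem_range.1 hb).trans_le hr
    simpa [ha', hb'] using e
  have l := fun θ (k : θ ∈ S) => h.lin θ (lc.sub k)
  obtain ⟨D, hD⟩ : ∃ D : ℕ → E, ∀ p, D p = jj L Ω (x p (η p) - y p (η p)) := ⟨_, fun _ => rfl⟩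
  simp only [← hD]
  obtain ⟨X, hX⟩ : ∃ X, X = C * (4 * r * B ^ 2) * ta L Ω (v o * c) := ⟨_, rfl⟩
  rw [← hX]
  have key := half_graph (act := fun u : unitary (NN v) => ac ((u : NN v) : A))
    (fun _ => ac_cont _) ac_one (fun _ _ => ac_mul _ _) lc.min (4 * r)
    (fun p q => lf L Ω (w p q) (Complex.I • D p) (η p))
    (fun p q => Complex.continuous_re.comp ((ct.cont (WC.ev _) _).const_mul _)) x y hx hy
    (B := Z / 4 * ∑ p ∈ range (4 * r), ‖D p‖ ^ 2 + X / Z) fun χ t θ k1 k2 => ?_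
  · have : Z / 2 * ∑ p ∈ range (4 * r), ‖D p‖ ^ 2 ≤ _ := le_trans ?_ key
    · rw [le_div_iff₀ (by positivity)]
      have e : X = X / Z * Z := by field_simp
      rw [e]
      nlinarith
    rw [mul_sum]
    refine sum_le_sum fun p _ => ?_
    have e : ∀ q, (lf L Ω (w p q) (Complex.I • D p) (η p) (x p)
        - lf L Ω (w p q) (Complex.I • D p) (η p) (y p)) / 2 = (w p q).im * (‖D p‖ ^ 2 / 2) :=
      fun q => by
        rw [lf_apply, lf_apply, ← Complex.sub_re, ← mul_sub, ← inner_sub_right, ← map_sub, ← hD,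
          inner_smul_left, inner_self_eq_norm_sq_to_K]
        simp [← Complex.ofReal_pow]; ring
    simp only [e, ← sum_mul]
    rcases lt_or_ge p (2 * r) with hp | hp
    · nlinarith [w2 p hp, sq_nonneg ‖D p‖]
    · simp [hD, h0 p hp, (l _ (hx p)).map_zero, (l _ (hy p)).map_zero]
  obtain ⟨Y, hY⟩ : ∃ Y : ℕ → E, ∀ p, Y p =
    jj L Ω (∑ q ∈ range (4 * r), w p q • θ q (t p * η p)) := ⟨_, fun _ => rfl⟩
  have b1 : ∑ p ∈ range (4 * r), ‖Y p‖ ^ 2 ≤ X := by
    obtain ⟨s, s1, s2⟩ := exists_signs Y (4 * r)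
    let ξ : ℕ → A := fun q => ∑ p ∈ range (4 * r), w p q • s p • (t p * η p)
    have e1 : ∑ p ∈ range (4 * r), s p • Y p = jj L Ω (∑ q ∈ range (4 * r), θ q (ξ q)) := by
      simp only [hY, ξ, IsLinearMap.sum (l _ (k2 _)), (l _ (k2 _)).map_smul,
        IsLinearMap.rsmul (l _ (k2 _)), map_sum, map_smul, smul_sum, ← Complex.coe_smul]
      rw [sum_comm]
      simp only [smul_comm (s _ : ℂ)]
    have e2 : ∀ q, v o * c * ξ q = ξ q := fun q => by
      simp only [ξ, mul_sum, mul_smul_comm]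
      refine sum_congr rfl fun p _ => ?_
      rw [mul_assoc, ← mul_assoc c, hc.2, ← mul_assoc, ← mul_assoc, mu.nv, mul_assoc, mul_assoc,
        ← mul_assoc (v o), h1]
    have e3 : ∀ q, v o * ξ q = ξ q := fun q => by rw [← e2, mul_assoc, pj_sq' mu.pj]
    have e4 := lc.col h mu hf k2 ξ e3 fun ζ => by
      refine le_trans ?_ (h2 ζ)
      have := w1 H fun p => ρ (s p • (t p * η p : A)) ζ
      simp only [ξ, map_sum, map_smul, ContinuousLinearMap.sum_apply,
        ContinuousLinearMap.smul_apply]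
      refine this.trans_eq (sum_congr rfl fun p _ => ?_)
      rw [← Complex.coe_smul, map_smul, ContinuousLinearMap.smul_apply, norm_smul, mul_pow,
        rho_iso (nn_unit _).1, Complex.norm_real, Real.norm_eq_abs, sq_abs, s1, one_mul]
    rw [e1] at s2
    refine s2.trans ((ct.left (hc.pj mu.pj) ?_).trans ?_)
    · rw [mul_sum]
      refine sum_congr rfl fun q _ => ?_
      rw [mul_assoc, ← h.cen hc _ (lc.sub (k2 q)), ← lc.m1 mu (k2 q), ← mul_assoc, e2]
    rw [hX]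
    refine mul_le_mul_of_nonneg_right (mul_le_mul_of_nonneg_left (rho_sq_le (by positivity)
      fun ζ => ?_) ct.C0.le) (ta_pj0 (hc.pj mu.pj))
    rw [map_sum, ContinuousLinearMap.sum_apply]
    refine (pow_le_pow_left₀ (norm_nonneg _) (norm_sum_le _ _) 2).trans
      (sq_sum_le_card_mul_sum_sq.trans ?_)
    rw [card_range, mul_assoc]
    exact (mul_le_mul_of_nonneg_left (e4 ζ) (by positivity)).trans_eq (by push_cast; ring)
  refine le_trans (sum_le_sum fun p _ => ?_ : _ ≤ ∑ p ∈ range (4 * r),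
    (Z / 4 * ‖D p‖ ^ 2 + ‖Y p‖ ^ 2 / Z)) (by rw [sum_add_distrib, ← mul_sum, ← sum_div]; gcongr)
  have e : ∑ q ∈ range (4 * r), lf L Ω (w p q) (Complex.I • D p) (η p)
      (ac ((t p : NN v) : A) (θ q))
      = (⟪L (t p) (Complex.I • D p), Y p⟫_ℂ).re := by
    simp only [lf_apply, ac_apply, inner_jj, hY, map_sum, map_smul, inner_sum, inner_smul_right,
      Complex.re_sum]
  have n1 : ‖L (t p) (Complex.I • D p)‖ = ‖D p‖ := by
    rw [map_smul, norm_smul, Complex.norm_I, one_mul, hD, ← jj_mul, jj_iso (nn_unit _).1]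
  have n2 := (Complex.abs_re_le_norm _).trans (norm_inner_le_norm (𝕜 := ℂ)
    (L (t p) (Complex.I • D p)) (Y p))
  rw [e]
  refine (le_abs_self _).trans ?_
  rw [abs_mul, n1] at *
  refine (mul_le_mul (k1 p) n2 (abs_nonneg _) zero_le_one).trans ?_
  have e : ‖Y p‖ = ‖Y p‖ / Z * Z := by field_simp
  rw [sq ‖Y p‖, mul_div_assoc, e, mul_div_cancel_right₀ _ Z0.ne']
  nlinarith [mul_nonneg Z0.le (sq_nonneg (‖D p‖ / 2 - ‖Y p‖ / Z))]

end Loc

end Vale.Agent.P082
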