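import Vale.Agent.P082.Fin2
import Vale.Agent.P104.GT

/-! A one-sided Dixmier averaging, and comparison of the two diameters. -/

namespace Vale.Agent.P082

open scoped InnerProductSpace
open Finset Filter Topology

variable {A : Type*} [CStarAlgebra A] {E : Type*} [NormedAddCommGroup E] [InnerProductSpace ℂ E]
  [CompleteSpace E] {L : A →⋆ₐ[ℂ] (E →L[ℂ] E)} {Ω : E}

/-- Averages of unitary conjugates. -/
noncomputable def av {Γ : Type} [Fintype Γ] (w : Γ → A) (S : A) : A :=
  (Fintype.card Γ : ℝ)⁻¹ • ∑ γ, w γ * S * star (w γ)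

theorem av_comp {Γ Γ' : Type} [Fintype Γ] [Fintype Γ'] (w : Γ → A) (w' : Γ' → A) (S : A) :
    av (fun p : Γ' × Γ => w' p.1 * w p.2) S = av w' (av w S) := by
  simp only [av, Fintype.card_prod, Fintype.sum_prod_type, mul_sum, sum_mul, mul_smul_comm,
    smul_mul_assoc, ← smul_sum, smul_smul, star_mul, mul_assoc, Nat.cast_mul, mul_inv]

/-- Amplification along matrix units. -/
def am {ι : Type} [Fintype ι] (v : ι → A) (a : A) : A := ∑ i, v i * a * star (v i)

section

variable {ι : Type} [Fintype ι] [DecidableEq ι] {v : ι → A} {o : ι} {z a b : A}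

omit [DecidableEq ι] in
theorem am_star (a : A) : star (am v a) = am v (star a) := by simp [am, mul_assoc]

omit [DecidableEq ι] in
theorem am_sum {κ : Type*} (s : Finset κ) (a : κ → A) :
    ∑ k ∈ s, am v (a k) = am v (∑ k ∈ s, a k) := by
  simp only [am, mul_sum, sum_mul]; exact sum_comm

theorem MU.am_mem (mu : MU v (v o) z) (h1 : v o * a = a) (h2 : a * v o = a) : am v a ∈ NN v :=
  mem_NN.2 fun i j => by
    have : ∀ x, a * (v o * x) = a * x := fun x => by rw [← mul_assoc, h2]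
    have : ∀ x, v o * (a * x) = a * x := fun x => by rw [← mul_assoc, h1]
    simp [am, mul_sum, sum_mul, mul_assoc, mu.orth', *]

theorem MU.am_mul (mu : MU v (v o) z) (a : A) (h1 : v o * b = b) :
    am v a * am v b = am v (a * b) := by
  have : ∀ x, v o * (b * x) = b * x := fun x => by rw [← mul_assoc, h1]
  simp [am, mul_sum, sum_mul, mul_assoc, mu.orth', *]

theorem MU.am_act (mu : MU v (v o) z) (h1 : v o * a = a) (h2 : v o * b = b) :
    am v a * b = a * b := by
  have : ∀ i, star (v i) * b = if i = o then b else 0 := fun i => by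
    nth_rw 1 [← h2]; rw [mu.orth', h2]
  simp [am, sum_mul, mul_assoc, this, ← mul_assoc (v o), h1]

theorem MU.am_one (mu : MU v (v o) z) : am v (v o) = z := by
  simp only [am, mu.ve, mu.sum]

theorem MU.am_z (mu : MU v (v o) z) (a : A) : am v a * z = am v a := by
  simp only [am, sum_mul, mul_assoc, mu.vz]

end

variable {H : Type*} [NormedAddCommGroup H] [InnerProductSpace ℂ H] [CompleteSpace H] [VN A H]
variable [PartialOrder A] [StarOrderedRing A] {B C : ℝ} {z S : A}

/-- Elements whose central valued trace is bounded. -/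
def DX (L : A →⋆ₐ[ℂ] (E →L[ℂ] E)) (Ω : E) (z : A) (C : ℝ) (S : A) : Prop :=
  0 ≤ S ∧ S * z = S ∧ ∀ w ∈ unitary A, ∀ c, CP c → ta L Ω (w * S * star w * c) ≤ C * ta L Ω c

omit [VN A H] in
theorem av_le {Γ : Type} [Fintype Γ] [Nonempty Γ] {w : Γ → A} (hw : ∀ γ, w γ ∈ unitary A) {μ : ℝ}
    (h : S ≤ μ • 1) : av w S ≤ μ • 1 := by
  have : ∑ γ, w γ * S * star (w γ) ≤ ∑ _γ : Γ, μ • 1 := sum_le_sum fun γ _ => by
    simpa [(hw γ).2] using star_right_conjugate_le_conjugate h (w γ)
  refine (smul_le_smul_of_nonneg_left this (by positivity)).trans_eq ?_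
  rw [sum_const, card_univ, ← Nat.cast_smul_eq_nsmul ℝ, inv_smul_smul₀ (by positivity)]

theorem DX.avg (ct : CT L Ω z C) {Γ : Type} [Fintype Γ] [Nonempty Γ] {w : Γ → A}
    (hw : ∀ γ, w γ ∈ unitary A) (h : DX L Ω z C S) : DX L Ω z C (av w S) := by
  refine ⟨smul_nonneg (by positivity) (sum_nonneg fun γ _ => star_right_conjugate_nonneg h.1 _),
    ?_, fun u hu c hc => ?_⟩
  · have : ∀ x, S * (x * z) = S * x := fun x => by rw [← ct.cp.2, ← mul_assoc, h.2.1]
    simp only [av, smul_mul_assoc, sum_mul, mul_assoc, this]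
  simp only [av, smul_mul_assoc, mul_smul_comm, sum_mul, mul_sum, map_smul, map_sum,
    smul_eq_mul]
  rw [← mul_sum, inv_mul_le_iff₀ (by positivity), ← nsmul_eq_mul, ← card_univ]
  refine sum_le_card_nsmul _ _ _ fun γ _ => ?_
  simpa only [star_mul, mul_assoc] using h.2.2 _ (mul_mem hu (hw γ)) c hc

theorem CT.dx (ct : CT L Ω z C) {ι : Type*} [Fintype ι] {a : ι → A} (h1 : ∀ i, a i * z = a i)
    (h2 : ∑ i, star (a i) * a i ≤ 1) : DX L Ω z C (∑ i, a i * star (a i)) := by
  refine ⟨sum_nonneg fun i _ => mul_star_self_nonneg _, ?_, fun w hw c hc => ?_⟩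
  · have : ∀ i x, a i * (x * z) = a i * x := fun i x => by rw [← ct.cp.2, ← mul_assoc, h1]
    simp only [sum_mul, mul_assoc, this]
  have := ta_mono (L := L) (Ω := Ω) (pj_conj_le hc.1 h2)
  rw [mul_one, pj_sq hc.1, hc.2, mul_assoc, pj_sq hc.1, sum_mul, map_sum] at this
  refine le_trans ?_ (mul_le_mul_of_nonneg_left this ct.C0.le)
  simp only [mul_sum, sum_mul, map_sum]
  refine sum_le_sum fun i _ => ?_
  have := ct.tr' (w * a i * c)
  rwa [hc.ini, hc.fin, star_mul, mul_assoc (star _) _ (w * _), ← mul_assoc (star w), hw.1, one_mul,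
    ← mul_assoc, mul_assoc w] at this

theorem DX.step (ct : CT L Ω z C) (h : DX L Ω z C S) {μ : ℝ} (hμ : 2 * C * (1 + C) < μ)
    (hS : S ≤ μ • 1) : ∃ u ∈ unitary A, av (fun b : Bool => if b then u else 1) S
      ≤ (3 / 4 * μ) • 1 := by
  have C0 := ct.C0
  have μ0 : 0 ≤ μ / 2 := by nlinarith
  obtain ⟨F, hF⟩ := exists_spec h.1
  have hP := hF.pj (μ / 2)
  have a1 := hF.lo (μ / 2)
  have a2 := hF.up (μ / 2)
  have a3 := hF.ca h.1 (μ / 2)
  have a4 := fun y => hF.kill (μ / 2) y μ0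
  generalize F (μ / 2) = P at hP a1 a2 a3 a4
  obtain ⟨c, hc, ⟨v, v1, v2, v3⟩, k⟩ := compare hP hP.one_sub
  have hc' := hc.one_sub
  have Pc : P * c = P := by
    refine osub_r.1 ?_
    generalize 1 - c = d at hc' k
    have k1 := ct.sb (hc'.pj hP) (k.cut hc')
    have k2 := h.2.2 1 (one_mem _) d hc'
    have k3 : S * P ≤ S := by
      have := P104.mul_nonneg_of_commute h.1 hP.one_sub.nonneg
        ((Commute.one_right S).sub_right a3.symm)
      rwa [mul_sub, mul_one, sub_nonneg] at this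
    have k4 := ta_mono (L := L) (Ω := Ω) (pj_conj_le hc'.1 (a1.trans k3))
    rw [mul_assoc, pj_sq hc'.1, sub_mul, one_mul, map_sub] at k1
    rw [hc'.2, hc'.2 S, mul_assoc, mul_assoc, pj_sq hc'.1, smul_mul_assoc, map_smul,
      smul_eq_mul] at k4
    rw [one_mul, star_one, mul_one] at k2
    have k5 := ta_pj0 (L := L) (Ω := Ω) (hc'.pj hP)
    have k6 : ta L Ω (P * d) ≤ 0 := by
      by_contra hn
      nlinarith [mul_le_mul_of_nonneg_left k1 C0.le]
    have k7 : ‖jj L Ω d‖ ^ 2 ≤ 0 := by rw [← ta_pj hc'.1]; nlinarith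
    have k8 := ct.faith d (norm_eq_zero.1 (pow_eq_zero_iff two_ne_zero |>.1
      (le_antisymm k7 (sq_nonneg _))))
    rw [← hc'.2]
    exact a4 d (by rw [← h.2.1, ← ct.cp.2, ← mul_assoc, k8, zero_mul])
  rw [Pc] at v1 v2
  have hv : PI v := by rw [PI, v1, v2]
  have hq := hv.fin
  have b1 : P * v = 0 := by rw [← v3, ← mul_assoc, hP.mul_one_sub_self, zero_mul]
  have b2 : v * v = 0 := by nth_rw 1 [← v2]; rw [mul_assoc, b1, mul_zero]
  have b3 : P * (v * star v) = 0 := by rw [← mul_assoc, b1, zero_mul]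
  have b4 := st_zero b1
  have b5 := st_zero b2
  have b6 := st_zero b3
  have b7 := st_r hP v2
  have b8 := hv.l
  have b9 := st_l hq b8
  have b10 : v * (v * star v) = 0 := by rw [← mul_assoc, b2, zero_mul]
  have b11 := st_zero b10
  rw [pj_st hP] at b4 b6
  rw [pj_st hq] at b6 b11
  obtain ⟨q, e⟩ : ∃ q, v * star v = q := ⟨_, rfl⟩
  rw [e] at hq b3 b6 b8 b9 b10 b11
  have u1 : star (v + star v + (1 - P - q)) = v + star v + (1 - P - q) := by
    simp [pj_st hP, pj_st hq, add_comm]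
  have u2 : (v + star v + (1 - P - q)) * (v + star v + (1 - P - q)) = 1 := by
    simp only [add_mul, mul_add, sub_mul, mul_sub, one_mul, mul_one, pj_sq hP, pj_sq hq, *]
    abel
  have u3 : (v + star v + (1 - P - q)) * P * star (v + star v + (1 - P - q)) = q := by
    rw [u1]
    simp only [add_mul, mul_add, sub_mul, mul_sub, one_mul, mul_one, pj_sq hP, zero_mul, *]
    abel
  have hu : v + star v + (1 - P - q) ∈ unitary A := ⟨by rw [u1, u2], by rw [u1, u2]⟩
  generalize v + star v + (1 - P - q) = u at hu u3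
  have c1 : S ≤ (μ / 2) • 1 + (μ / 2) • P := by
    have := pj_conj_le hP hS
    rw [a3.eq, mul_assoc, pj_sq hP, mul_smul_comm, smul_mul_assoc, mul_one, pj_sq hP] at this
    refine le_of_eq_of_le (by noncomm_ring) ((add_le_add this a2).trans_eq (by module))
  have c2 := star_right_conjugate_le_conjugate c1 u
  simp only [mul_add, add_mul, mul_smul_comm, smul_mul_assoc, mul_one, u3, hu.2] at c2
  have c3 := smul_le_smul_of_nonneg_left (pj_le_one (hP.add hq b3)) μ0
  refine ⟨u, hu, ?_⟩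
  simp only [av, Fintype.sum_bool, Fintype.card_bool, if_true, Bool.false_eq_true, if_false,
    star_one, mul_one, one_mul]
  refine (smul_le_smul_of_nonneg_left ((add_le_add c2 c1).trans (le_of_eq_of_le
    (b := μ • 1 + (μ / 2) • (P + q)) (by module) (add_le_add le_rfl c3)))
    (by positivity)).trans_eq (by push_cast; module)

theorem CT.dix (ct : CT L Ω z C) {I : Type*} (t : Finset I) {S : I → A}
    (h : ∀ i, DX L Ω z C (S i)) : ∃ (Γ : Type) (_ : Fintype Γ) (_ : Nonempty Γ) (w : Γ → A),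
      (∀ γ, w γ ∈ unitary A) ∧ ∀ i ∈ t, av w (S i) ≤ (2 * C * (1 + C)) • 1 := by
  classical
  have C0 := ct.C0
  induction t using Finset.induction_on with
  | empty => exact ⟨Unit, inferInstance, inferInstance, 1, fun _ => one_mem _, by simp⟩
  | insert j t _ ih =>
    have : ∀ n : ℕ, ∃ (Γ : Type) (_ : Fintype Γ) (_ : Nonempty Γ) (w : Γ → A),
        (∀ γ, w γ ∈ unitary A) ∧ (∀ i ∈ t, av w (S i) ≤ (2 * C * (1 + C)) • 1) ∧
        av w (S j) ≤ max (2 * C * (1 + C)) (‖S j‖ * (3 / 4) ^ n) • 1 := fun n => by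
      induction n with
      | zero =>
        obtain ⟨Γ, _, _, w, h1, h2⟩ := ih
        exact ⟨Γ, _, ‹_›, w, h1, h2, av_le h1 ((P104.le_norm_smul_one (h j).1.isSelfAdjoint).trans
          (P104.smul_one_mono (by simp)))⟩
      | succ n ih =>
        obtain ⟨Γ, _, _, w, h1, h2, h3⟩ := ih
        rcases le_or_gt (‖S j‖ * (3 / 4) ^ n) (2 * C * (1 + C)) with e | e
        · rw [max_eq_left e] at h3
          exact ⟨Γ, _, ‹_›, w, h1, h2, h3.trans (P104.smul_one_mono (le_max_left _ _))⟩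
        rw [max_eq_right e.le] at h3
        obtain ⟨u, hu, k⟩ := ((h j).avg ct h1).step ct e h3
        have hu' : ∀ b : Bool, (if b then u else 1) ∈ unitary A := fun b => by
          split_ifs; exacts [hu, one_mem _]
        refine ⟨Bool × Γ, inferInstance, inferInstance, fun p => (if p.1 then u else 1) * w p.2,
          fun p => mul_mem (hu' _) (h1 _), fun i hi => ?_, ?_⟩
        · rw [av_comp w fun b : Bool => if b then u else 1]; exact av_le hu' (h2 i hi)
        · rw [av_comp w fun b : Bool => if b then u else 1]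
          exact k.trans (P104.smul_one_mono (le_max_of_le_right (le_of_eq (by ring))))
    obtain ⟨n, hn⟩ := exists_pow_lt_of_lt_one (show 0 < 2 * C * (1 + C) / (‖S j‖ + 1) by positivity)
      (show (3 / 4 : ℝ) < 1 by norm_num)
    obtain ⟨Γ, _, _, w, h1, h2, h3⟩ := this n
    rw [lt_div_iff₀ (by positivity)] at hn
    rw [max_eq_left (by nlinarith [pow_pos (show (0 : ℝ) < 3 / 4 by norm_num) n])] at h3
    exact ⟨Γ, _, ‹_›, w, h1, by simpa [h3] using h2⟩

theorem Loc.cmp {ι : Type} [Fintype ι] [DecidableEq ι] {v : ι → A} {o : ι} {K S : Set (Fn A A)}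
    (lc : Loc K v S) (h : Sys K B) (ct : CT L Ω z C) (mu : MU v (v o) z) {η : A}
    (hη : v o * η = η) : dm L Ω K η ^ 2 ≤ 32 * (1 + 2 * C * (1 + C)) * dm L Ω S η ^ 2 := by
  have C0 := ct.C0
  obtain ⟨θ, hθ⟩ := lc.min.ne
  have l := h.lin θ (lc.sub hθ)
  have p0 := (lc.pre h).dm_nn (L := L) (Ω := Ω) η
  obtain ⟨z', hz', ct'⟩ := ct.cent (Set.range fun p : ι × ι => v p.1 * star (v p.2))
  let G : NN v →ₗ[ℂ] E := jj L Ω ∘ₗ (l.mk' θ ∘ₗ LinearMap.mulRight ℂ η -
    LinearMap.mulRight ℂ (θ η)) ∘ₗ (NN v).subtype.toLinearMap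
  have hG : ∀ a : NN v, G a = jj L Ω (θ (a * η) - a * θ η) := fun _ => rfl
  have G1 := four G (r := dm L Ω S η) fun u hu => by
    have hu' := nn_unit ⟨u, hu⟩
    rw [hG, ← jj_unit hu', mul_sub, ← mul_assoc, hu'.1, one_mul]
    exact (lc.pre h).le_dm (lc.inv ⟨u, hu⟩ hθ) hθ η
  have e1 : ∀ (u : A) i, v o * (star (v i) * u * v o) = star (v i) * u * v o := fun u i => by
    rw [← mul_assoc, ← mul_assoc, mu.ev]
  let a : A → ι → NN v := fun u i => ⟨am v (star (v i) * u * v o),
    mu.am_mem (e1 u i) (by rw [mul_assoc, pj_sq mu.pj])⟩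
  have a1 : ∀ u ∈ unitary A, ∑ i, star (a u i) * a u i ≤ 1 := fun u hu => by
    change (NN v).subtype (∑ i, star (a u i) * a u i) ≤ 1
    simp only [map_sum, map_mul, map_star, StarSubalgebra.subtype_apply, a,
      am_star, mu.am_mul _ (e1 _ _), am_sum]
    simp only [star_mul, star_star, mul_assoc]
    simp only [← mul_sum, ← mul_assoc (v _), ← sum_mul, mu.sum]
    rw [← mul_assoc z, ct.cp.2, mul_assoc, mu.zv, ← mul_assoc (star u), hu.1, one_mul,
      pj_st mu.pj, pj_sq mu.pj, mu.am_one]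
    exact pj_le_one ct.cp.1
  have a2 : ∀ u i x, v o * x = x → a u i * x = star (v i) * (u * x) := fun u i x k => by
    rw [mu.am_act (e1 u i) k, mul_assoc, k, mul_assoc]
  obtain ⟨θ', k1, k2⟩ := fip lc.min.cpt (fun u : unitary A => {θ' : Fn A A |
      ‖jj L Ω (θ' (u * η) - u * θ η)‖ ^ 2 ≤ 2 * (2 * dm L Ω S η) ^ 2 * (1 + 2 * C * (1 + C))})
    (fun u => closed_sq1 (ct.cont ((WC.ev _).sub (WC.const _))) _) fun t => by
      obtain ⟨Γ, _, _, w, h1, h2⟩ := ct'.dix t (S := fun u => ∑ i, a u i * star (a u i))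
        fun u => ct'.dx (fun i => Subtype.ext (by
          rw [MulMemClass.coe_mul, hz']; exact mu.am_z _)) (a1 u u.2)
      have c0 : (0 : ℝ) < Fintype.card Γ := by positivity
      have m := lc.min.cvx.sum_mem (t := univ) (w := fun _ : Γ => (Fintype.card Γ : ℝ)⁻¹)
        (fun _ _ => by positivity) (by simp) fun γ _ => lc.inv ⟨w γ, h1 γ⟩ hθ
      refine ⟨_, m, fun u hu => ?_⟩
      have := P104.little_gt G _ (by positivity) G1
        (fun p : ι × Γ => √(Fintype.card Γ : ℝ)⁻¹ • (w p.2 * a u p.1)) 1 (2 * C * (1 + C))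
        zero_le_one (by positivity) ?_ ?_
      · refine le_trans ?_ this
        rw [← ct.mu mu, Fintype.sum_prod_type]
        refine sum_le_sum fun i _ => ?_
        have e : star (v i) * ((∑ γ, (Fintype.card Γ : ℝ)⁻¹ • ac (w γ : A) θ : Fn A A) (u * η)
            - u * θ η) = (Fintype.card Γ : ℝ)⁻¹ • ∑ γ, star (w γ : A) *
              (θ ((w γ * a u i : NN v) * η) - (w γ * a u i : NN v) * θ η) := by
          rw [mul_sub, ← lc.m2 mu m, ← a2 _ _ _ hη, ← a2 _ _ _ (by rw [← lc.m1 mu hθ, hη])]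
          simp only [Fn.sum_apply, Fn.smul_apply, ac_apply, mul_sub, MulMemClass.coe_mul,
            mul_assoc, ← mul_assoc (star _) (w _ : A) ((a u i : A) * θ η),
            (nn_unit ⟨w _, h1 _⟩).1, one_mul, sum_sub_distrib, smul_sub, smul_sum]
          rw [sum_const, card_univ, ← Nat.cast_smul_eq_nsmul ℝ, smul_inv_smul₀ c0.ne']
        simp only [e, ← Complex.coe_smul, map_smul, map_sum, norm_smul, mul_pow, Complex.norm_real,
          Real.norm_eq_abs, sq_abs, Real.sq_sqrt (inv_nonneg.2 c0.le), ← mul_sum]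
        rw [sq, mul_assoc]
        refine mul_le_mul_of_nonneg_left ?_ (by positivity)
        rw [inv_mul_le_iff₀ c0]
        refine (pow_le_pow_left₀ (norm_nonneg _) (norm_sum_le _ _) 2).trans
          (sq_sum_le_card_mul_sum_sq.trans_eq ?_)
        simp only [jj_unit (nn_unit ⟨w _, h1 _⟩), hG, card_univ]
      · simp only [star_smul, star_trivial, smul_mul_smul_comm,
          Real.mul_self_sqrt (inv_nonneg.2 c0.le), star_mul, mul_assoc, ← mul_assoc (star (w _)),
          (h1 _).1, one_mul, Fintype.sum_prod_type, sum_const, card_univ,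
          ← Nat.cast_smul_eq_nsmul ℝ, smul_inv_smul₀ c0.ne', one_smul]
        exact a1 u u.2
      · refine le_of_eq_of_le ?_ (h2 u hu)
        simp only [star_smul, star_trivial, smul_mul_smul_comm,
          Real.mul_self_sqrt (inv_nonneg.2 c0.le), star_mul, mul_assoc, av,
          Fintype.sum_prod_type_right, mul_sum, sum_mul, smul_sum]
  have k3 := h.all (S := {θ' | ∀ u : unitary A, ‖jj L Ω (θ' (u * η) - u * θ η)‖ ^ 2
      ≤ 2 * (2 * dm L Ω S η) ^ 2 * (1 + 2 * C * (1 + C))})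
    (closed_all fun u => closed_sq1 (ct.cont ((WC.ev _).sub (WC.const _))) _)
    (convex_all fun u => convex_sq1 (fun x y a b e => by
      rw [← Complex.coe_smul, ← Complex.coe_smul b, ← map_smul, ← map_smul, ← map_add,
        Complex.coe_smul, Complex.coe_smul, Fn.add_apply, Fn.smul_apply, Fn.smul_apply,
        smul_sub, smul_sub, ← add_sub_add_comm, ← add_smul, e, one_smul]) _)
    ⟨θ', lc.sub k1, fun u => k2 u⟩ fun w hw θ' _ k u => by
      have := k (⟨w, hw⟩ * u)
      rwa [← jj_unit hw, Submonoid.coe_mul, mul_sub, mul_assoc, mul_assoc, ← mul_assoc (star w) w,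
        hw.1, one_mul] at this
  refine h.pre.dm_sq fun θ1 h1 θ2 h2 => ?_
  have b1 := k3 θ1 h1 1
  have b2 := k3 θ2 h2 1
  simp only [OneMemClass.coe_one, one_mul] at b1 b2
  have := norm_sub_le (jj L Ω (θ1 η - θ η)) (jj L Ω (θ2 η - θ η))
  rw [← map_sub, sub_sub_sub_cancel_right] at this
  nlinarith [pow_le_pow_left₀ (norm_nonneg _) this 2,
    sq_nonneg (‖jj L Ω (θ1 η - θ η)‖ - ‖jj L Ω (θ2 η - θ η)‖)]

end Vale.Agent.P082
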