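import Vale.Agent.P082.Fin3

/-! Scales, and removal of a small projection. -/

namespace Vale.Agent.P082

open scoped InnerProductSpace
open Finset Filter Topology

theorem exists_pad {I A : Type*} [Zero A] (s : Finset I) (η : I → A) : ∃ η' : ℕ → A,
    (∀ p, η' p = 0 ∨ ∃ i ∈ s, η' p = η i) ∧ (∀ p, s.card ≤ p → η' p = 0) ∧
    ∀ g : A → ℝ, g 0 = 0 → ∀ M, s.card ≤ M → ∑ p ∈ range M, g (η' p) = ∑ i ∈ s, g (η i) := by
  refine ⟨fun p => if h : p < s.card then η (s.equivFin.symm ⟨p, h⟩) else 0, fun p => ?_,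
    fun p hp => dif_neg hp.not_gt, fun g hg M hM => ?_⟩
  · by_cases h : p < s.card
    · exact .inr ⟨_, (s.equivFin.symm ⟨p, h⟩).2, dif_pos h⟩
    · exact .inl (dif_neg h)
  rw [← sum_subset (range_subset_range.2 hM) fun p _ hp => by
    simp only [dif_neg (show ¬p < s.card by simpa using hp), hg], sum_range, ← sum_coe_sort s,
    ← s.equivFin.symm.sum_comp]
  simp

variable {A : Type*} [CStarAlgebra A] {E : Type*} [NormedAddCommGroup E] [InnerProductSpace ℂ E]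
  [CompleteSpace E] {L : A →⋆ₐ[ℂ] (E →L[ℂ] E)} {Ω : E}

theorem orth_sum {I : Type*} {s : Finset I} {q : I → A} (h : ∀ i ∈ s, IsStarProjection (q i))
    (o : ∀ i ∈ s, ∀ j ∈ s, i ≠ j → q i * q j = 0) : IsStarProjection (∑ i ∈ s, q i) :=
  ⟨by
    rw [IsIdempotentElem, sum_mul]
    refine sum_congr rfl fun i hi => ?_
    rw [mul_sum, sum_eq_single i (fun j hj e => o i hi j hj e.symm) (fun k => absurd hi k),
      pj_sq (h i hi)],
  by rw [IsSelfAdjoint, star_sum]; exact sum_congr rfl fun i hi => pj_st (h i hi)⟩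

variable {H : Type*} [NormedAddCommGroup H] [InnerProductSpace ℂ H] [CompleteSpace H] [VN A H]
variable {K : Set (Fn A A)} {B C a : ℝ} {z : A} {f : ℕ → A}

/-- A sequence of scales. -/
structure Sc (L : A →⋆ₐ[ℂ] (E →L[ℂ] E)) (Ω : E) (K : Set (Fn A A)) (z : A) (C a : ℝ)
    (f : ℕ → A) : Prop where
  a0 : 0 < a
  pj : ∀ j, IsStarProjection (f j)
  mu : ∀ j, ∃ (ι : Type) (_ : Fintype ι) (_ : DecidableEq ι) (v : ι → A) (o : ι),
    MU v (v o) z ∧ v o = f j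
  t1 : ∀ j c, CP c → 4 ^ (j + 1) * ta L Ω (f j * c) ≤ C * ta L Ω c
  t2 : ∀ j c, CP c → ta L Ω c ≤ C * (4 ^ (j + 1) * ta L Ω (f j * c))
  rows : ∀ j c, CP c → ∀ η : ℕ → A, (∀ p, f j * c * η p = η p) → (∀ p, 2 * 2 ^ j ≤ p → η p = 0) →
    (∀ ζ : H, ∑ p ∈ range (4 * 2 ^ j), ‖ρ (η p) ζ‖ ^ 2 ≤ ‖ζ‖ ^ 2) →
    ∑ p ∈ range (4 * 2 ^ j), dm L Ω K (η p) ^ 2
      ≤ a / (j + 1) ^ 2 * (2 * 2 ^ j * ta L Ω (f j * c))

/-- Bad rows. -/
def Bad (L : A →⋆ₐ[ℂ] (E →L[ℂ] E)) (Ω : E) (K : Set (Fn A A)) (C a : ℝ) (f : ℕ → A)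
    (i : ℕ × A × A × A) : Prop :=
  CP i.2.1 ∧ f i.1 * i.2.1 * i.2.2.1 = i.2.2.1 ∧ ‖i.2.2.1‖ ≤ 1 ∧ IsStarProjection i.2.2.2 ∧
    i.2.2.1 * i.2.2.2 = i.2.2.1 ∧ ta L Ω i.2.2.2 ≤ C * ta L Ω (f i.1 * i.2.1) ∧
    2 * (a / (i.1 + 1) ^ 2) * ta L Ω (f i.1 * i.2.1) < dm L Ω K i.2.2.1 ^ 2

theorem Sc.blocks (sc : Sc L Ω K z C a f) (h : Sys K B) {j : ℕ} {c : A} (hc : CP c) {I : Type*}
    (η : I → A) (s : Finset I) (h1 : ∀ i ∈ s, f j * c * η i = η i)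
    (h2 : ∀ ζ : H, ∑ i ∈ s, ‖ρ (η i) ζ‖ ^ 2 ≤ ‖ζ‖ ^ 2) : ∑ i ∈ s, dm L Ω K (η i) ^ 2
      ≤ a / (j + 1) ^ 2 * ((s.card + 2 * 2 ^ j) * ta L Ω (f j * c)) := by
  classical
  have a0 := sc.a0
  have t0 := ta_pj0 (L := L) (Ω := Ω) (hc.pj (sc.pj j))
  have small : ∀ s : Finset I, s.card ≤ 2 * 2 ^ j → (∀ i ∈ s, f j * c * η i = η i) →
      (∀ ζ : H, ∑ i ∈ s, ‖ρ (η i) ζ‖ ^ 2 ≤ ‖ζ‖ ^ 2) → ∑ i ∈ s, dm L Ω K (η i) ^ 2
        ≤ a / (j + 1) ^ 2 * (2 * 2 ^ j * ta L Ω (f j * c)) := fun s hs h1 h2 => by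
    obtain ⟨η', k1, k2, k3⟩ := exists_pad s η
    rw [← k3 (fun x => dm L Ω K x ^ 2) (by simp [h.pre.dm_zero]) (4 * 2 ^ j) (by omega)]
    refine sc.rows j c hc η' (fun p => ?_) (fun p hp => k2 p (hs.trans hp)) fun ζ => ?_
    · obtain e | ⟨i, hi, e⟩ := k1 p
      · rw [e, mul_zero]
      · rw [e, h1 i hi]
    · rw [k3 (fun x => ‖ρ x ζ‖ ^ 2) (by simp) _ (by omega)]; exact h2 ζ
  induction s using Finset.strongInduction with
  | H s ih =>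
    rcases le_or_gt s.card (2 * 2 ^ j) with e | e
    · refine (small s e h1 h2).trans ?_
      gcongr
      exact le_add_of_nonneg_left (by positivity)
    obtain ⟨t, ht, e'⟩ := exists_subset_card_eq e.le
    have sub : ∀ t ⊆ s, ∀ ζ : H, ∑ i ∈ t, ‖ρ (η i) ζ‖ ^ 2 ≤ ‖ζ‖ ^ 2 := fun t ht ζ =>
      (sum_le_sum_of_subset_of_nonneg ht fun _ _ _ => sq_nonneg _).trans (h2 ζ)
    have k1 := small t e'.le (fun i hi => h1 i (ht hi)) (sub t ht)
    have k2 := ih (s \ t) (sdiff_ssubset ht (card_pos.1 (by rw [e']; positivity)))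
      (fun i hi => h1 i (sdiff_subset hi)) (sub _ sdiff_subset)
    rw [← sum_sdiff ht, ← card_sdiff_add_card_eq_card ht, e']
    push_cast
    linarith

variable [PartialOrder A] [StarOrderedRing A]

theorem exists_sc (h : Sys K B) (ct : CT L Ω z C) (hz : ∀ r, Ab r → z * r = r → r = 0) :
    ∃ a f, Sc L Ω K z C a f := by
  choose ι _ _ v o hc mu using fun j => tower ct.cp.1 hz (2 * (j + 1))
  have C0 := ct.C0
  have hc' : ∀ j, (Fintype.card (ι j) : ℝ) = 4 ^ (j + 1) := fun j => by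
    rw [hc, pow_mul]; norm_num
  refine ⟨32 * (1 + 2 * C * (1 + C)) * (12800 * C * B ^ 2) + 1, fun j => v j (o j), by positivity,
    fun j => (mu j).pj, fun j => ⟨_, _, _, _, _, mu j, rfl⟩,
    fun j c k => hc' j ▸ (ct.mu_ta (mu j) k).1, fun j c k => hc' j ▸ (ct.mu_ta (mu j) k).2,
    fun j c k η h1 h0 h2 => ?_⟩
  obtain ⟨S, lc⟩ := h.loc (mu j)
  have := lc.rows h ct (mu j) (r := 2 ^ j) (by
    rw [hc, mul_add, pow_add, mul_comm]
    exact Nat.mul_le_mul_right _ (Nat.pow_le_pow_right two_pos (by omega))) k η h1 h0 h2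
    (Z := (j + 1) / 40) (by positivity) (by
      have b1 := Real.log_le_log (x := 2 ^ j) (y := (2 ^ j : ℕ) + 1) (by positivity) (by simp)
      have b2 := Real.log_le_log (x := 2) (y := (2 ^ j : ℕ) + 1) two_pos (by
        have : (1 : ℝ) ≤ (2 ^ j : ℕ) := by exact_mod_cast Nat.one_le_two_pow
        linarith)
      rw [Real.log_pow] at b1
      nlinarith [Real.log_two_gt_d9, (by positivity : (0 : ℝ) ≤ j)])
  refine (sum_le_sum fun p _ => lc.cmp h ct (mu j) (by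
    rw [← h1 p, mul_assoc, pj_sq' (mu j).pj])).trans ?_
  rw [← mul_sum]
  refine (mul_le_mul_of_nonneg_left this (by positivity)).trans (le_of_eq_of_le
    (b := 32 * (1 + 2 * C * (1 + C)) * (12800 * C * B ^ 2) / (j + 1) ^ 2 *
      (2 * 2 ^ j * ta L Ω (v j (o j) * c))) (by push_cast; field_simp; ring) ?_)
  have := ta_pj0 (L := L) (Ω := Ω) (k.pj (mu j).pj)
  gcongr
  exact le_add_of_nonneg_right zero_le_one

theorem Sc.bad1 (sc : Sc L Ω K z C a f) (h : Sys K B) {j : ℕ} (s : Finset (ℕ × A × A × A))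
    (h1 : ∀ i ∈ s, i.1 = j ∧ Bad L Ω K C a f i)
    (h2 : ∀ i ∈ s, ∀ i' ∈ s, i ≠ i' → i.2.2.2 * i'.2.2.2 = 0) :
    ∑ i ∈ s, ta L Ω (f j * i.2.1) ≤ 2 * 2 ^ j * ta L Ω (f j) := by
  classical
  have a0 : 0 < a / (j + 1) ^ 2 := by have := sc.a0; positivity
  obtain ⟨κ, _, d, hd, hd'⟩ := exists_atoms (univ : Finset s) (fun i => i.1.2.1)
    fun i => (h1 i i.2).2.1
  have k1 : ∀ k, ∑ i ∈ s, dm L Ω K (i.2.2.1 * d k) ^ 2 ≤ a / (j + 1) ^ 2 *
      (∑ i ∈ s, ta L Ω (f j * i.2.1 * d k) + 2 * 2 ^ j * ta L Ω (f j * d k)) := fun k => by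
    have hk := hd.cp k
    rw [← sum_filter_of_ne (p := fun i => d k * i.2.1 = d k) fun i hi hn => by
      by_contra e
      obtain ⟨rfl, b1, b2, -⟩ := h1 i hi
      rw [← b2, mul_assoc, ← hk.2, mul_assoc, ← mul_assoc i.2.1, ← hk.2,
        (hd' ⟨i, hi⟩ (mem_univ _) k).resolve_left e] at hn
      simp [h.pre.dm_zero] at hn]
    refine (sc.blocks h hk (fun i : ℕ × A × A × A => i.2.2.1 * d k) _ (fun i hi => ?_)
      fun ζ => ?_).trans (mul_le_mul_of_nonneg_left ?_ a0.le)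
    · obtain ⟨rfl, b1, b2, -⟩ := h1 i (mem_filter.1 hi).1
      rw [hk.mm, ← hk.2 (_ * _), ← mul_assoc, hk.2 (f _)]
      nth_rw 1 [← (mem_filter.1 hi).2]
      rw [hk.2, ← mul_assoc, mul_assoc _ (d k), hk.2, ← mul_assoc, b2]
    · have := re_mono (pj_le_one (orth_sum (q := fun i : ℕ × A × A × A => i.2.2.2)
        (fun i hi => (h1 i hi).2.2.2.2.1) h2)) ζ
      change om ζ _ ≤ om ζ _ at this
      rw [om_one, om_sum] at this
      refine (sum_le_sum_of_subset_of_nonneg (filter_subset _ _) fun _ _ _ => sq_nonneg _).trans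
        (le_trans (sum_le_sum fun i hi => ?_) this)
      obtain ⟨-, -, -, b3, b4, b5, -⟩ := h1 i hi
      rw [← pj_sq b4, ← b5]
      nth_rw 2 [← pj_st b4]
      rw [om_sq, mul_assoc, ← hk.2, ← mul_assoc, rho_mul]
      refine pow_le_pow_left₀ (norm_nonneg _) ((rho_le _ _).trans (mul_le_of_le_one_left
        (norm_nonneg _) ((norm_mul_le _ _).trans (mul_le_one₀ b3 (norm_nonneg _) hk.1.norm_le)))) 2
    · rw [add_mul, ← nsmul_eq_mul, ← sum_const, sum_filter]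
      refine add_le_add_left (sum_le_sum fun i hi => ?_) _
      split_ifs with e
      · rw [mul_assoc, ← hk.2 i.2.1, e]
      · exact ta_pj0 (hk.pj ((h1 i hi).2.1.pj (sc.pj j)))
  have k2 := sum_le_sum fun k (_ : k ∈ univ) => k1 k
  rw [sum_comm, ← mul_sum, sum_add_distrib, sum_comm (s := univ), ← mul_sum, hd.ta] at k2
  simp only [hd.ta] at k2
  have k3 : ∑ i ∈ s, 2 * (a / (j + 1) ^ 2) * ta L Ω (f j * i.2.1)
      ≤ ∑ i ∈ s, ∑ k, dm L Ω K (i.2.2.1 * d k) ^ 2 := sum_le_sum fun i hi => by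
    obtain ⟨rfl, b⟩ := h1 i hi
    exact b.2.2.2.2.2.2.le.trans (h.dm_part hd _)
  rw [← mul_sum] at k3
  refine le_of_mul_le_mul_left ?_ a0
  linarith [k3.trans k2]

theorem Sc.bad2 (sc : Sc L Ω K z C a f) (h : Sys K B) (ct : CT L Ω z C) (j0 : ℕ)
    (s : Finset (ℕ × A × A × A)) (h1 : ∀ i ∈ s, j0 ≤ i.1 ∧ Bad L Ω K C a f i)
    (h2 : ∀ i ∈ s, ∀ i' ∈ s, i ≠ i' → i.2.2.2 * i'.2.2.2 = 0) :
    ∑ i ∈ s, ta L Ω i.2.2.2 ≤ C ^ 2 * ‖Ω‖ ^ 2 * (1 / 2) ^ j0 := by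
  have C0 := ct.C0
  rw [← sum_fiberwise_of_maps_to (g := Prod.fst) (t := Ico j0 (s.sup Prod.fst + 1))
    fun i hi => mem_Ico.2 ⟨(h1 i hi).1, Nat.lt_succ_of_le (le_sup (f := Prod.fst) hi)⟩]
  have := geom_sum_Ico_le_of_lt_one (x := (1 / 2 : ℝ)) (m := j0) (n := s.sup Prod.fst + 1)
    (by norm_num) (by norm_num)
  refine le_trans (sum_le_sum fun j _ => ?_ : _ ≤ ∑ j ∈ _, C ^ 2 * ‖Ω‖ ^ 2 / 2 * (1 / 2) ^ j) ?_
  · have k1 := sc.bad1 h (j := j) (s.filter (·.1 = j))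
      (fun i hi => ⟨(mem_filter.1 hi).2, (h1 i (mem_filter.1 hi).1).2⟩)
      fun i hi i' hi' => h2 i (mem_filter.1 hi).1 i' (mem_filter.1 hi').1
    have k2 := sc.t1 j 1 cp_one
    rw [mul_one, ta_one] at k2
    refine (sum_le_sum fun i hi => (h1 i (mem_filter.1 hi).1).2.2.2.2.2.2.1).trans ?_
    rw [sum_congr rfl fun i hi => by rw [(mem_filter.1 hi).2], ← mul_sum]
    refine (mul_le_mul_of_nonneg_left k1 C0.le).trans ?_
    rw [one_div, inv_pow, ← div_eq_mul_inv, le_div_iff₀ (by positivity)]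
    rw [show (4 : ℝ) ^ (j + 1) = 4 * (2 ^ j * 2 ^ j) by rw [← mul_pow, pow_succ']; norm_num] at k2
    nlinarith
  · rw [← mul_sum]
    exact (mul_le_mul_of_nonneg_left this (by positivity)).trans_eq (by ring)

theorem Sc.small (sc : Sc L Ω K z C a f) (h : Sys K B) (ct : CT L Ω z C) (j0 : ℕ) :
    ∃ Q, IsStarProjection Q ∧ ta L Ω Q ≤ C ^ 2 * ‖Ω‖ ^ 2 * (1 / 2) ^ j0 ∧
      ∀ j, j0 ≤ j → ∀ c η, CP c → f j * c * η = η → η * Q = 0 →
        dm L Ω K η ^ 2 ≤ 8 * (a / (j + 1) ^ 2) * ta L Ω (f j * c) * ‖η‖ ^ 2 := by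
  classical
  obtain ⟨Q, ⟨h1, h2⟩, hm⟩ := max_pj (fun Q => IsStarProjection Q ∧
      ∀ s : Finset (ℕ × A × A × A), (∀ i ∈ s, (j0 ≤ i.1 ∧ Bad L Ω K C a f i) ∧ Q * i.2.2.2 = 0) →
      (∀ i ∈ s, ∀ i' ∈ s, i ≠ i' → i.2.2.2 * i'.2.2.2 = 0) →
      ta L Ω Q + ∑ i ∈ s, ta L Ω i.2.2.2 ≤ C ^ 2 * ‖Ω‖ ^ 2 * (1 / 2) ^ j0)
    ⟨.zero A, fun s k1 k2 => by simpa using sc.bad2 h ct j0 s (fun i hi => (k1 i hi).1) k2⟩
    (fun _ k => k.1) fun U W b1 b2 b3 b4 => ⟨b3, fun s k1 k2 =>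
      le_of_tendsto ((ct.wl b2).add_const _) (by
        filter_upwards [b1, b4] with v c1 c2
        refine c1.2 s (fun i hi => ⟨(k1 i hi).1, ?_⟩) k2
        rw [← pj_st c1.1, ← st_l b3 c2, mul_assoc, (k1 i hi).2, mul_zero])⟩
  refine ⟨Q, h1, by simpa using h2 ∅, fun j hj c η hc k1 k2 => ?_⟩
  have key : ∀ η, f j * c * η = η → η * Q = 0 → ‖η‖ ≤ 1 →
      dm L Ω K η ^ 2 ≤ 2 * (a / (j + 1) ^ 2) * ta L Ω (f j * c) := fun η k1 k2 k3 => by
    by_contra hn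
    obtain ⟨w, w1, -, w3, w4, w5⟩ := polar η
    have b1 : f j * c * w = w := osub_l.1 (w5 _ (osub_l.2 k1))
    have b2 : η * (star w * w) = η := by simpa [pj_st w1.ini] using st_l w1.ini w3
    have b3 : Q * (star w * w) = 0 := by
      have := st_zero (w4 Q k2)
      rw [pj_st h1] at this
      rw [← mul_assoc, this, zero_mul]
    have b4 : star w * w ≠ 0 := fun e => by
      rw [← b2, e, mul_zero, h.pre.dm_zero] at hn
      have := ta_pj0 (L := L) (Ω := Ω) (hc.pj (sc.pj j))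
      have := sc.a0
      exact hn (by rw [zero_pow two_ne_zero]; positivity)
    refine b4 (hm _ w1.ini b3 ⟨h1.add w1.ini b3, fun s c1 c2 => ?_⟩)
    have c3 : ∀ i ∈ s, Q * i.2.2.2 = 0 := fun i hi => by
      have := congrArg (Q * ·) (c1 i hi).2
      simpa only [← mul_assoc, mul_add, pj_sq h1, b3, add_zero, mul_zero] using this
    have c4 : ∀ i ∈ s, star w * w * i.2.2.2 = 0 := fun i hi => by
      have := (c1 i hi).2
      rwa [add_mul, c3 i hi, zero_add] at this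
    have c5 : (j, c, η, star w * w) ∉ s := fun hi => b4 (by
      have := c4 _ hi
      rwa [pj_sq w1.ini] at this)
    have := h2 (insert (j, c, η, star w * w) s) (by
      simp only [forall_mem_insert]
      exact ⟨⟨⟨hj, hc, k1, k3, w1.ini, b2, ct.sb (hc.pj (sc.pj j)) ⟨w, rfl, w1, b1⟩,
        not_le.1 hn⟩, b3⟩, fun i hi => ⟨(c1 i hi).1, c3 i hi⟩⟩) (by
      simp only [forall_mem_insert]
      refine ⟨⟨fun e => absurd rfl e, fun i hi _ => c4 i hi⟩, fun i hi => ⟨fun _ => ?_, c2 i hi⟩⟩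
      simpa only [pj_st w1.ini, pj_st (c1 i hi).1.2.2.2.2.1] using st_zero (c4 i hi))
    rwa [sum_insert c5, ← add_assoc, ← map_add] at this
  rcases eq_or_ne η 0 with rfl | h0
  · simp [h.pre.dm_zero]
  have n0 := norm_pos_iff.2 h0
  have b1 := key (‖η‖⁻¹ • η) (by rw [mul_smul_comm, k1]) (by rw [smul_mul_assoc, k2, smul_zero])
    (by rw [norm_smul, norm_inv, norm_norm, inv_mul_cancel₀ n0.ne'])
  have b2 := h.dm_mul (L := L) (Ω := Ω) (‖η‖ • 1) (‖η‖⁻¹ • η)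
  rw [smul_mul_assoc, one_mul, smul_inv_smul₀ n0.ne', norm_smul, norm_norm] at b2
  have b3 := b2.trans (mul_le_mul_of_nonneg_left (mul_le_of_le_one_right n0.le
    (IsStarProjection.one A).norm_le) (mul_nonneg zero_le_two (h.pre.dm_nn _)))
  refine (pow_le_pow_left₀ (h.pre.dm_nn _) b3 2).trans ?_
  nlinarith [mul_le_mul_of_nonneg_right b1 (sq_nonneg ‖η‖)]

end Vale.Agent.P082
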