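import Vale.Agent.P082.Fin4

/-! The square integrable bound off a small projection. -/

namespace Vale.Agent.P082

open scoped InnerProductSpace
open Finset Filter Topology

theorem geo {T Y : ℝ} (hT : 0 ≤ T) (hY : 0 ≤ Y) (J : ℕ) :
    ∑ j ∈ range J, (if T / 4 ^ j ≤ Y then T / 4 ^ j else 0) ≤ 2 * Y := by
  have : ∀ J : ℕ, ∑ j ∈ range J, (if T / 4 ^ j ≤ Y then T / 4 ^ j else 0)
      + 2 * min Y (T / 4 ^ J) ≤ 2 * Y := fun J => by
    induction J with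
    | zero => simp
    | succ J ih =>
      have e : T / 4 ^ (J + 1) = T / 4 ^ J / 4 := by rw [pow_succ, div_div]
      have e0 : 0 ≤ T / 4 ^ J := by positivity
      rw [sum_range_succ, e]
      split_ifs with h
      · rw [min_eq_right h] at ih
        linarith [min_le_right Y (T / 4 ^ J / 4)]
      · rw [min_eq_left (not_le.1 h).le] at ih
        linarith [min_le_left Y (T / 4 ^ J / 4)]
  linarith [this J, le_min hY (show 0 ≤ T / 4 ^ J by positivity)]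

variable {A : Type*} [CStarAlgebra A] {E : Type*} [NormedAddCommGroup E] [InnerProductSpace ℂ E]
  [CompleteSpace E] {L : A →⋆ₐ[ℂ] (E →L[ℂ] E)} {Ω : E}
variable {H : Type*} [NormedAddCommGroup H] [InnerProductSpace ℂ H] [CompleteSpace H] [VN A H]
variable {K : Set (Fn A A)} {B C a : ℝ} {z : A} {f : ℕ → A}

theorem Sys.move (h : Sys K B) {r g x : A} (k : Sb r g) (e : r * x = x) : ∃ η, g * η = η ∧
    ‖η‖ ≤ ‖x‖ ∧ (∀ y, x * y = 0 → η * y = 0) ∧ dm L Ω K x ^ 2 ≤ 4 * dm L Ω K η ^ 2 := by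
  obtain ⟨w, h1, h2, h3⟩ := k
  have hw : PI w := by rw [PI, h1, h2]
  refine ⟨w * x, by rw [← mul_assoc, h3], (norm_mul_le _ _).trans
    (mul_le_of_le_one_left (norm_nonneg _) hw.norm_le), fun y hy => by rw [mul_assoc, hy, mul_zero],
    ?_⟩
  have := h.dm_mul (L := L) (Ω := Ω) (star w) (w * x)
  rw [← mul_assoc, h1, e] at this
  refine (pow_le_pow_left₀ (h.pre.dm_nn _) (this.trans (mul_le_of_le_one_right
    (mul_nonneg zero_le_two (h.pre.dm_nn _)) hw.star.norm_le)) 2).trans_eq (by ring)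

variable [PartialOrder A] [StarOrderedRing A]

theorem Sc.atom (sc : Sc L Ω K z C a f) (h : Sys K B) (ct : CT L Ω z C) {j0 J n0 : ℕ} {Q : A}
    (hQ : ∀ j, j0 ≤ j → ∀ c η, CP c → f j * c * η = η → η * Q = 0 →
      dm L Ω K η ^ 2 ≤ 8 * (a / (j + 1) ^ 2) * ta L Ω (f j * c) * ‖η‖ ^ 2)
    {σ δ : ℝ} (hσ : ∑ j ∈ Ico j0 J, a / (j + 1) ^ 2 ≤ σ) (hJ : j0 ≤ J) (hδ : 0 ≤ δ)
    {x d : A} (h1 : f j0 * x = x) (h2 : x * Q = 0) {F : ℝ → A} (hF : Spec (x * star x) F)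
    (h3 : ‖x * star x‖ ≤ n0 * δ) (hd : CP d) (h4 : ∀ n < n0, ∀ i ≤ J,
      Sb (F (n * δ) * d) (f i * d) ∨ Sb (f i * d) (F (n * δ) * d)) :
    dm L Ω K (x * d) ^ 2 ≤ 512 * σ * C ^ 3 * (δ * ta L Ω d + ta L Ω (x * star x * d))
      + 64 * (a / (J + 1) ^ 2) * ‖x‖ ^ 2 * ta L Ω (f J * d) := by
  classical
  have C0 := ct.C0
  have a0 := sc.a0
  have x0 := mul_star_self_nonneg x
  have d0 := ta_pj0 (L := L) (Ω := Ω) hd.1
  have f0 := fun j => ta_pj0 (L := L) (Ω := Ω) (hd.pj (sc.pj j))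
  have F0 := fun t => ta_pj0 (L := L) (Ω := Ω) (hd.pj (hF.pj t))
  have piece : ∀ j, j0 ≤ j → ∀ t P, Sb (F t * d) (f j * d) → F t * P = P → ∀ b, ‖P * x‖ ^ 2 ≤ b →
      dm L Ω K (P * x * d) ^ 2 ≤ a / (j + 1) ^ 2 * (32 * b * ta L Ω (f j * d)) :=
    fun j hj t P k1 k2 b k3 => by
      obtain ⟨η, c1, c2, c3, c4⟩ := h.move (L := L) (Ω := Ω) (x := P * x * d) k1
        (by rw [hd.mm, ← mul_assoc, k2])
      have c5 := hQ j hj d η hd c1 (c3 _ (by
        rw [mul_assoc, hd.2, ← mul_assoc, mul_assoc P, h2, mul_zero, zero_mul]))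
      have c6 : ‖η‖ ^ 2 ≤ b := (pow_le_pow_left₀ (norm_nonneg _) (c2.trans ((norm_mul_le _ _).trans
        (mul_le_of_le_one_right (norm_nonneg _) hd.1.norm_le))) 2).trans k3
      nlinarith [mul_le_mul_of_nonneg_left c6 (show 0 ≤ 8 * (a / (j + 1) ^ 2) *
        ta L Ω (f j * d) by have := f0 j; positivity)]
  have ex : ∀ j, ∃ n : ℕ, ∀ i ∈ Icc j0 j, Sb (F (n * δ) * d) (f i * d) := fun j =>
    ⟨n0, fun i _ => by rw [hF.top _ h3, zero_mul]; exact .zero _⟩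
  obtain ⟨ν, hν⟩ : ∃ ν : ℕ → ℕ, ∀ j, ν j = Nat.find (ex j) := ⟨_, fun _ => rfl⟩
  have ν1 : ∀ j, j0 ≤ j → Sb (F (ν j * δ) * d) (f j * d) := fun j hj =>
    hν j ▸ Nat.find_spec (ex j) j (mem_Icc.2 ⟨hj, le_rfl⟩)
  have ν2 : ∀ j, (ν j : ℝ) * δ ≤ ν (j + 1) * δ := fun j => by
    refine mul_le_mul_of_nonneg_right (Nat.cast_le.2 ?_) hδ
    rw [hν, hν]
    exact Nat.find_mono fun n k i hi => k i (Icc_subset_Icc_right j.le_succ hi)
  have ν3 : ∀ j, ν j ≤ n0 := fun j => hν j ▸ Nat.find_min' _ fun i _ => by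
    rw [hF.top _ h3, zero_mul]; exact .zero _
  have ν4 : ν j0 = 0 := by
    rw [hν, Nat.find_eq_zero]
    intro i hi
    rw [Icc_self, mem_singleton] at hi
    rw [hi]
    exact (Sb.of_le (hF.pj _) (osub_l.1 (hF.kill _ _ (by simp)
      (by rw [← mul_assoc, osub_l.2 h1, zero_mul])))).cut hd
  have ν5 : ∀ j < J, ∀ n < ν (j + 1),
      ta L Ω d / 4 ^ j ≤ 16 * C ^ 2 * ta L Ω (F (n * δ) * d) := fun j hj n hn => by
    have := Nat.find_min (ex (j + 1)) (hν _ ▸ hn)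
    push Not at this
    obtain ⟨i, hi, k⟩ := this
    have i1 := (mem_Icc.1 hi).2
    have k1 := ct.sb (hd.pj (hF.pj _)) ((h4 n (hn.trans_le (ν3 _)) i (by omega)).resolve_left k)
    have k2 : (4 : ℝ) ^ (i + 1) ≤ 4 ^ j * 16 := by
      rw [show (4 : ℝ) ^ j * 16 = 4 ^ (j + 2) by ring]
      exact pow_le_pow_right₀ (by norm_num) (by omega)
    rw [div_le_iff₀ (by positivity)]
    exact (sc.t2 i d hd).trans ((mul_le_mul_of_nonneg_left (mul_le_mul k2 k1 (f0 i)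
      (by positivity)) C0.le).trans_eq (by ring))
  have tel : ∀ J, j0 ≤ J → dm L Ω K (x * d) ≤ ∑ j ∈ Ico j0 J,
      dm L Ω K ((F (ν j * δ) - F (ν (j + 1) * δ)) * x * d) + dm L Ω K (F (ν J * δ) * x * d) := by
    refine Nat.le_induction ?_ fun J hJ ih => ?_
    · have : (1 - F 0) * x = 0 := by
        rw [← CStarRing.mul_star_self_eq_zero_iff, star_mul, pj_st (hF.pj 0).one_sub, mul_assoc,
          ← mul_assoc x, osub_r.2 (hF.zero x0), mul_zero]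
      simp [ν4, osub_l.1 this]
    · rw [sum_Ico_succ_top hJ, add_assoc]
      refine ih.trans (add_le_add_right (le_of_eq_of_le ?_ (h.pre.dm_add _ _)) _)
      rw [← add_mul, ← add_mul, sub_add_cancel]
  have s1 := sum_sq_le_sum_mul_sum_of_sq_le_mul (Ico j0 J)
    (r := fun j => dm L Ω K ((F (ν j * δ) - F (ν (j + 1) * δ)) * x * d))
    (f := fun j : ℕ => a / (j + 1) ^ 2) (g := fun j => 32 * (ν (j + 1) * δ) * ta L Ω (f j * d))
    (fun _ _ => by positivity) (fun j _ => by have := f0 j; positivity) fun j hj => by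
      obtain ⟨p1, -, p3, p4⟩ := hF.diff x0 (ν2 j)
      refine piece j (mem_Ico.1 hj).1 _ _ (ν1 j (mem_Ico.1 hj).1)
        (by rw [mul_sub, pj_sq (hF.pj _), hF.mono x0 (ν2 j)]) _ ?_
      rw [← norm_star]
      refine P104.norm_sq_le_of_le (by positivity) ?_
      rw [star_star, star_mul, pj_st p1, ← mul_assoc, mul_assoc _ x, p4]
      exact p3.trans (smul_le_smul_of_nonneg_left (pj_le_one p1) (by positivity))
  have s2 := piece J hJ _ _ (ν1 J hJ) (pj_sq (hF.pj _)) (‖x‖ ^ 2) (pow_le_pow_left₀ (norm_nonneg _)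
    ((norm_mul_le _ _).trans (mul_le_of_le_one_left (norm_nonneg _) (hF.pj _).norm_le)) 2)
  have s3 : ∑ j ∈ Ico j0 J, ν (j + 1) * ta L Ω (f j * d)
      ≤ 8 * C ^ 3 * ∑ n ∈ range n0, ta L Ω (F (n * δ) * d) := by
    refine le_trans (sum_le_sum fun j hj => ?_ : _ ≤ ∑ j ∈ Ico j0 J, ∑ n ∈ range n0, C / 4 *
      if ta L Ω d / 4 ^ j ≤ 16 * C ^ 2 * ta L Ω (F (n * δ) * d) then ta L Ω d / 4 ^ j else 0) ?_
    · rw [← card_range (ν (j + 1)), ← nsmul_eq_mul, ← sum_const]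
      refine le_trans (sum_le_sum fun n hn => ?_) (sum_le_sum_of_subset_of_nonneg
        (range_subset_range.2 (ν3 _)) fun _ _ _ => by split_ifs <;> positivity)
      rw [if_pos (ν5 j (mem_Ico.1 hj).2 n (mem_range.1 hn)), div_mul_div_comm, ← pow_succ',
        le_div_iff₀' (by positivity)]
      exact sc.t1 j d hd
    rw [sum_comm, mul_sum]
    refine sum_le_sum fun n _ => ?_
    rw [← mul_sum]
    have := (sum_le_sum_of_subset_of_nonneg (show Ico j0 J ⊆ range J from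
      fun j hj => mem_range.2 (mem_Ico.1 hj).2) fun _ _ _ => by split_ifs <;> positivity).trans
      (geo d0 (Y := 16 * C ^ 2 * ta L Ω (F (n * δ) * d)) (by have := F0 (n * δ); positivity) J)
    exact (mul_le_mul_of_nonneg_left this (by positivity)).trans_eq (by ring)
  have s4 : δ * ∑ n ∈ range n0, ta L Ω (F (n * δ) * d)
      ≤ δ * ta L Ω d + ta L Ω (x * star x * d) := by
    have k1 := ta_mono (L := L) (Ω := Ω) (pj_conj_le hd.1 (hF.cake_lo x0 hδ n0))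
    have k2 := ta_mono (L := L) (Ω := Ω) (pj_conj_le hd.1 (pj_le_one (hF.pj ((0 : ℕ) * δ))))
    rw [hd.2, hd.2, mul_assoc, mul_assoc (_ * _), pj_sq hd.1, smul_mul_assoc, map_smul, sum_mul,
      map_sum, smul_eq_mul] at k1
    rw [hd.2, mul_assoc, mul_one, pj_sq hd.1] at k2
    have k3 := sum_range_succ' (fun n : ℕ => ta L Ω (F (n * δ) * d)) n0
    rw [sum_range_succ] at k3
    nlinarith [F0 (n0 * δ), mul_le_mul_of_nonneg_left k2 hδ]
  have s5 : ∑ j ∈ Ico j0 J, 32 * (ν (j + 1) * δ) * ta L Ω (f j * d)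
      ≤ 256 * C ^ 3 * (δ * ta L Ω d + ta L Ω (x * star x * d)) := by
    rw [sum_congr rfl fun j _ => show _ = 32 * δ * (ν (j + 1) * ta L Ω (f j * d)) by ring,
      ← mul_sum]
    nlinarith [mul_le_mul_of_nonneg_left s3 hδ, mul_le_mul_of_nonneg_left s4 (pow_pos C0 3).le]
  have s6 := s1.trans (mul_le_mul hσ s5 (sum_nonneg fun j _ => by have := f0 j; positivity)
    ((sum_nonneg fun _ _ => by positivity).trans hσ))
  have s7 := pow_le_pow_left₀ (h.pre.dm_nn _) (tel J hJ) 2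
  generalize ∑ j ∈ Ico j0 J, dm L Ω K ((F (ν j * δ) - F (ν (j + 1) * δ)) * x * d) = u at s6 s7
  nlinarith [sq_nonneg (u - dm L Ω K (F (ν J * δ) * x * d))]

theorem Sc.l2 (sc : Sc L Ω K z C a f) (h : Sys K B) (ct : CT L Ω z C) {j0 : ℕ} {Q : A}
    (hQ : ∀ j, j0 ≤ j → ∀ c η, CP c → f j * c * η = η → η * Q = 0 →
      dm L Ω K η ^ 2 ≤ 8 * (a / (j + 1) ^ 2) * ta L Ω (f j * c) * ‖η‖ ^ 2)
    {σ : ℝ} (hσ : ∀ J, ∑ j ∈ Ico j0 J, a / (j + 1) ^ 2 ≤ σ)
    {x : A} (h1 : f j0 * x = x) (h2 : x * Q = 0) :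
    dm L Ω K x ^ 2 ≤ 512 * σ * C ^ 4 * ‖jj L Ω x‖ ^ 2 := by
  have C0 := ct.C0
  have a0 := sc.a0
  have σ0 : 0 ≤ σ := by simpa using hσ 0
  obtain ⟨F, hF⟩ := exists_spec (mul_star_self_nonneg x)
  have := ((tendsto_one_div_add_atTop_nhds_zero_nat (𝕜 := ℝ)).mul_const
    (512 * σ * C ^ 3 * ‖Ω‖ ^ 2 + 64 * a * ‖x‖ ^ 2 * ‖Ω‖ ^ 2)).const_add
      (512 * σ * C ^ 4 * ‖jj L Ω x‖ ^ 2)
  rw [zero_mul, add_zero] at this
  refine ge_of_tendsto' this fun n => ?_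
  have hδ : 0 < 1 / (n + 1 : ℝ) := by positivity
  have hδ' : a / ((j0 + n : ℕ) + 1) ^ 2 ≤ 1 / (n + 1) * a := by
    rw [one_div_mul_eq_div]
    refine div_le_div_of_nonneg_left a0.le (by positivity) ?_
    push_cast
    nlinarith [(by positivity : (0 : ℝ) ≤ j0), (by positivity : (0 : ℝ) ≤ n)]
  generalize 1 / (n + 1 : ℝ) = δ at hδ hδ'
  obtain ⟨n0, hn⟩ := exists_nat_ge (‖x * star x‖ / δ)
  choose c c1 c2 c3 using fun p : ℕ × ℕ => compare (hF.pj (p.1 * δ)) (sc.pj p.2)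
  obtain ⟨κ, _, d, hd, hd'⟩ := exists_atoms (range n0 ×ˢ range (j0 + n + 1)) c c1
  refine (h.dm_part hd x).trans ((sum_le_sum fun k _ => sc.atom h ct hQ (hσ (j0 + n))
    le_self_add hδ.le h1 h2 hF ((div_le_iff₀ hδ).1 hn) (hd.cp k) fun m hm i hi => ?_).trans ?_)
  · refine (hd' (m, i) (by simp [hm, Nat.lt_succ_of_le hi]) k).imp (fun e => ?_) fun e => ?_
    · have := (c2 (m, i)).cut (hd.cp k)
      rwa [mul_assoc, ← (hd.cp k).2, e] at this
    · have := (c3 (m, i)).cut (hd.cp k)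
      rwa [mul_assoc, ← (hd.cp k).2, mul_sub, e, mul_one, sub_zero] at this
  have e := hd.ta (L := L) (Ω := Ω) 1
  simp only [one_mul, ta_one] at e
  simp only [sum_add_distrib, ← mul_sum, hd.ta, e]
  have b1 := ct.tr' x
  have b2 := ta_mono (L := L) (Ω := Ω) (pj_le_one (sc.pj (j0 + n)))
  rw [ta_sq] at b1
  rw [ta_one] at b2
  have b3 := mul_le_mul hδ' b2 (ta_pj0 (sc.pj _)) (by positivity)
  nlinarith [mul_le_mul_of_nonneg_left b1 (show 0 ≤ σ * C ^ 3 by positivity),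
    mul_le_mul_of_nonneg_left b3 (sq_nonneg ‖x‖)]

end Vale.Agent.P082
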