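import Vale.Agent.P082.Prism
import Vale.Agent.P082.Defs

/-! From lists to tuples. -/

namespace Vale.Agent.P082

open Finset

theorem DD_ofFn {A : Type*} [Ring A] {k : ℕ} (F : List A → A) (a : Fin (k + 1) → A) :
    DD (List.ofFn a) F = ∑ j : Fin k, (-1 : ℤ) ^ (j.val + 1) •
      F (List.ofFn (Fin.contractNth j.castSucc (· * ·) a))
      + (-1 : ℤ) ^ (k + 1) • (F (List.ofFn fun i : Fin k => a i.castSucc) * a (Fin.last k)) := by
  induction k generalizing F with
  | zero => simp [DD_cons, DD_nil, sh_nil]
  | succ k ih =>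
    have e1 : List.ofFn (Fin.contractNth (Fin.castSucc 0) (· * ·) a)
        = a 0 * a (Fin.succ 0) :: List.ofFn fun i : Fin k => a i.succ.succ := by
      rw [List.ofFn_succ]
      simp [Fin.contractNth]
    have e2 : ∀ j : Fin k, List.ofFn (Fin.contractNth j.succ.castSucc (· * ·) a)
        = a 0 :: List.ofFn (Fin.contractNth j.castSucc (· * ·) fun i => a i.succ) := fun j => by
      rw [List.ofFn_succ]
      simp only [Fin.contractNth, Fin.succ_castSucc, Fin.val_castSucc, Fin.val_succ, Fin.val_zero,
        Nat.zero_lt_succ, if_true, Fin.castSucc_zero, Nat.add_lt_add_iff_right, Nat.add_left_inj]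
      rfl
    rw [List.ofFn_succ, DD_cons, ih, Fin.sum_univ_succ, e1, List.ofFn_succ (f := fun i => a _),
      sh_cons, List.ofFn_succ (f := fun i : Fin (k + 1) => a i.castSucc)]
    simp only [e2, cs_apply, Fin.val_succ, pow_succ (-1 : ℤ) (_ + 1), mul_neg_one, neg_smul,
      sum_neg_distrib, Fin.succ_castSucc, Fin.succ_last, Fin.castSucc_zero]
    simp
    abel

theorem dd_ofFn {A : Type*} [Ring A] {k : ℕ} (F : List A → A) (a : Fin (k + 1) → A) :
    dd F (List.ofFn a) = hochD (fun b => F (List.ofFn b)) a := by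
  rw [hochD, add_assoc, ← DD_ofFn, List.ofFn_succ, dd]

variable {A : Type*} [CStarAlgebra A]

theorem pn_ofFn {k : ℕ} (w : ℝ) (a : Fin k → A) : pn w (List.ofFn a) = w ^ k * ∏ i, ‖a i‖ := by
  induction k with
  | zero => simp [pn]
  | succ k ih => rw [List.ofFn_succ, pn, ih, Fin.prod_univ_succ]; ring

theorem ofFn_upd {k : ℕ} [DecidableEq (Fin k)] (b : Fin k → A) (i : Fin k) (x : A) :
    List.ofFn (Function.update b i x)
      = (List.ofFn b).take i ++ x :: (List.ofFn b).drop (i + 1) := by
  have := List.set_eq_take_append_cons_drop (l := List.ofFn b) (i := i) (a := x)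
  rw [if_pos (by simp)] at this
  rw [← this]
  refine List.ext_getElem (by simp) fun n h1 h2 => ?_
  simp [List.getElem_set, Function.update_apply, Fin.ext_iff, eq_comm]

variable {H : Type*} [NormedAddCommGroup H] [InnerProductSpace ℂ H] [CompleteSpace H] [VN A H]
variable [PartialOrder A] [StarOrderedRing A]

include H in
theorem main (n : ℕ) (f : ContinuousMultilinearMap ℂ (fun _ : Fin (n + 1) => A) A)
    (hf : ∀ a, hochD f a = 0) :
    ∃ g : ContinuousMultilinearMap ℂ (fun _ : Fin n => A) A, ∀ a, f a = hochD g a := by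
  let φ : List A → A := fun l => if l.length = n + 1 then f fun i => l.getD i 0 else 0
  have e1 : ∀ b : Fin (n + 1) → A, φ (List.ofFn b) = f b := fun b => by
    simp only [φ, List.length_ofFn, if_true]
    congr 1
    ext i
    simp [-List.ofFn_succ, i.is_le]
  obtain ⟨g, C, w, g1, g2, g3⟩ := coh (φ := φ) (C := ‖f‖) (w := 1) (fun l l' => by
    by_cases h : l.length + l'.length = n
    · have : ∀ x, φ (l ++ x :: l') = f (Function.update (fun i => (l ++ 0 :: l').getD i 0)
          ⟨l.length, by omega⟩ x) := fun x => by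
        simp only [φ]
        rw [if_pos (by simp; omega)]
        congr 1
        ext i
        rw [Function.update_apply]
        split_ifs with e
        · simp [e]
        · have : (i : ℕ) ≠ l.length := fun e' => e (Fin.ext e')
          simp only [List.getD_eq_getElem?_getD, List.getElem?_append, List.getElem?_cons]
          split_ifs <;> first | rfl | omega
      simp only [this]
      exact ⟨fun x y => f.map_update_add _ _ x y, fun c x => f.map_update_smul _ _ c x⟩
    · have : ∀ x, φ (l ++ x :: l') = 0 := fun x => if_neg (by simp; omega)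
      simp only [this]
      exact ⟨by simp, by simp⟩) (fun y l => by
    obtain ⟨k, a, e⟩ : ∃ (k : ℕ) (a : Fin (k + 1) → A), y :: l = List.ofFn a :=
      ⟨l.length, (y :: l).get, (List.ofFn_get _).symm⟩
    rw [e, dd_ofFn]
    by_cases h : k = n + 1
    · subst h
      simpa only [e1] using hf a
    · simp [φ, h, hochD]) ⟨norm_nonneg _, le_rfl, fun l => by
    by_cases h : l.length = n + 1
    · obtain ⟨b, rfl⟩ : ∃ b : Fin (n + 1) → A, l = List.ofFn b :=
        ⟨fun i => l.get (i.cast h.symm), List.ext_getElem (by simp [h]) fun _ _ _ => by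
          simp [-List.ofFn_succ]⟩
      rw [e1, pn_ofFn, one_pow, one_mul]
      exact f.le_opNorm b
    · simpa [φ, h] using mul_nonneg (norm_nonneg f) (pn_nn zero_le_one l)⟩
  refine ⟨MultilinearMap.mkContinuous ⟨fun b => g (List.ofFn b), fun b i x y => ?_,
    fun b i c x => ?_⟩ (C * w ^ n) fun b => ?_, fun a => ?_⟩
  · simp only [ofFn_upd]; exact (g1 _ _).map_add x y
  · simp only [ofFn_upd]; exact (g1 _ _).map_smul c x
  · rw [mul_assoc, ← pn_ofFn]; exact g2.2.2 _
  · rw [← e1, List.ofFn_succ, g3, ← List.ofFn_succ, dd_ofFn]; rfl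

theorem main_vn {H : Type*} [NormedAddCommGroup H] [InnerProductSpace ℂ H] [CompleteSpace H]
    (M : VonNeumannAlgebra H) (n : ℕ)
    (f : ContinuousMultilinearMap ℂ (fun _ : Fin (n + 1) => M.toStarSubalgebra) M.toStarSubalgebra)
    (hf : ∀ a, hochD f a = 0) :
    ∃ g : ContinuousMultilinearMap ℂ (fun _ : Fin n => M.toStarSubalgebra) M.toStarSubalgebra,
      ∀ a, f a = hochD g a := main n f hf

end Vale.Agent.P082
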