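import Vale.Agent.P082.Alg

/-! The prism homotopy, and reduction to the completely bounded case. -/

namespace Vale.Agent.P082

open scoped InnerProductSpace
open Finset

variable {A : Type*} [CStarAlgebra A]

section

variable {ι : Type} [Fintype ι] (a b : ι → A)

/-- Insertion of a family between all variables. -/
noncomputable def RR : List A → A → (List A → A) →ₗ[A] A
  | [], c => LinearMap.proj [] ∘ₗ sh c
  | x :: l, c => ∑ i, RR l (b i) ∘ₗ cs (c * x * a i)

/-- The prism operator. -/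
noncomputable def SS : List A → A → (List A → A) →ₗ[A] A
  | [], c => LinearMap.proj [c]
  | x :: l, c => LinearMap.proj (c :: x :: l) - ∑ i, SS l (b i) ∘ₗ cs (c * x * a i)

/-- The compressed cochain. -/
noncomputable def PP (F : List A → A) (l : List A) : A := ∑ i, a i * RR a b l (b i) F

/-- The homotopy. -/
noncomputable def HH (F : List A → A) (l : List A) : A := ∑ i, a i * SS a b l (b i) F

variable {a b} {F : List A → A}

theorem RR_nil (c : A) : RR a b [] c F = F [] * c := rfl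

theorem RR_cons (x c : A) (l : List A) :
    RR a b (x :: l) c F = ∑ i, RR a b l (b i) (cs (c * x * a i) F) := by simp [RR]

theorem SS_nil (c : A) : SS a b [] c F = F [c] := rfl

theorem SS_cons (x c : A) (l : List A) : SS a b (x :: l) c F
    = F (c :: x :: l) - ∑ i, SS a b l (b i) (cs (c * x * a i) F) := by simp [SS]

theorem Lin.RRc (h : Lin F) (l : List A) : IsLinearMap ℂ fun c => RR a b l c F := by
  cases l with
  | nil => exact lin_lmul lin_id _
  | cons x l =>
    simp only [RR_cons]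
    exact lin_sum _ fun i => lin_comp (h.map _) (lin_rmul (lin_rmul lin_id x) _)

theorem Lin.SSc (h : Lin F) (l : List A) : IsLinearMap ℂ fun c => SS a b l c F := by
  cases l with
  | nil => exact h [] []
  | cons x l =>
    simp only [SS_cons]
    exact lin_sub (h [] _) (lin_sum _ fun i =>
      lin_comp (h.map _) (lin_rmul (lin_rmul lin_id x) _))

theorem Lin.SS (h : Lin F) (c : A) : Lin fun l => SS a b l c F := fun l => by
  induction l generalizing F c with
  | nil =>
    intro l'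
    simp only [List.nil_append, SS_cons]
    exact lin_sub (h [c] _) (lin_sum _ fun i =>
      lin_comp (h.map _) (lin_rmul (lin_lmul lin_id c) _))
  | cons x l ih =>
    intro l'
    simp only [List.cons_append, SS_cons]
    exact lin_sub (h (c :: x :: l) _) (lin_sum _ fun i => ih (h.cs _) _ l')

theorem Lin.HH (h : Lin F) : Lin (HH a b F) := fun l l' =>
  lin_sum _ fun i => lin_lmul (h.SS _ l l') _

theorem SS_sh (y c : A) (l : List A) : SS a b l c (sh y F) = SS a b l (y * c) F := by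
  cases l with
  | nil => rfl
  | cons x l => simp only [SS_cons, sh_cons, mul_assoc]; rfl

theorem SS_DD (e : ∑ i, a i * b i = 1) (h : Lin F) (l : List A) (c : A) :
    SS a b l c (fun m => DD m F) + DD l (fun m => SS a b m c F) = -RR a b l c F := by
  induction l generalizing F c with
  | nil => simp [SS_nil, DD_nil, DD_cons, RR_nil, sh_nil]
  | cons x l ih =>
    have e1 : cs x (fun m => SS a b m c F)
        = cs x (cs c F) - ∑ i, fun m => SS a b m (b i) (cs (c * x * a i) F) :=
      funext fun m => by simp [cs_apply, SS_cons]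
    have e2 : ∑ i, SS a b l (c * x * a i * b i) F = SS a b l (c * x) F := by
      rw [← IsLinearMap.sum (h.SSc l)]
      simp only [mul_assoc, ← mul_sum, e, mul_one]
    have e3 : sh x (fun m => SS a b m c F) l
        = sh x (cs c F) l + SS a b l (c * x) F - F (c * x :: l) := by
      cases l with
      | nil => simp [sh_nil, SS_nil, cs_apply]
      | cons w m => simp only [sh_cons, SS_cons, cs_apply, mul_assoc]; abel
    simp only [SS_cons, DD_cons, RR_cons, cs_DD, map_sub, map_neg, map_sum, SS_sh, e1, e3,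
      sum_sub_distrib, sum_neg_distrib, e2, sh_cons, fun i => eq_sub_of_add_eq
        (ih (h.cs (c * x * a i)) (b i))]
    abel

theorem homotopy (e : ∑ i, a i * b i = 1) (h : Lin F) (k : Co F) (x : A) (l : List A) :
    F (x :: l) - dd (HH a b F) (x :: l) = PP a b F (x :: l) := by
  have k1 : ∀ y m, DD (y :: m) F = -(y * F m) := fun y m => eq_neg_of_add_eq_zero_right (k y m)
  have k2 : ∀ y, cs y (fun m => DD m F) = -(y • F) := fun y => funext fun m => k1 y m
  have k3 : HH a b F = ∑ i, a i • fun m => SS a b m (b i) F := funext fun m => by simp [HH]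
  have k4 : ∀ c, SS a b (x :: l) c (fun m => DD m F) = c * (x * HH a b F l - F (x :: l)) :=
    fun c => by
      simp only [SS_cons, k1, k2, map_neg, map_smul, smul_eq_mul, HH, mul_sub, mul_sum, mul_assoc,
        sum_neg_distrib]
      abel
  have k5 := fun i => eq_sub_of_add_eq' (SS_DD e h (x :: l) (b i))
  rw [dd, PP]
  nth_rw 2 [k3]
  simp only [map_sum, map_smul, smul_eq_mul, k5, k4, mul_sub (a _), ← mul_assoc (a _) (b _),
    sum_sub_distrib, ← sum_mul, e, mul_neg, sum_neg_distrib, one_mul]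
  abel

variable {C w : ℝ}

theorem BdC.RR (σ : ∑ i, ‖a i‖ * ‖b i‖ ≤ 2) (h : BdC F C w) (l : List A) (c : A) :
    ‖RR a b l c F‖ ≤ C * ‖c‖ * pn (2 * w) l := by
  induction l generalizing F C c with
  | nil => simpa [pn, RR_nil] using (norm_mul_le _ c).trans (mul_le_mul_of_nonneg_right (h.2.2 [])
      (norm_nonneg _))
  | cons x l ih =>
    have C0 := h.1
    have w0 := h.w0
    have p0 := pn_nn (show 0 ≤ 2 * w by positivity) l
    rw [RR_cons, pn]
    refine (norm_sum_le _ _).trans (le_trans (sum_le_sum fun i _ => (ih (h.cs _) _).trans (?_ : _ ≤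
      C * w * ‖c‖ * ‖x‖ * pn (2 * w) l * (‖a i‖ * ‖b i‖))) ?_)
    · refine le_of_le_of_eq (b := C * (w * (‖c‖ * ‖x‖ * ‖a i‖)) * ‖b i‖ * pn (2 * w) l) ?_ (by ring)
      gcongr
      exact norm_mul₃_le
    · rw [← mul_sum]
      exact (mul_le_mul_of_nonneg_left σ (by positivity)).trans_eq (by ring)

theorem BdC.SS (σ : ∑ i, ‖a i‖ * ‖b i‖ ≤ 2) (h : BdC F C w) (l : List A) (c : A) :
    ‖SS a b l c F‖ ≤ C * w * ‖c‖ * pn (3 * w) l := by
  induction l generalizing F C c with
  | nil => simpa [pn, mul_assoc, SS_nil] using h.2.2 [c]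
  | cons x l ih =>
    have C0 := h.1
    have w0 := h.w0
    have p0 := pn_nn (show 0 ≤ 3 * w by positivity) l
    have k1 := h.2.2 (c :: x :: l)
    have k2 := mul_le_mul_of_nonneg_left (pn_mono w0 (show w ≤ 3 * w by linarith) l)
      (show 0 ≤ C * w * ‖c‖ * w * ‖x‖ by positivity)
    have k3 : ‖∑ i, P082.SS a b l (b i) (P082.cs (c * x * a i) F)‖
        ≤ C * w * ‖c‖ * w * ‖x‖ * pn (3 * w) l * 2 := by
      refine (norm_sum_le _ _).trans (le_trans (sum_le_sum fun i _ => (ih (h.cs _) _).trans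
        (?_ : _ ≤ C * w * ‖c‖ * w * ‖x‖ * pn (3 * w) l * (‖a i‖ * ‖b i‖))) ?_)
      · refine le_of_le_of_eq
          (b := C * (w * (‖c‖ * ‖x‖ * ‖a i‖)) * w * ‖b i‖ * pn (3 * w) l) ?_ (by ring)
        gcongr
        exact norm_mul₃_le
      · rw [← mul_sum]
        exact mul_le_mul_of_nonneg_left σ (by positivity)
    rw [SS_cons, pn]
    rw [pn, pn] at k1
    linarith [norm_sub_le (F (c :: x :: l))
      (∑ i, P082.SS a b l (b i) (P082.cs (c * x * a i) F))]

theorem sum_bd (σ : ∑ i, ‖a i‖ * ‖b i‖ ≤ 2) {f : ι → A} {r : ℝ} (hr : 0 ≤ r)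
    (h : ∀ i, ‖f i‖ ≤ r * ‖b i‖) : ‖∑ i, a i * f i‖ ≤ 2 * r := by
  refine (norm_sum_le _ _).trans (le_trans (sum_le_sum fun i _ => (norm_mul_le _ _).trans
    ((mul_le_mul_of_nonneg_left (h i) (norm_nonneg _)).trans_eq (mul_left_comm _ _ _))) ?_)
  rw [← mul_sum, mul_comm 2]
  exact mul_le_mul_of_nonneg_left σ hr

end

section

variable {H : Type*} [NormedAddCommGroup H] [InnerProductSpace ℂ H] [CompleteSpace H] [VN A H]
variable [PartialOrder A] [StarOrderedRing A]
variable {ι : Type} [Fintype ι] [DecidableEq ι] {v : ι → A} {e z : A}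

theorem MU.row (mu : MU v e z) (ζ : H) : ∑ i, ‖ρ (star (v i)) ζ‖ ^ 2 ≤ ‖ζ‖ ^ 2 := by
  simp only [← om_sq, star_star, ← om_sum, mu.sum]
  rw [← om_one (A := A)]
  exact re_mono (pj_le_one mu.zpj) ζ

theorem MU.col' (mu : MU v e z) (h : ι → H) : ‖∑ i, ρ (v i) (h i)‖ ^ 2 ≤ ∑ i, ‖h i‖ ^ 2 := by
  obtain ⟨ξ, e⟩ : ∃ ξ, ξ = ∑ i, ρ (v i) (h i) := ⟨_, rfl⟩
  have k : ‖ξ‖ ^ 2 ≤ ∑ i, (‖ρ (star (v i)) ξ‖ ^ 2 + ‖h i‖ ^ 2) / 2 := by
    rw [← inner_self_eq_norm_sq (𝕜 := ℂ), RCLike.re_to_complex]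
    nth_rw 2 [e]
    rw [inner_sum, Complex.re_sum]
    refine sum_le_sum fun i _ => ?_
    have := re_inner_le_norm (𝕜 := ℂ) (ρ (star (v i)) ξ) (h i)
    rw [RCLike.re_to_complex, inner_rho'] at this
    nlinarith [sq_nonneg (‖ρ (star (v i)) ξ‖ - ‖h i‖)]
  rw [← sum_div, sum_add_distrib] at k
  rw [← e]
  linarith [mu.row ξ]

include H in
theorem MU.am_le (mu : MU v e z) (y : A) : ‖am v y‖ ≤ ‖y‖ := by
  refine (sq_le_sq₀ (norm_nonneg _) (norm_nonneg _)).1 (rho_sq_le (sq_nonneg _) fun ζ => ?_)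
  simp only [am, map_sum, ContinuousLinearMap.sum_apply, mul_assoc, rho_mul]
  refine (mu.col' _).trans ((sum_le_sum fun i _ => rho_sq y _).trans ?_)
  rw [← mul_sum]
  exact mul_le_mul_of_nonneg_left (mu.row ζ) (sq_nonneg _)

end

theorem MU.emb {ι κ : Type} [Fintype ι] [DecidableEq ι] [Fintype κ] [DecidableEq κ] {v : ι → A}
    {e z : A} (mu : MU v e z) (f : κ ↪ ι) : 
    MU (fun k => v (f k)) e (∑ k, v (f k) * star (v (f k))) :=
  ⟨mu.pj, fun i j => by simp [mu.orth], rfl⟩

theorem MU.avg' {ι : Type} [Fintype ι] [DecidableEq ι] [Nonempty ι] {v : ι → A} {e z : A}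
    (h : MU v e z) : ∃ (Γ : Type) (_ : Fintype Γ) (a b : Γ → A), ∑ i, ‖a i‖ * ‖b i‖ ≤ 2 ∧
      ∀ f : A → A → A, (∀ y, IsLinearMap ℂ fun x => f x y) → (∀ x, IsLinearMap ℂ (f x)) →
      ∑ i, f (a i) (b i) = (Fintype.card ι : ℝ)⁻¹ •
        ∑ i, ∑ j, f (v i * star (v j)) (v j * star (v i)) + f (1 - z) (1 - z) := by
  obtain ⟨Γ, _, _, g, h1, h2⟩ := h.avg
  refine ⟨Γ, inferInstance, fun i => (Fintype.card Γ : ℝ)⁻¹ • star (g i), g, ?_, fun f k1 k2 => ?_⟩
  · have : ∀ i, ‖g i‖ ≤ 1 := fun i => PI.norm_le (by rw [PI, (h1 i).1, mul_one])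
    refine (sum_le_card_nsmul _ _ (Fintype.card Γ : ℝ)⁻¹ fun i _ => ?_).trans (by simp)
    rw [norm_smul, norm_star, Real.norm_of_nonneg (by positivity), mul_assoc]
    exact mul_le_of_le_one_right (by positivity) (mul_le_one₀ (this i) (norm_nonneg _) (this i))
  · simpa only [LinearMap.mk₂_apply, IsLinearMap.rsmul (k1 _)] using h2 (LinearMap.mk₂ ℝ f
      (fun x x' y => (k1 y).map_add x x') (fun c x y => IsLinearMap.rsmul (k1 y) c x)
      (fun x => (k2 x).map_add) fun c x => IsLinearMap.rsmul (k2 x) c)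

section

variable {ι : Type} [Fintype ι] [DecidableEq ι] (s : ι → A) (c : A)

/-- The left family. -/
noncomputable def fa (o : Option ι) : A :=
  o.elim (1 - c) fun j => (Fintype.card ι : ℝ)⁻¹ • star (s j)

/-- The right family. -/
def fb (o : Option ι) : A := o.elim (1 - c) s

variable {s c} {z : A}

theorem fa_fb [Nonempty ι] (mu : MU s c z) : ∑ i, fa s c i * fb s c i = 1 := by
  simp [fa, fb, mu.orth, pj_sq mu.pj.one_sub, ← Nat.cast_smul_eq_nsmul ℝ, smul_smul]

theorem fa_bd [Nonempty ι] (mu : MU s c z) : ∑ i, ‖fa s c i‖ * ‖fb s c i‖ ≤ 2 := by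
  have : ∀ i, ‖s i‖ ≤ 1 := fun i => (pi_of_ini (by simpa [mu.orth] using mu.pj)).norm_le
  rw [Fintype.sum_option, ← one_add_one_eq_two]
  refine add_le_add (mul_le_one₀ mu.pj.one_sub.norm_le (norm_nonneg _) mu.pj.one_sub.norm_le)
    ((sum_le_card_nsmul _ _ (Fintype.card ι : ℝ)⁻¹ fun i _ => ?_).trans (by simp))
  simp only [fa, fb, Option.elim]
  rw [norm_smul, norm_star, Real.norm_of_nonneg (by positivity), mul_assoc]
  exact mul_le_of_le_one_right (by positivity) (mul_le_one₀ (this i) (norm_nonneg _) (this i))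

theorem RR_one (hc : CP c) {F : List A → A} (h : Lin F) {d : A} (hd : d * c = d) (y : A)
    (l : List A) : RR (fa s c) (fb s c) (y :: l) d F = (Fintype.card ι : ℝ)⁻¹ •
      ∑ j, RR (fa s c) (fb s c) l (s j) (cs (d * y * star (s j)) F) := by
  rw [RR_cons, Fintype.sum_option, smul_sum]
  simp only [fa, fb, Option.elim, mul_smul_comm]
  rw [mul_assoc, ← hc.one_sub.2, ← mul_assoc, osub_r.2 hd, zero_mul, (h.map _).map_zero, zero_add]
  exact sum_congr rfl fun j _ => IsLinearMap.rsmul (h.map _) _ _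

variable {Γ : Type} [Fintype Γ] {a b : Γ → A}

theorem RR_cmp (mu : MU s c z) (hc : CP c) (hs : ∀ j, c * s j = s j)
    (av : ∀ f : A → A → A, (∀ y, IsLinearMap ℂ fun x => f x y) → (∀ x, IsLinearMap ℂ (f x)) →
      ∑ i, f (a i) (b i) = (Fintype.card ι : ℝ)⁻¹ •
        ∑ i, ∑ j, f (s i * star (s j)) (s j * star (s i)) + f (1 - z) (1 - z))
    (l : List A) {F : List A → A} (h : Lin F) (d X : A) (q : ι) :
    RR a b (X :: l.map (am s)) d F * s q = (Fintype.card ι : ℝ)⁻¹ •
      ∑ j, RR (fa s c) (fb s c) l (s j) (cs (d * X * s q * star (s j)) F) := by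
  have key : ∀ l : List A, (∀ {F : List A → A}, Lin F → ∀ d,
      RR a b (l.map (am s)) d F * s q = RR (fa s c) (fb s c) l (d * s q) F) →
      ∀ {F : List A → A}, Lin F → ∀ d X, RR a b (X :: l.map (am s)) d F * s q
        = (Fintype.card ι : ℝ)⁻¹ •
          ∑ j, RR (fa s c) (fb s c) l (s j) (cs (d * X * s q * star (s j)) F) :=
    fun l ih F h d X => by
      rw [RR_cons, sum_mul]
      simp only [ih (h.cs _)]
      rw [av (fun x y => RR (fa s c) (fb s c) l (y * s q) (cs (d * X * x) F))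
        (fun y => lin_comp (h.map _) (lin_lmul lin_id _))
        (fun x => lin_comp ((h.cs _).RRc l) (lin_rmul lin_id _)), osub_l.2 (mu.zv q),
        ((h.cs _).RRc l).map_zero, add_zero, sum_eq_single q (fun i _ e => sum_eq_zero fun j _ => by
          rw [mul_assoc, mu.orth, if_neg e, mul_zero, ((h.cs _).RRc l).map_zero]) (by simp)]
      simp only [mul_assoc, mu.orth, if_true, mu.ve]
  refine key l ?_ h d X
  induction l with
  | nil => exact fun _ d => mul_assoc _ _ _
  | cons y l ih =>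
    intro F h d
    rw [List.map_cons, key l ih h, RR_one hc h (by rw [mul_assoc, ← hc.2, hs])]
    simp [am, sum_mul, mul_assoc, mu.orth', mu.ev]

theorem PP_cmp (mu : MU s c z) (hc : CP c) (hs : ∀ j, c * s j = s j)
    (av : ∀ f : A → A → A, (∀ y, IsLinearMap ℂ fun x => f x y) → (∀ x, IsLinearMap ℂ (f x)) →
      ∑ i, f (a i) (b i) = (Fintype.card ι : ℝ)⁻¹ •
        ∑ i, ∑ j, f (s i * star (s j)) (s j * star (s i)) + f (1 - z) (1 - z))
    (l : List A) {F : List A → A} (h : Lin F) {X y : A} {p q : ι}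
    (e : star (s p) * X * s q = c * y * c) :
    star (s p) * PP a b F (X :: l.map (am s)) * s q = c * PP (fa s c) (fb s c) F (y :: l) := by
  have := av (fun x w => star (s p) * x * RR a b (X :: l.map (am s)) w F * s q)
    (fun _ => lin_rmul (lin_rmul (lin_lmul lin_id _) _) _)
    fun _ => lin_rmul (lin_lmul (h.RRc _) _) _
  rw [osub_r.2 (mu.vz p), zero_mul, zero_mul, add_zero, sum_eq_single p (fun i _ e => by
    simp [← mul_assoc, mu.orth, e.symm]) (by simp)] at this
  rw [PP, mul_sum, sum_mul, PP, Fintype.sum_option, mul_add, mul_sum]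
  simp only [← mul_assoc, this, fa, fb, Option.elim, hc.1.mul_one_sub_self, zero_mul, zero_add,
    mul_smul_comm, smul_mul_assoc, mu.orth, if_true, mu.ev, smul_sum]
  refine sum_congr rfl fun i _ => ?_
  rw [mul_assoc, RR_cmp mu hc hs av l h, RR_one hc h (mu.ve i)]
  have : ∀ j, s i * star (s p) * X * s q * star (s j) = s i * y * star (s j) := fun j => by
    rw [mul_assoc (s i), mul_assoc (s i), e, ← mul_assoc, ← mul_assoc, mu.ve, mul_assoc, mu.ev]
  simp only [this]

variable {H : Type*} [NormedAddCommGroup H] [InnerProductSpace ℂ H] [CompleteSpace H] [VN A H]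
variable [PartialOrder A] [StarOrderedRing A]

theorem PP_cb [Nonempty ι] (mu : MU s c z) (hc : CP c) (hs : ∀ j, c * s j = s j) {F : List A → A}
    (h : Lin F) {C w : ℝ} (hb : BdC F C w) (l : List A) {n : ℕ} (hn : n ≤ Fintype.card ι) :
    CBn (fun x => c * PP (fa s c) (fb s c) F (x :: l)) ((4 * C * w * pn (2 * w) l) ^ 2) n := by
  classical
  intro κ κ' _ _ h1 h2 y hy ξ
  obtain ⟨Γ, _, a, b, σ, av⟩ := mu.avg'
  obtain ⟨f⟩ := Function.Embedding.nonempty_of_card_le (h1.trans hn)
  obtain ⟨g⟩ := Function.Embedding.nonempty_of_card_le (h2.trans hn)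
  have C0 := hb.1
  have w0 := hb.w0
  obtain ⟨X, hX⟩ : ∃ X, X = ∑ i, ∑ j, s (f i) * y i j * star (s (g j)) := ⟨_, rfl⟩
  have X1 : ‖X‖ ^ 2 ≤ 1 := rho_sq_le zero_le_one fun ζ => by
    simp only [hX, mul_assoc, ← mul_sum]
    rw [map_sum, ContinuousLinearMap.sum_apply]
    simp only [rho_mul (s _)]
    simp only [map_sum (ρ : A →⋆ₐ[ℂ] _), ContinuousLinearMap.sum_apply, rho_mul]
    exact ((mu.emb f).col' _).trans ((hy _).trans
      (mul_le_mul_of_nonneg_left ((mu.emb g).row ζ) zero_le_one))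
  have X2 : ∀ i j, star (s (f i)) * X * s (g j) = c * y i j * c := fun i j => by
    simp [hX, mul_sum, sum_mul, mul_assoc, mu.orth', mu.orth]
  have p1 : pn (2 * w) (l.map (am s)) ≤ pn (2 * w) l := by
    induction l with
    | nil => rfl
    | cons x l ih =>
      have := pn_nn (show 0 ≤ 2 * w by positivity) (l.map (am s))
      rw [List.map_cons, pn, pn]
      gcongr
      exact mu.am_le x
  have p2 : ‖PP a b F (X :: l.map (am s))‖ ≤ 4 * C * w * pn (2 * w) l := by
    have p0 := pn_nn (show 0 ≤ 2 * w by positivity) (l.map (am s))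
    refine (sum_bd σ (r := C * (2 * w * 1 * pn (2 * w) l)) (by have := p0.trans p1; positivity)
      fun i => (hb.RR σ _ _).trans ?_).trans_eq (by ring)
    rw [mul_right_comm, pn]
    gcongr
    exact (sq_le_one_iff₀ (norm_nonneg _)).1 X1
  simp only [← PP_cmp mu hc hs av l h (X2 _ _), rho_mul, ← map_sum]
  refine ((mu.emb f).row _).trans ((rho_sq _ _).trans ?_)
  exact mul_le_mul (pow_le_pow_left₀ (norm_nonneg _) p2 2) ((mu.emb g).col' ξ) (sq_nonneg _)
    (sq_nonneg _)

end

theorem PInf.seq {c : A} (h : PInf c) (hc : CP c) : ∃ s : ℕ → A, (∀ j, c * s j = s j) ∧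
    ∀ i j, star (s i) * s j = if i = j then c else 0 := by
  obtain ⟨s, t, h1, h2, h3, h4, -⟩ := h
  have k : ∀ j, c * (t ^ j * s) = t ^ j * s := fun j => by
    rw [← mul_assoc, hc.2, mul_assoc, h4]
  have k0 : ∀ j, star s * (t ^ (j + 1) * s) = 0 := fun j => by
    rw [pow_succ', mul_assoc, ← mul_assoc, h3, zero_mul]
  refine ⟨fun j => t ^ j * s, k, fun i => ?_⟩
  induction i with
  | zero =>
    rintro (_ | j)
    · simpa using h1
    · simpa using k0 j
  | succ i ih =>
    rintro (_ | j)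
    · simpa using st_zero (k0 i)
    · beta_reduce at ih ⊢
      rw [pow_succ', pow_succ', mul_assoc, mul_assoc, star_mul, mul_assoc, ← mul_assoc (star t), h2,
        k, ih]
      simp

variable {H : Type*} [NormedAddCommGroup H] [InnerProductSpace ℂ H] [CompleteSpace H] [VN A H]
variable [PartialOrder A] [StarOrderedRing A]

theorem closed_cbn {α : Type*} [TopologicalSpace α] {f : α → A → A} (h : ∀ x, WC fun t => f t x)
    (k : ℝ) (n : ℕ) : IsClosed {t | CBn (f t) k n} :=
  closed_all fun _ => closed_all fun _ => closed_all fun _ => closed_all fun _ =>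
    closed_all fun _ => closed_all fun _ => closed_all fun _ => closed_all fun _ =>
      closed_all fun ξ => closed_sq _ (fun _ η => by
        simp only [inner_sum]
        exact continuous_finset_sum _ fun j _ => (h _).inner η (ξ j)) continuous_const

include H in
theorem coh {φ : List A → A} (h1 : Lin φ) (h2 : Co φ) {C w : ℝ} (h3 : BdC φ C w) :
    ∃ g C' w', Lin g ∧ BdC g C' w' ∧ ∀ x l, φ (x :: l) = dd g (x :: l) := by
  obtain ⟨c, hc, c1, c2⟩ := decomp (A := A)
  obtain ⟨s, s1, s2⟩ := c1.seq hc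
  have C0 := h3.1
  have w0 := h3.w0
  obtain ⟨g, ⟨g1, g2⟩, g3⟩ := fip (K := {g : Fn (List A) A | ∀ l, ‖g l‖ ≤ 2 * (C * w) * pn (3 * w) l}
      ∩ {g | Lin g}) ((compact_ball _).inter_right (closed_all fun l => closed_all fun l' =>
      closed_lin fun x => WC.ev _))
    (fun n => {g | ∀ l, CBn (fun x => c * (φ (x :: l) - dd g (x :: l)))
      ((4 * C * w * pn (2 * w) l) ^ 2) n})
    (fun n => closed_all fun l => closed_cbn (fun x => ((WC.const _).sub (((WC.ev l).lmul x).add
      (wc_DD _ WC.ev))).lmul c) _ _) fun t => by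
      have mu : MU (fun i : Fin (t.sup id + 1) => s i) c _ :=
        ⟨hc.1, fun i j => by simp [s2, Fin.ext_iff], rfl⟩
      refine ⟨HH (fa (fun i : Fin (t.sup id + 1) => s i) c) (fb (fun i => s i) c) φ,
        ⟨fun l => (sum_bd (fa_bd mu) (r := C * w * pn (3 * w) l) (by
          have := pn_nn (show 0 ≤ 3 * w by positivity) l; positivity) fun i =>
          (h3.SS (fa_bd mu) l _).trans_eq (by ring)).trans_eq (by ring), h1.HH⟩, fun n hn l => ?_⟩
      simp only [homotopy (fa_fb mu) h1 h2]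
      exact PP_cb mu hc (fun _ => s1 _) h1 h3 l (by
        simpa using (le_sup (f := id) hn).trans (Nat.le_succ _))
  change List A → A at g
  have g4 : BdC g (2 * (C * w)) (3 * w) := ⟨by positivity, by linarith [h3.2.1], g1⟩
  have k1 := h1.sub g2.dd
  have k2 := h2.sub (co_dd g)
  obtain ⟨a, a1, a2, a3⟩ := cb_case (k1.smul c) (k2.cen hc.2) (C := 4 * C * w) (w := 2 * w)
    (by positivity) (by linarith [h3.2.1]) fun l n => g3 n l
  obtain ⟨b, b1, b2, b3⟩ := fin_case k1 k2 (sub_eq_add_neg φ _ ▸ h3.add g4.dd.neg) hc.one_sub c2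
  refine ⟨_, _, _, (g2.add a1).add b1, (g4.add a2).add b2, fun x l => ?_⟩
  rw [dd_add, dd_add, ← a3, ← b3]
  simp [sub_mul]

end Vale.Agent.P082
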