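import Vale.Agent.P082.VN1

/-! Spectral projections and layer cake inequalities. -/

namespace Vale.Agent.P082

open scoped InnerProductSpace
open Filter Topology Finset

variable {A : Type*} [CStarAlgebra A] [PartialOrder A] [StarOrderedRing A]

theorem pj_conj_le {p a b : A} (hp : IsStarProjection p) (h : a ≤ b) : p * a * p ≤ p * b * p :=
  conjugate_le_conjugate_of_nonneg h hp.nonneg

theorem pj_le_one {p : A} (hp : IsStarProjection p) : p ≤ 1 := sub_nonneg.1 hp.one_sub.nonneg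

theorem pj_le {p q : A} (hp : IsStarProjection p) (hq : IsStarProjection q) (h : q * p = p) :
    p ≤ q := (hp.le_iff_mul_eq_right hq).2 h

/-- A spectral resolution of a positive element. -/
structure Spec (a : A) (E : ℝ → A) : Prop where
  pj : ∀ t, IsStarProjection (E t)
  comm : ∀ t y, Commute a y → Commute a (star y) → Commute (E t) y
  lo : ∀ t, t • E t ≤ a * E t
  up : ∀ t, a * (1 - E t) ≤ t • (1 - E t)
  kill : ∀ t y, 0 ≤ t → y * a = 0 → y * E t = 0
  top : ∀ t, ‖a‖ ≤ t → E t = 0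

theorem exists_spec {H : Type*} [NormedAddCommGroup H] [InnerProductSpace ℂ H] [CompleteSpace H]
    [VN A H] {a : A} (ha : 0 ≤ a) : ∃ E, Spec a E := by
  have key : ∀ t : ℝ, ∃ E : A, IsStarProjection E ∧
      (∀ y, Commute a y → Commute a (star y) → Commute E y) ∧ t • E ≤ a * E ∧
      a * (1 - E) ≤ t • (1 - E) ∧ (∀ y, 0 ≤ t → y * a = 0 → y * E = 0) ∧ (‖a‖ ≤ t → E = 0) := by
    intro t
    have hs : IsSelfAdjoint (a - t • 1) := by
      simp [IsSelfAdjoint, ha.star_eq]
    obtain ⟨p, n, hp, hn, e, h1, h2, hc⟩ := P104.exists_parts hs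
    obtain ⟨E, E1, E2, E3⟩ := exists_ls p
    have E4 : p * E = p := by simpa [hp.star_eq] using st_l E1 E2
    have E5 := E3 n h2
    have k1 : a * E - t • E = p := by
      have := congrArg (· * E) e
      simpa [sub_mul, E4, E5] using this
    have k2 : t • (1 - E) - a * (1 - E) = n := by
      have := congrArg (· * (1 - E)) e
      simp only [sub_mul, smul_mul_assoc, one_mul, osub_r.2 E4, mul_sub n, E5, mul_one] at this
      rw [← neg_sub, this]; simp
    have k3 : ∀ y, Commute a y → (1 - E) * y * E = 0 := fun y hy => E3 _ (by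
      have := (hc y (hy.sub_left ((Commute.one_left y).smul_left t))).1
      rw [mul_assoc, ← this.eq, ← mul_assoc, osub_l.2 E2, zero_mul])
    have k4 : Commute E a := comm_of_inv E1 (k3 _ (.refl a)) (k3 _ (by rw [ha.star_eq]))
    refine ⟨E, E1, fun y h h' => comm_of_inv E1 (k3 _ h) (k3 _ h'), sub_nonneg.1 (k1 ▸ hp),
      sub_nonneg.1 (k2 ▸ hn), fun y ht hy => E3 _ (conj_zero hp ?_), fun ht => ?_⟩
    · rw [← k1, mul_sub, ← mul_assoc, hy, zero_mul, zero_sub, neg_mul, neg_nonpos, mul_smul_comm,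
        smul_mul_assoc]
      exact smul_nonneg ht (star_right_conjugate_nonneg E1.nonneg y)
    · have h3 := pj_conj_le E1 ((P104.le_norm_smul_one ha.isSelfAdjoint).trans
        (P104.smul_one_mono ht))
      rw [k4.eq, mul_assoc, pj_sq E1, mul_smul_comm, smul_mul_assoc, mul_one, pj_sq E1,
        ← sub_nonpos, k1] at h3
      simpa using E3 1 (by rw [one_mul]; exact le_antisymm h3 hp)
  choose E h1 h2 h3 h4 h5 h6 using key
  exact ⟨E, h1, h2, h3, h4, h5, h6⟩

namespace Spec

variable {a : A} {E : ℝ → A}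

theorem ca (h : Spec a E) (ha : 0 ≤ a) (t : ℝ) : Commute (E t) a :=
  h.comm t a (.refl a) (by rw [ha.star_eq])

theorem cc (h : Spec a E) (ha : 0 ≤ a) (s t : ℝ) : Commute (E s) (E t) :=
  h.comm s _ (h.ca ha t).symm (by rw [pj_st (h.pj t)]; exact (h.ca ha t).symm)

theorem lo' (h : Spec a E) {t : ℝ} {q : A} (hq : IsStarProjection q) (e : E t * q = q) :
    t • q ≤ q * a * q := by
  have := pj_conj_le hq (h.lo t)
  rwa [mul_smul_comm, smul_mul_assoc, mul_assoc, e, pj_sq hq, mul_assoc, mul_assoc, e,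
    ← mul_assoc] at this

theorem up' (h : Spec a E) {t : ℝ} {q : A} (hq : IsStarProjection q) (e : E t * q = 0) :
    q * a * q ≤ t • q := by
  have := pj_conj_le hq (h.up t)
  have e' : (1 - E t) * q = q := by rw [sub_mul, e, one_mul, sub_zero]
  rwa [mul_smul_comm, smul_mul_assoc, mul_assoc, mul_assoc, e', mul_assoc q (1 - E t), e',
    pj_sq hq, ← mul_assoc] at this

theorem mono (h : Spec a E) (ha : 0 ≤ a) {s t : ℝ} (hst : s ≤ t) : E s * E t = E t := by
  rcases hst.eq_or_lt with rfl | hst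
  · exact pj_sq (h.pj s)
  have c := (Commute.one_left _).sub_left (h.cc ha s t)
  have hq := (h.pj s).one_sub.mul (h.pj t) c
  have h1 := (h.lo' hq (t := t) (by rw [c.eq, pj_sq' (h.pj t)])).trans
    (h.up' hq (t := s) (by rw [← mul_assoc, (h.pj s).mul_one_sub_self, zero_mul]))
  rw [← sub_nonpos, ← sub_smul] at h1
  have h2 := smul_le_smul_of_nonneg_left h1 (inv_pos.2 (sub_pos.2 hst)).le
  rw [smul_smul, inv_mul_cancel₀ (sub_pos.2 hst).ne', one_smul, smul_zero] at h2
  exact osub_l.1 (le_antisymm h2 hq.nonneg)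

theorem diff (h : Spec a E) (ha : 0 ≤ a) {s t : ℝ} (hst : s ≤ t) :
    IsStarProjection (E s - E t) ∧ s • (E s - E t) ≤ a * (E s - E t) ∧
      a * (E s - E t) ≤ t • (E s - E t) ∧ (E s - E t) * a * (E s - E t) = a * (E s - E t) := by
  have hq := (h.pj t).sub_of_mul_eq_right (h.pj s) (h.mono ha hst)
  have e : (E s - E t) * a * (E s - E t) = a * (E s - E t) := by
    rw [((h.ca ha s).sub_left (h.ca ha t)).eq, mul_assoc, pj_sq hq]
  refine ⟨hq, e ▸ h.lo' hq ?_, e ▸ h.up' hq ?_, e⟩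
  · rw [mul_sub, pj_sq (h.pj s), h.mono ha hst]
  · rw [mul_sub, pj_sq (h.pj t), (h.cc ha t s).eq, h.mono ha hst, sub_self]

theorem zero (h : Spec a E) (ha : 0 ≤ a) : a * E 0 = a := by
  have h1 := h.up 0
  rw [zero_smul] at h1
  exact osub_r.1 (le_antisymm h1 (P104.mul_nonneg_of_commute ha (h.pj 0).one_sub.nonneg
    ((Commute.one_right a).sub_right (h.ca ha 0).symm)))

theorem cake_up (h : Spec a E) (ha : 0 ≤ a) {δ : ℝ} (hδ : 0 ≤ δ) {n : ℕ} (hn : ‖a‖ ≤ n * δ) :
    a ≤ δ • ∑ j ∈ range n, E (j * δ) := by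
  have : ∀ n : ℕ, a * (1 - E (n * δ)) ≤ δ • ∑ j ∈ range n, E (j * δ) - (n * δ) • E (n * δ) := by
    intro n
    induction n with
    | zero => simp [mul_sub, h.zero ha]
    | succ n ih =>
      have := (h.diff ha (show n * δ ≤ (n + 1 : ℕ) * δ by push_cast; nlinarith)).2.2.1
      refine le_of_eq_of_le ?_ ((add_le_add ih this).trans_eq ?_)
      · noncomm_ring
      · rw [sum_range_succ]; push_cast; module
  simpa [h.top _ hn] using this n

theorem cake_lo (h : Spec a E) (ha : 0 ≤ a) {δ : ℝ} (hδ : 0 ≤ δ) (n : ℕ) :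
    δ • ∑ j ∈ range n, E ((j + 1 : ℕ) * δ) ≤ a := by
  have : ∀ n : ℕ, δ • ∑ j ∈ range n, E ((j + 1 : ℕ) * δ) - (n * δ) • E (n * δ)
      ≤ a * (1 - E (n * δ)) := by
    intro n
    induction n with
    | zero => simp [mul_sub, h.zero ha]
    | succ n ih =>
      have := (h.diff ha (show n * δ ≤ (n + 1 : ℕ) * δ by push_cast; nlinarith)).2.1
      refine le_of_eq_of_le ?_ ((add_le_add ih this).trans_eq ?_)
      · rw [sum_range_succ]; push_cast; module
      · noncomm_ring
  have h2 := add_le_add (this n) (h.lo (n * δ))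
  rwa [sub_add_cancel, ← mul_add, sub_add_cancel, mul_one] at h2

theorem cake_up' (h : Spec a E) (ha : 0 ≤ a) {δ : ℝ} (hδ : 0 ≤ δ) {n : ℕ} (hn : ‖a‖ ≤ n * δ) :
    a ≤ δ • 1 + δ • ∑ j ∈ range n, E ((j + 1 : ℕ) * δ) := by
  refine (h.cake_up ha hδ (n := n + 1) (by push_cast; nlinarith)).trans ?_
  rw [sum_range_succ', add_comm, smul_add]
  exact add_le_add_left (smul_le_smul_of_nonneg_left (pj_le_one (h.pj _)) hδ) _

end Spec

end Vale.Agent.P082
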