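import Vale.Agent.P104.Basic

/-! Von Neumann algebras as represented C*-algebras, weak limits, minimal sets. -/

namespace Vale.Agent.P082

open scoped InnerProductSpace
open Filter Topology ContinuousLinearMapWOT

/-- A C*-algebra with a faithful representation whose image is its own bicommutant. -/
class VN (A : Type*) [CStarAlgebra A] (H : outParam Type*) [NormedAddCommGroup H]
    [InnerProductSpace ℂ H] [CompleteSpace H] where
  ρ : A →⋆ₐ[ℂ] (H →L[ℂ] H)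
  inj : Function.Injective ρ
  bicomm : ∀ T : H →L[ℂ] H, (∀ S : H →L[ℂ] H, (∀ a, Commute (ρ a) S) → Commute T S) →
    ∃ a, ρ a = T

export VN (ρ)

section Zorn

theorem chain_ultra {X : Type*} {r : X → X → Prop} (tr : ∀ {a b c}, r a b → r b c → r a c)
    {c : Set X} (rf : ∀ a ∈ c, r a a) (hc : IsChain r c) (hne : c.Nonempty) :
    ∃ U : Ultrafilter X, c ∈ U ∧ ∀ a ∈ c, ∀ᶠ b in U, r a b := by
  have : Nonempty c := hne.to_subtype
  have : (⨅ a : c, 𝓟 {b | b ∈ c ∧ r a b}).NeBot := by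
    refine iInf_neBot_of_directed' (fun a b => ?_) fun a => principal_neBot_iff.2 ⟨a, a.2, rf _ a.2⟩
    by_cases h : (a : X) = b
    · exact ⟨a, le_rfl, by rw [h]⟩
    rcases hc a.2 b.2 h with h | h
    · exact ⟨b, principal_mono.2 fun x hx => ⟨hx.1, tr h hx.2⟩, le_rfl⟩
    · exact ⟨a, le_rfl, principal_mono.2 fun x hx => ⟨hx.1, tr h hx.2⟩⟩
  have k : ∀ a : c, {b | b ∈ c ∧ r a b} ∈ Ultrafilter.of (⨅ a : c, 𝓟 {b | b ∈ c ∧ r a b}) :=
    fun a => Ultrafilter.of_le _ (mem_iInf_of_mem a (mem_principal_self _))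
  exact ⟨_, mem_of_superset (k (Classical.arbitrary _)) fun _ h => h.1,
    fun a ha => mem_of_superset (k ⟨a, ha⟩) fun _ h => h.2⟩

theorem zorn_lim {X : Type*} (P : X → Prop) (r : X → X → Prop)
    (tr : ∀ {a b c}, r a b → r b c → r a c) (rf : ∀ a, P a → r a a) {x0 : X} (h0 : P x0)
    (hl : ∀ (U : Ultrafilter X) (c : Set X), c ∈ U → (∀ a ∈ c, P a) →
      (∀ a ∈ c, ∀ᶠ b in U, r a b) → ∃ y, P y ∧ ∀ a ∈ c, r a y) :
    ∃ m, P m ∧ ∀ y, P y → r m y → r y m := by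
  have : Nonempty {x // P x} := ⟨⟨x0, h0⟩⟩
  obtain ⟨m, hm⟩ := exists_maximal_of_nonempty_chains_bounded
    (r := fun a b : {x // P x} => r a b) (fun c hc hne => by
      have hP : ∀ a ∈ Subtype.val '' c, P a := by rintro _ ⟨a, -, rfl⟩; exact a.2
      obtain ⟨U, h1, h2⟩ := chain_ultra (r := r) tr (fun a ha => rf a (hP a ha))
        (by rintro _ ⟨a, ha, rfl⟩ _ ⟨b, hb, rfl⟩ h; exact hc ha hb fun e => h (by rw [e])) (hne.image Subtype.val)
      obtain ⟨y, hy, h⟩ := hl U _ h1 hP h2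
      exact ⟨⟨y, hy⟩, fun a ha => h _ ⟨a, ha, rfl⟩⟩) tr
  exact ⟨m, m.2, fun y hy h => hm ⟨y, hy⟩ h⟩

theorem exists_min {X : Type*} [TopologicalSpace X] [T2Space X] (P : Set X → Prop)
    (hP : ∀ c : Set (Set X), c.Nonempty → (∀ s ∈ c, P s) → P (⋂₀ c)) {K0 : Set X}
    (hK : IsCompact K0) (hne : K0.Nonempty) (h0 : P K0) :
    ∃ K ⊆ K0, IsCompact K ∧ K.Nonempty ∧ P K ∧
      ∀ S, IsClosed S → (K ∩ S).Nonempty → P (K ∩ S) → K ⊆ S := by
  obtain ⟨K, h1, h2⟩ := zorn_superset_nonempty {K | IsCompact K ∧ K.Nonempty ∧ P K}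
    (fun c hc hch hne => by
      have : Nonempty c := hne.to_subtype
      refine ⟨⋂₀ c, ⟨?_, ?_, hP c hne fun s hs => (hc hs).2.2⟩,
        fun s hs => Set.sInter_subset_of_mem hs⟩
      · obtain ⟨s, hs⟩ := hne
        exact (hc hs).1.of_isClosed_subset (isClosed_sInter fun t ht => (hc ht).1.isClosed)
          (Set.sInter_subset_of_mem hs)
      · exact IsCompact.nonempty_sInter_of_directed_nonempty_isCompact_isClosed
          (fun s hs t ht => (hch.total hs ht).elim (fun h => ⟨s, hs, le_rfl, h⟩)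
            fun h => ⟨t, ht, h, le_rfl⟩) (fun s hs => (hc hs).2.1) (fun s hs => (hc hs).1)
          fun s hs => (hc hs).1.isClosed) K0 ⟨hK, hne, h0⟩
  exact ⟨K, h1, h2.prop.1, h2.prop.2.1, h2.prop.2.2, fun S a b c =>
      (h2.le_of_le ⟨h2.prop.1.inter_right a, b, c⟩ Set.inter_subset_left).trans
        Set.inter_subset_right⟩

theorem fip {X I : Type*} [TopologicalSpace X] {K : Set X} (hK : IsCompact K) (S : I → Set X)
    (hS : ∀ i, IsClosed (S i)) (h : ∀ t : Finset I, ∃ x ∈ K, ∀ i ∈ t, x ∈ S i) :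
    ∃ x ∈ K, ∀ i, x ∈ S i := by
  obtain ⟨x, h1, h2⟩ := hK.inter_iInter_nonempty S hS fun t => by
    obtain ⟨x, h1, h2⟩ := h t
    exact ⟨x, h1, by simpa using h2⟩
  exact ⟨x, h1, by simpa using h2⟩

/-- A minimal compact convex set invariant under a set of maps. -/
structure Minl {X : Type*} [TopologicalSpace X] [AddCommGroup X] [Module ℝ X] (T : Set (X → X))
    (K : Set X) : Prop where
  cpt : IsCompact K
  ne : K.Nonempty
  cvx : Convex ℝ K
  inv : ∀ f ∈ T, ∀ x ∈ K, f x ∈ K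
  min : ∀ S, IsClosed S → Convex ℝ S → (∃ x ∈ K, x ∈ S) → (∀ f ∈ T, ∀ x ∈ K, x ∈ S → f x ∈ S) →
    ∀ x ∈ K, x ∈ S

theorem exists_minl {X : Type*} [TopologicalSpace X] [T2Space X] [AddCommGroup X] [Module ℝ X]
    (T : Set (X → X)) {K0 : Set X} (hK : IsCompact K0) (hne : K0.Nonempty) (hc : Convex ℝ K0)
    (hi : ∀ f ∈ T, ∀ x ∈ K0, f x ∈ K0) : ∃ K ⊆ K0, Minl T K := by
  obtain ⟨K, h1, h2, h3, h4, h5⟩ := exists_min
    (fun K : Set X => Convex ℝ K ∧ ∀ f ∈ T, ∀ x ∈ K, f x ∈ K)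
    (fun c _ h => ⟨convex_sInter fun s hs => (h s hs).1,
      fun f hf x hx s hs => (h s hs).2 f hf x (hx s hs)⟩) hK hne ⟨hc, hi⟩
  exact ⟨K, h1, h2, h3, h4.1, h4.2, fun S a b c d => h5 S a c
    ⟨h4.1.inter b, fun f hf x hx => ⟨h4.2 f hf x hx.1, d f hf x hx.1 hx.2⟩⟩⟩

theorem Minl.image {X Y I : Type*} [TopologicalSpace X] [AddCommGroup X] [Module ℝ X]
    [TopologicalSpace Y] [AddCommGroup Y] [Module ℝ Y] {f : I → X → X} {g : I → Y → Y} {K : Set X}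
    (h : Minl (Set.range f) K) (p : X →ₗ[ℝ] Y) (hp : Continuous p)
    (hfg : ∀ i x, p (f i x) = g i (p x)) : Minl (Set.range g) (p '' K) where
  cpt := h.cpt.image hp
  ne := h.ne.image _
  cvx := h.cvx.linear_image p
  inv := by
    rintro _ ⟨i, rfl⟩ _ ⟨x, hx, rfl⟩
    exact ⟨_, h.inv _ ⟨i, rfl⟩ x hx, hfg i x⟩
  min := by
    rintro S a b ⟨_, ⟨x, hx, rfl⟩, c⟩ d _ ⟨y, hy, rfl⟩
    refine h.min (p ⁻¹' S) (a.preimage hp) (b.linear_preimage p) ⟨x, hx, c⟩ ?_ y hy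
    rintro _ ⟨i, rfl⟩ x hx hS
    rw [Set.mem_preimage, hfg]
    exact d _ ⟨i, rfl⟩ _ ⟨x, hx, rfl⟩ hS

end Zorn

variable {A : Type*} [CStarAlgebra A] {H : Type*} [NormedAddCommGroup H] [InnerProductSpace ℂ H]
  [CompleteSpace H] [VN A H]

theorem norm_rho (a : A) : ‖ρ a‖ = ‖a‖ := NonUnitalStarAlgHom.norm_map _ VN.inj a

theorem rho_le (a : A) (ξ : H) : ‖ρ a ξ‖ ≤ ‖a‖ * ‖ξ‖ := norm_rho a ▸ (ρ a).le_opNorm ξ

theorem rho_mul (a b : A) (ξ : H) : ρ (a * b) ξ = ρ a (ρ b ξ) := by rw [map_mul]; rfl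

theorem rho_ext {a b : A} (h : ∀ ξ : H, ρ a ξ = ρ b ξ) : a = b :=
  VN.inj (ContinuousLinearMap.ext h)

theorem inner_rho (a : A) (η ξ : H) : ⟪ρ a η, ξ⟫_ℂ = ⟪η, ρ (star a) ξ⟫_ℂ := by
  rw [map_star, ContinuousLinearMap.star_eq_adjoint, ContinuousLinearMap.adjoint_inner_right]

theorem inner_rho' (a : A) (η ξ : H) : ⟪ρ (star a) η, ξ⟫_ℂ = ⟪η, ρ a ξ⟫_ℂ := by
  rw [inner_rho, star_star]

theorem norm_sq_rho (a : A) (ξ : H) : ‖ρ a ξ‖ ^ 2 = (⟪ξ, ρ (star a * a) ξ⟫_ℂ).re := by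
  rw [rho_mul, ← inner_rho]
  exact (inner_self_eq_norm_sq (𝕜 := ℂ) _).symm

/-- The weak operator image. -/
noncomputable def wk (a : A) : H →WOT[ℂ] H := ofCLM (ρ a)

theorem wk_inj : Function.Injective (wk : A → H →WOT[ℂ] H) := ofCLM_injective.comp VN.inj

theorem wk_add (a b : A) : wk (a + b) = wk a + wk b := by rw [wk, map_add]; rfl
theorem wk_sub (a b : A) : wk (a - b) = wk a - wk b := by rw [wk, map_sub]; rfl
theorem wk_mul (a b : A) : wk (a * b) = wk a * wk b := by rw [wk, map_mul]; rfl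
theorem wk_smul (c : ℂ) (b : A) : wk (c • b) = c • wk b := by rw [wk, map_smul]; rfl
theorem wk_star (b : A) : wk (star b) = star (wk b) := by rw [wk, map_star]; rfl

/-- Weak limits. -/
def WL {α : Type*} (l : Filter α) (x : α → A) (y : A) : Prop :=
  Tendsto (fun i => wk (x i)) l (𝓝 (wk y))

namespace WL

variable {α : Type*} {l : Filter α} {x x' : α → A} {y y' : A}

theorem const (y : A) : WL l (fun _ => y) y := tendsto_const_nhds

theorem add (h : WL l x y) (h' : WL l x' y') : WL l (fun i => x i + x' i) (y + y') := by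
  simpa only [WL, wk_add] using Tendsto.add h h'

theorem sub (h : WL l x y) (h' : WL l x' y') : WL l (fun i => x i - x' i) (y - y') := by
  simpa only [WL, wk_sub] using Tendsto.sub h h'

theorem lmul (h : WL l x y) (a : A) : WL l (fun i => a * x i) (a * y) := by
  simpa only [WL, wk_mul] using Tendsto.const_mul (wk a) h

theorem rmul (h : WL l x y) (a : A) : WL l (fun i => x i * a) (y * a) := by
  simpa only [WL, wk_mul] using Tendsto.mul_const (wk a) h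

theorem star (h : WL l x y) : WL l (fun i => star (x i)) (star y) := by
  simpa only [WL, wk_star] using Tendsto.star h

theorem inner (h : WL l x y) (η ξ : H) :
    Tendsto (fun i => ⟪η, ρ (x i) ξ⟫_ℂ) l (𝓝 ⟪η, ρ y ξ⟫_ℂ) :=
  tendsto_iff_forall_inner_apply_tendsto.1 h ξ η

theorem re (h : WL l x y) (η ξ : H) :
    Tendsto (fun i => (⟪η, ρ (x i) ξ⟫_ℂ).re) l (𝓝 (⟪η, ρ y ξ⟫_ℂ).re) :=
  (Complex.continuous_re.tendsto _).comp (h.inner η ξ)

theorem eq [l.NeBot] (h : WL l x y) (h' : WL l x' y') (e : ∀ᶠ i in l, x i = x' i) : y = y' :=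
  wk_inj (tendsto_nhds_unique_of_eventuallyEq h h' (e.mono fun _ hi => congrArg wk hi))

theorem eq_const [l.NeBot] (h : WL l x y) (e : ∀ᶠ i in l, x i = y') : y = y' :=
  h.eq (const y') e

theorem norm_le [l.NeBot] (h : WL l x y) (ξ : H) {c : ℝ} (e : ∀ᶠ i in l, ‖ρ (x i) ξ‖ ≤ c) :
    ‖ρ y ξ‖ ≤ c := by
  have hc : 0 ≤ c := by obtain ⟨i, hi⟩ := e.exists; exact (norm_nonneg _).trans hi
  have := le_of_tendsto (h.inner (ρ y ξ) ξ).norm (b := ‖ρ y ξ‖ * c) (e.mono fun i hi =>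
    (norm_inner_le_norm _ _).trans (mul_le_mul_of_nonneg_left hi (norm_nonneg _)))
  rw [inner_self_eq_norm_sq_to_K, norm_pow, RCLike.norm_ofReal, abs_norm] at this
  by_contra h5
  nlinarith [norm_nonneg (ρ y ξ)]

end WL

theorem exists_wl {α : Type*} (U : Ultrafilter α) {x : α → A} {C : ℝ}
    (hx : ∀ᶠ n in U, ‖x n‖ ≤ C) : ∃ y : A, ‖y‖ ≤ C ∧ WL U x y := by
  have hC : 0 ≤ C := by obtain ⟨i, hi⟩ := hx.exists; exact (norm_nonneg _).trans hi
  have key : ∀ ξ : H, ∃ ζ : H, ‖ζ‖ ≤ C * ‖ξ‖ ∧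
      ∀ η, Tendsto (fun n => ⟪ρ (x n) ξ, η⟫_ℂ) U (𝓝 ⟪ζ, η⟫_ℂ) := fun ξ => by
    obtain ⟨_, ⟨g, hg, rfl⟩, h⟩ := (ContinuousLinearMap.isCompact_image_coe_closedBall
      (0 : StrongDual ℂ H) (C * ‖ξ‖)).ultrafilter_le_nhds' (U.map fun n => innerSL ℂ (ρ (x n) ξ))
      (Ultrafilter.mem_map.2 (hx.mono fun n hn => ⟨_, by
        simpa using (rho_le _ ξ).trans (mul_le_mul_of_nonneg_right hn (norm_nonneg _)), rfl⟩))
    exact ⟨(InnerProductSpace.toDual ℂ H).symm g, by simpa using hg, fun η => by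
      simpa using tendsto_pi_nhds.1
        (show Tendsto (fun n => ⇑(innerSL ℂ (ρ (x n) ξ))) U _ from h) η⟩
  choose y h1 h2 using key
  let T : H →L[ℂ] H := LinearMap.mkContinuous ⟨⟨y, fun a b => ext_inner_right ℂ fun η =>
    tendsto_nhds_unique (h2 _ η) (by simpa [inner_add_left] using (h2 a η).add (h2 b η))⟩,
    fun c a => ext_inner_right ℂ fun η => tendsto_nhds_unique (h2 _ η) (by
      simpa only [map_smul, inner_smul_left, RingHom.id_apply] using (h2 a η).const_mul _)⟩ C h1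
  have hT : Tendsto (fun n => wk (x n)) U (𝓝 (ofCLM T)) :=
    tendsto_iff_forall_inner_apply_tendsto.2 fun ξ η => by
      simpa [Function.comp_def, wk, T] using (Complex.continuous_conj.tendsto _).comp (h2 ξ η)
  obtain ⟨a, ha⟩ := VN.bicomm (A := A) T fun S hS => ofCLM_injective (by
    refine tendsto_nhds_unique (hT.mul_const (ofCLM S)) ?_
    refine (hT.const_mul (ofCLM S)).congr fun n => ?_
    exact congrArg ofCLM (hS (x n)).symm)
  exact ⟨a, by rw [← norm_rho, ha]; exact LinearMap.mkContinuous_norm_le _ hC _,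
    by rw [WL, wk, ha]; exact hT⟩

variable [PartialOrder A] [StarOrderedRing A]

theorem re_nonneg {a : A} (ha : 0 ≤ a) (ξ : H) : 0 ≤ (⟪ξ, ρ a ξ⟫_ℂ).re :=
  ((ContinuousLinearMap.nonneg_iff_isPositive _).1
    (show (0 : H →L[ℂ] H) ≤ ρ a from map_nonneg ρ ha)).re_inner_nonneg_right ξ

theorem re_mono {a b : A} (h : a ≤ b) (ξ : H) : (⟪ξ, ρ a ξ⟫_ℂ).re ≤ (⟪ξ, ρ b ξ⟫_ℂ).re := by
  have := re_nonneg (sub_nonneg.2 h) ξ
  rwa [map_sub, ContinuousLinearMap.sub_apply, inner_sub_right, Complex.sub_re, sub_nonneg] at this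

theorem nonneg_of_re {a : A} (hs : IsSelfAdjoint a) (h : ∀ ξ : H, 0 ≤ (⟪ξ, ρ a ξ⟫_ℂ).re) :
    0 ≤ a := by
  obtain ⟨p, n, hp, hn, e, h1, h2, -⟩ := P104.exists_parts hs
  obtain ⟨s, hs0, hss, -⟩ := P104.exists_sqrt hn
  have k : s * n = 0 := rho_ext fun ξ => by
    have h3 := h (ρ n ξ)
    have h4 := norm_sq_rho (s * n) ξ
    rw [inner_rho, ← rho_mul, ← rho_mul, hn.star_eq, e, mul_sub, h2, zero_sub, neg_mul, map_neg,
      ContinuousLinearMap.neg_apply, inner_neg_right, Complex.neg_re] at h3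
    rw [star_mul, hn.star_eq, hs0.star_eq, mul_assoc, ← mul_assoc s, hss, ← mul_assoc] at h4
    rw [map_zero, ContinuousLinearMap.zero_apply, ← norm_eq_zero, ← sq_eq_zero_iff]
    nlinarith [sq_nonneg ‖ρ (s * n) ξ‖]
  have k2 : star n * n = 0 := by rw [hn.star_eq]; nth_rw 1 [← hss]; rw [mul_assoc, k, mul_zero]
  rw [e, CStarRing.star_mul_self_eq_zero_iff _ |>.1 k2, sub_zero]
  exact hp

theorem WL.nonneg {α : Type*} {l : Filter α} [l.NeBot] {x : α → A} {y : A} (h : WL l x y)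
    (e : ∀ᶠ i in l, 0 ≤ x i) : 0 ≤ y :=
  nonneg_of_re (h.star.eq h (e.mono fun _ hi => hi.star_eq)) fun ξ =>
    ge_of_tendsto (h.re ξ ξ) (e.mono fun _ hi => re_nonneg hi ξ)

theorem WL.le {α : Type*} {l : Filter α} [l.NeBot] {x x' : α → A} {y y' : A} (h : WL l x y)
    (h' : WL l x' y') (e : ∀ᶠ i in l, x i ≤ x' i) : y ≤ y' :=
  sub_nonneg.1 ((h'.sub h).nonneg (e.mono fun _ hi => sub_nonneg.2 hi))

end Vale.Agent.P082
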