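import Vale.Agent.P082.Avg

/-! Central partitions, and the finite type I case. -/

namespace Vale.Agent.P082

open Finset

variable {A : Type*} [CStarAlgebra A]

/-- Finite central partitions of unity. -/
structure Part {κ : Type} [Fintype κ] (d : κ → A) : Prop where
  cp : ∀ k, CP (d k)
  orth : ∀ k l, k ≠ l → d k * d l = 0
  sum : ∑ k, d k = 1

theorem exists_atoms {ι : Type*} (s : Finset ι) (c : ι → A) (hc : ∀ i, CP (c i)) :
    ∃ (κ : Type) (_ : Fintype κ) (d : κ → A), Part d ∧
      ∀ i ∈ s, ∀ k, d k * c i = d k ∨ d k * c i = 0 := by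
  classical
  induction s using Finset.induction_on with
  | empty => exact ⟨Unit, inferInstance, fun _ => 1, ⟨fun _ => cp_one, by simp, by simp⟩, by simp⟩
  | insert j s _ ih =>
    obtain ⟨κ, _, d, h, h'⟩ := ih
    have k : ∀ b : Bool, CP (if b then c j else 1 - c j) := fun b => by
      cases b; exacts [(hc j).one_sub, hc j]
    refine ⟨κ × Bool, inferInstance, fun p => d p.1 * if p.2 then c j else 1 - c j,
      ⟨fun p => (h.cp _).mul (k _), ?_, ?_⟩, ?_⟩
    · rintro ⟨a, b⟩ ⟨a', b'⟩ e
      by_cases e' : a = a'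
      · rw [mul_assoc, ← (k b').2, ← mul_assoc (if b then _ else _)]
        cases b <;> cases b' <;>
          simp_all [(hc j).1.mul_one_sub_self, (hc j).1.one_sub_mul_self]
      · rw [mul_assoc, ← mul_assoc _ (d a'), (k b).2, ← mul_assoc, ← mul_assoc, h.orth a a' e']
        simp
    · simp [Fintype.sum_prod_type, ← mul_add, h.sum]
    · rintro i hi ⟨a, b⟩
      rcases mem_insert.1 hi with rfl | hi
      · cases b <;> simp [mul_assoc, pj_sq (hc i).1, (hc i).1.one_sub_mul_self]
      · rw [mul_assoc, ← (hc i).2, ← mul_assoc]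
        exact (h' i hi a).imp (fun e => by rw [e]) fun e => by rw [e, zero_mul]

/-- All maps of the system are module maps on the summand `z`. -/
def Good (K : Set (Fn A A)) (z : A) : Prop := ∀ θ ∈ K, ∀ a x, z * θ (a * x) = a * (z * θ x)

variable {H : Type*} [NormedAddCommGroup H] [InnerProductSpace ℂ H] [CompleteSpace H] [VN A H]
variable {K : Set (Fn A A)} {B : ℝ}

theorem Sys.good (h : Sys K B) {z : A} (hz : CP z) {θ : Fn A A} (hθ : θ ∈ K)
    (k : ∀ a x, z * θ (a * x) = a * (z * θ x)) : Good K z :=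
  h.all (S := {θ | ∀ a x, z * θ (a * x) = a * (z * θ x)}) (closed_all fun a => closed_mod a z)
    (convex_all fun a => convex_mod a z) ⟨θ, hθ, k⟩ fun u hu θ _ k a x => by
      have : ∀ y, z * ac u θ y = y * (z * θ 1) := fun y => by
        rw [ac_apply, ← mul_assoc, hz.2, mul_assoc, ← mul_one (u * y), k, ← mul_assoc,
          ← mul_assoc (star u), (Unitary.mem_iff.1 hu).1, one_mul]
      rw [this, this, mul_assoc]

include H in
theorem good_exhaust {q : A} (hq : CP q)
    (h : ∀ c, CP c → c ≠ 0 → q * c = c → ∃ z, CP z ∧ z ≠ 0 ∧ c * z = z ∧ Good K z) :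
    Good K q := by
  obtain ⟨W, ⟨h1, h2, h3⟩, hm⟩ := max_pj (fun c => CP c ∧ q * c = c ∧ Good K c)
    ⟨cp_zero, by simp, by simp [Good]⟩ (fun _ h => h.1.1) fun U W a b c _ =>
      ⟨⟨c, fun x => (b.rmul x).eq (b.lmul x) (a.mono fun v h => h.1.2 x)⟩,
        (b.lmul _).eq b (a.mono fun v h => h.2.1), fun θ hθ x y =>
          (b.rmul _).eq ((b.rmul _).lmul _) (a.mono fun v h => h.2.2 θ hθ x y)⟩
  by_cases e : q * (1 - W) = 0
  · rwa [← h2, osub_r.1 e] at h3
  obtain ⟨z, z1, z2, z3, z4⟩ := h _ (hq.mul h1.one_sub) e (pj_sq' hq.1 _)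
  have k : W * z = 0 := by
    rw [← z3, hq.2, ← mul_assoc, ← mul_assoc, h1.1.mul_one_sub_self]; simp
  exact absurd (hm z z1.1 k ⟨h1.add z1 k, by rw [mul_add, h2, ← z3, ← mul_assoc, pj_sq' hq.1],
    fun θ hθ x y => by rw [add_mul, add_mul, mul_add, h3 θ hθ, z4 θ hθ]⟩) z2

variable [PartialOrder A] [StarOrderedRing A]

include H in
theorem corner_span {e : A} (he : IsStarProjection e) (S : Submodule ℂ A)
    (hS : IsClosed (S : Set A)) (h : ∀ p, IsStarProjection p → e * p = p → p ∈ S) (x : A) :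
    e * x * e ∈ S := by
  have pos : ∀ a, 0 ≤ a → e * a * e ∈ S := fun a ha => by
    have h0 := conjugate_nonneg_of_nonneg ha he.nonneg
    obtain ⟨E, hE⟩ := exists_spec h0
    refine hS.closure_subset (Metric.mem_closure_iff.2 fun ε hε => ?_)
    obtain ⟨n, hn⟩ := exists_nat_ge (‖e * a * e‖ / (ε / 2))
    have h1 := hE.cake_up' h0 (half_pos hε).le ((div_le_iff₀ (half_pos hε)).1 hn)
    have h2 := hE.cake_lo h0 (half_pos hε).le n
    refine ⟨_, S.smul_of_tower_mem (ε / 2) (S.sum_mem (t := range n) fun j _ =>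
      h (E ((j + 1 : ℕ) * (ε / 2))) (hE.pj _) (osub_l.1 (hE.kill _ _ (by positivity) ?_))), ?_⟩
    · rw [← mul_assoc, ← mul_assoc, he.one_sub_mul_self]; simp
    · rw [dist_eq_norm]
      exact (P104.norm_le_of_le (sub_nonneg.2 h2) (half_pos hε).le
        (sub_le_iff_le_add.2 h1)).trans_lt (half_lt_self hε)
  have sa : ∀ a, IsSelfAdjoint a → e * a * e ∈ S := fun a ha => by
    obtain ⟨p, n, hp, hn, rfl, -⟩ := P104.exists_parts ha
    rw [mul_sub, sub_mul]
    exact S.sub_mem (pos p hp) (pos n hn)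
  rw [← realPart_add_I_smul_imaginaryPart x, mul_add, add_mul, mul_smul_comm, smul_mul_assoc]
  exact S.add_mem (sa _ (realPart x).2) (S.smul_mem _ (sa _ (imaginaryPart x).2))

theorem Sys.typeI (h : Sys K B) {q r : A} (hf : Fi q) (hq : CP q) (hr : Ab r) (h0 : r ≠ 0)
    (hqr : q * r = r) : ∃ z, CP z ∧ z ≠ 0 ∧ q * z = z ∧ Good K z := by
  classical
  obtain ⟨z, hz, z0, qz, ι, _, w, w1, w2, w3, w4⟩ := hf.cover hq hr.1 h0 hqr
  choose c c1 c2 using fun i => hr.sub (w3 i).fin (by rw [← mul_assoc, w1])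
  obtain ⟨κ, _, d, hd, hd'⟩ := exists_atoms univ c c1
  obtain ⟨k, hk⟩ : ∃ k, z * d k ≠ 0 := by
    by_contra hn
    push Not at hn
    exact z0 (by rw [← mul_one z, ← hd.sum, mul_sum]; simp [hn])
  have hk' := hd.cp k
  have mu : MU (fun i : {i // d k * c i = d k} => star (w i * d k)) (r * d k) (z * d k) := by
    refine ⟨hk'.pj hr.1, fun i j => ?_, ?_⟩
    · rw [star_star]
      split_ifs with e
      · rw [e, hk'.fin, c2, mul_assoc, ← hk'.2, j.2]
      · rw [star_mul, pj_st hk'.1, hk'.2 (star _), hk'.mm, w4 _ _ fun e' => e (Subtype.ext e'),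
          zero_mul]
    · simp only [star_star, hk'.ini]
      rw [← w2, sum_mul, ← Fintype.sum_subtype_add_sum_subtype fun i => d k * c i = d k,
        left_eq_add]
      refine sum_eq_zero fun i _ => ?_
      have : w i * star (w i) * d k = 0 := by
        rw [c2, mul_assoc, ← hk'.2, (hd' i (mem_univ _) k).resolve_left i.2, mul_zero]
      rw [← (w3 i).l, mul_assoc, mul_assoc (w i * _), ← hk'.2, ← mul_assoc (w i * _), this]
      simp
  have : Nonempty {i // d k * c i = d k} := by
    by_contra hn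
    rw [not_nonempty_iff] at hn
    exact hk (by simpa using mu.sum.symm)
  have hz' := hz.mul hk'
  have qz' : q * (z * d k) = z * d k := by rw [← mul_assoc, qz]
  refine ⟨_, hz', hk, qz', ?_⟩
  have e1 : ∀ p, IsStarProjection p → r * d k * p = p → ∃ c, CP c ∧ p = r * d k * c :=
    fun p hp e => by
      have e' : r * p = p := by rw [← e, ← mul_assoc, pj_sq' hr.1]
      obtain ⟨c, k1, k2⟩ := hr.sub hp e'
      exact ⟨c, k1, by rw [← e]; nth_rw 1 [k2]; rw [← hk'.2 r, mul_assoc, pj_sq' hr.1, mul_assoc]⟩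
  generalize z * d k = z' at mu hz'
  generalize r * d k = e at mu e1
  generalize (fun i : {i // d k * c i = d k} => star (w i * d k)) = v at mu
  obtain ⟨θ, hθ, m⟩ := h.mu mu
  have l := h.lin θ hθ
  have key : ∀ i j a x, θ (v i * a * star (v j) * x) = v i * a * star (v j) * θ x :=
    fun i j a => by
      have := corner_span mu.pj
        { carrier := {a | ∀ x, θ (v i * a * star (v j) * x) = v i * a * star (v j) * θ x}
          add_mem' := fun {a b} ha hb x => by
            simp only [mul_add, add_mul, l.map_add]; rw [ha x, hb x]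
          zero_mem' := fun x => by simp [l.map_zero]
          smul_mem' := fun t a ha x => by
            simp only [mul_smul_comm, smul_mul_assoc, l.map_smul]; rw [ha x] }
        (closed_all fun x => isClosed_eq ((AddMonoidHomClass.continuous_of_bound (l.mk' θ) B
          (h.bd θ hθ)).comp (by fun_prop)) (by fun_prop)) (fun p hp e' x => by
          obtain ⟨c, k1, rfl⟩ := e1 p hp e'
          rw [← mul_assoc, mu.ve, ← k1.2, mul_assoc, mul_assoc, h.cen k1 θ hθ, ← mul_assoc (v i), m]
          simp only [mul_assoc]) a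
      intro x
      have := this x
      rwa [← mul_assoc, ← mul_assoc, mu.ve, mul_assoc (v i * a), mu.ev] at this
  refine h.good hz' hθ fun a x => ?_
  have e2 : z' * a = ∑ i, ∑ j, v i * (star (v i) * a * v j) * star (v j) := by
    rw [← pj_sq hz'.1, mul_assoc, hz'.2 a, ← mul_assoc, ← mu.sum, sum_mul, sum_mul]
    simp only [mul_sum, mul_assoc]
  rw [← h.cen hz' θ hθ, ← mul_assoc, ← mul_assoc, ← hz'.2, e2]
  simp only [sum_mul, IsLinearMap.sum l, key]

end Vale.Agent.P082
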