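import Vale.Agent.P082.Top

/-! Supports, polar decomposition, comparison of projections, spectral projections. -/

namespace Vale.Agent.P082

open scoped InnerProductSpace
open Filter Topology ContinuousLinearMapWOT

section Alg

variable {A : Type*} [Ring A] [StarRing A]

theorem pj_sq {p : A} (h : IsStarProjection p) : p * p = p := h.isIdempotentElem.eq

theorem pj_st {p : A} (h : IsStarProjection p) : star p = p := h.isSelfAdjoint.star_eq

theorem pj_sq' {p : A} (h : IsStarProjection p) (x : A) : p * (p * x) = p * x := by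
  rw [← mul_assoc, pj_sq h]

theorem st_l {p x : A} (h : IsStarProjection p) (e : p * x = x) : star x * p = star x := by
  simpa [pj_st h] using congrArg star e

theorem st_r {p x : A} (h : IsStarProjection p) (e : x * p = x) : p * star x = star x := by
  simpa [pj_st h] using congrArg star e

theorem st_zero {x y : A} (e : x * y = 0) : star y * star x = 0 := by
  simpa using congrArg star e

theorem osub_l {p x : A} : (1 - p) * x = 0 ↔ p * x = x := by
  rw [sub_mul, one_mul, sub_eq_zero, eq_comm]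

theorem osub_r {p x : A} : x * (1 - p) = 0 ↔ x * p = x := by
  rw [mul_sub, mul_one, sub_eq_zero, eq_comm]

theorem comm_of_inv {p T : A} (hp : IsStarProjection p) (h1 : (1 - p) * T * p = 0)
    (h2 : (1 - p) * star T * p = 0) : Commute p T := by
  have h3 := congrArg star h2
  simp only [star_mul, star_sub, star_one, pj_st hp, star_star, star_zero] at h3
  rw [mul_assoc, osub_l] at h1
  rw [← mul_assoc, osub_r] at h3
  rw [Commute, SemiconjBy, ← h1, ← mul_assoc, h3]

/-- Partial isometries. -/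
def PI (v : A) : Prop := v * (star v * v) = v

theorem PI.star {v : A} (h : PI v) : PI (star v) := by
  simpa [PI, mul_assoc] using congrArg Star.star h

theorem PI.ini {v : A} (h : PI v) : IsStarProjection (Star.star v * v) :=
  ⟨by rw [IsIdempotentElem, mul_assoc, h], IsSelfAdjoint.star_mul_self v⟩

theorem PI.fin {v : A} (h : PI v) : IsStarProjection (v * Star.star v) := by
  simpa using h.star.ini

theorem PI.l {v : A} (h : PI v) : v * Star.star v * v = v := by rw [mul_assoc, h]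

theorem pi_zero : PI (0 : A) := by simp [PI]

theorem pi_pj {p : A} (h : IsStarProjection p) : PI p := by rw [PI, pj_st h, pj_sq h, pj_sq h]

theorem PI.add_ini {v w : A} (h : Star.star v * w = 0) :
    Star.star (v + w) * (v + w) = Star.star v * v + Star.star w * w := by
  have := st_zero h
  rw [star_star] at this
  rw [star_add, add_mul, mul_add, mul_add, h, this, add_zero, zero_add]

theorem PI.add_fin {v w : A} (h : v * Star.star w = 0) :
    (v + w) * Star.star (v + w) = v * Star.star v + w * Star.star w := by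
  simpa using PI.add_ini (v := Star.star v) (w := Star.star w) (by simpa using h)

theorem PI.add {v w : A} (hv : PI v) (hw : PI w) (h1 : Star.star v * w = 0)
    (h2 : v * Star.star w = 0) : PI (v + w) := by
  have := st_zero h2
  rw [star_star] at this
  rw [PI, PI.add_ini h1, add_mul, mul_add, mul_add, hv, hw, ← mul_assoc v, h2, ← mul_assoc w, this]
  simp

/-- Extension of partial isometries. -/
def Ext (v w : A) : Prop := w * (star v * v) = v ∧ star w * w * (star v * v) = star v * v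

theorem Ext.trans {u v w : A} (h : Ext u v) (h' : Ext v w) : Ext u w :=
  ⟨by rw [← h.2, ← mul_assoc, h'.1, h.1], by rw [← h.2, ← mul_assoc, h'.2]⟩

theorem Ext.refl {v : A} (h : PI v) : Ext v v := ⟨h, pj_sq h.ini⟩

theorem Ext.add {v w : A} (hv : PI v) (h1 : Star.star v * w = 0) (h2 : v * Star.star w = 0) :
    Ext v (v + w) := by
  have := st_zero h2
  rw [star_star] at this
  refine ⟨by rw [add_mul, hv, ← mul_assoc, this]; simp, ?_⟩
  rw [PI.add_ini h1, add_mul, pj_sq hv.ini, mul_assoc, ← mul_assoc w, this]; simp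

theorem Ext.eq {v w : A} (h : Ext v w) (h' : Ext w v) (hv : PI v) (hw : PI w) : v = w := by
  have h1 := st_l hw.ini h.2
  have h2 := h'.2
  rw [pj_st hv.ini] at h1
  rw [← h.1, ← h1, h2, hw]

theorem Ext.star {v w : A} (h : Ext v w) (hv : PI v) (hw : PI w) : Ext (star v) (star w) := by
  have h1 : Star.star w * v = Star.star v * v := by
    nth_rw 1 [← h.1]; rw [← mul_assoc, h.2]
  have h2 : Star.star w * (v * Star.star v) = Star.star v := by
    rw [← mul_assoc, h1]; simpa using hv.star.l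
  refine ⟨by simpa using h2, ?_⟩
  rw [star_star, star_star, mul_assoc, h2]
  nth_rw 2 [← h.1]
  rw [mul_assoc, mul_assoc (Star.star v), ← mul_assoc (Star.star v)]
  congr 1
  simpa using hv.star.l.symm

/-- Central projections. -/
def CP (c : A) : Prop := IsStarProjection c ∧ ∀ x, c * x = x * c

theorem CP.one_sub {c : A} (h : CP c) : CP (1 - c) :=
  ⟨h.1.one_sub, fun x => by rw [sub_mul, mul_sub, h.2, one_mul, mul_one]⟩

theorem CP.mul {c d : A} (h : CP c) (h' : CP d) : CP (c * d) :=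
  ⟨h.1.mul h'.1 (h.2 d), fun x => by rw [mul_assoc, h'.2, ← mul_assoc, h.2, mul_assoc]⟩

theorem cp_one : CP (1 : A) := ⟨.one A, by simp⟩

theorem cp_zero : CP (0 : A) := ⟨.zero A, by simp⟩

theorem CP.add {c d : A} (h : CP c) (h' : CP d) (e : c * d = 0) : CP (c + d) :=
  ⟨h.1.add h'.1 e, fun x => by rw [add_mul, mul_add, h.2, h'.2]⟩

theorem CP.pj {c e : A} (h : CP c) (he : IsStarProjection e) : IsStarProjection (e * c) :=
  he.mul h.1 (h.2 e).symm

theorem CP.ini {c : A} (h : CP c) (v : A) : star (v * c) * (v * c) = star v * v * c := by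
  rw [star_mul, pj_st h.1, mul_assoc, ← mul_assoc (star v), ← h.2, pj_sq' h.1]

theorem CP.fin {c : A} (h : CP c) (v : A) : v * c * star (v * c) = v * star v * c := by
  rw [star_mul, pj_st h.1, mul_assoc, pj_sq' h.1, h.2, mul_assoc]

theorem CP.mm {c : A} (h : CP c) (x y : A) : x * c * (y * c) = x * y * c := by
  rw [mul_assoc, ← h.2 y, pj_sq' h.1, h.2, mul_assoc]

/-- Subequivalence of projections. -/
def Sb (e f : A) : Prop := ∃ v, star v * v = e ∧ v * e = v ∧ f * v = v

theorem Sb.zero (f : A) : Sb 0 f := ⟨0, by simp, by simp, by simp⟩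

theorem Sb.cut {e f c : A} (h : Sb e f) (hc : CP c) : Sb (e * c) (f * c) := by
  obtain ⟨v, h1, h2, h3⟩ := h
  exact ⟨v * c, by rw [hc.ini, h1], by rw [hc.mm, h2], by rw [hc.mm, h3]⟩

theorem Sb.trans {e f g : A} (h : Sb e f) (h' : Sb f g) : Sb e g := by
  obtain ⟨v, h1, h2, h3⟩ := h
  obtain ⟨w, k1, k2, k3⟩ := h'
  exact ⟨w * v, by rw [star_mul, mul_assoc, ← mul_assoc (star w), k1, h3, h1],
    by rw [mul_assoc, h2], by rw [← mul_assoc, k3]⟩

theorem Sb.of_le {e f : A} (he : IsStarProjection e) (h : f * e = e) : Sb e f :=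
  ⟨e, by rw [pj_st he, pj_sq he], pj_sq he, h⟩

end Alg

theorem exists_vproj {H : Type*} [NormedAddCommGroup H] [InnerProductSpace ℂ H] [CompleteSpace H]
    (V : Set H) : ∃ p : H →L[ℂ] H, IsStarProjection p ∧ (∀ ξ ∈ V, p ξ = ξ) ∧
      ∀ S : Submodule ℂ H, IsClosed (S : Set H) → V ⊆ S → ∀ ξ, p ξ ∈ S := by
  refine ⟨(Submodule.span ℂ V).topologicalClosure.starProjection, isStarProjection_starProjection,
    fun ξ h => Submodule.starProjection_eq_self_iff.2
      (Submodule.le_topologicalClosure _ (Submodule.subset_span h)), fun S h1 h2 ξ => ?_⟩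
  exact Submodule.topologicalClosure_minimal _ (Submodule.span_le.2 h2) h1
    (Submodule.starProjection_apply_mem _ _)

theorem vproj_kill {H : Type*} [NormedAddCommGroup H] [InnerProductSpace ℂ H] {V : Set H}
    {p : H →L[ℂ] H} (h : ∀ S : Submodule ℂ H, IsClosed (S : Set H) → V ⊆ S → ∀ ξ, p ξ ∈ S)
    (y : H →L[ℂ] H) (hy : ∀ ξ ∈ V, y ξ = 0) : y * p = 0 :=
  ContinuousLinearMap.ext fun ξ => h y.ker y.isClosed_ker hy ξ

variable {A : Type*} [CStarAlgebra A]

theorem PI.norm_le {v : A} (h : PI v) : ‖v‖ ≤ 1 := by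
  have := h.ini.norm_le
  rw [CStarRing.norm_star_mul_self] at this
  nlinarith [norm_nonneg v]

theorem pi_of_ini {v : A} (h : IsStarProjection (star v * v)) : PI v := by
  rw [PI, ← osub_r, ← CStarRing.star_mul_self_eq_zero_iff, star_mul, pj_st h.one_sub, mul_assoc,
    ← mul_assoc (star v), h.mul_one_sub_self, mul_zero]

theorem conj_zero [PartialOrder A] [StarOrderedRing A] {p y : A} (hp : 0 ≤ p) (h : y * p * star y ≤ 0) : y * p = 0 := by
  obtain ⟨s, h0, h1, -⟩ := P104.exists_sqrt hp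
  have : y * s * star (y * s) = 0 := le_antisymm (by
    rwa [star_mul, h0.star_eq, mul_assoc, ← mul_assoc s, h1, ← mul_assoc]) (mul_star_self_nonneg _)
  rw [← h1, ← mul_assoc, (CStarRing.mul_star_self_eq_zero_iff _).1 this, zero_mul]

variable {H : Type*} [NormedAddCommGroup H] [InnerProductSpace ℂ H] [CompleteSpace H] [VN A H]

include H

theorem exists_proj (V : Set H) (hV : ∀ S : H →L[ℂ] H, (∀ a : A, Commute (ρ a) S) →
    ∀ ξ ∈ V, S ξ ∈ V) : ∃ p : A, IsStarProjection p ∧ (∀ ξ ∈ V, ρ p ξ = ξ) ∧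
      ∀ y : H →L[ℂ] H, (∀ ξ ∈ V, y ξ = 0) → y * ρ p = 0 := by
  obtain ⟨p, h1, h2, h3⟩ := exists_vproj V
  have k : ∀ S : H →L[ℂ] H, (∀ a : A, Commute (ρ a) S) → (1 - p) * S * p = 0 := fun S hS =>
    vproj_kill h3 _ fun ξ h => by simp [h2 _ (hV S hS ξ h)]
  obtain ⟨a, rfl⟩ := VN.bicomm (A := A) p fun S hS => comm_of_inv h1 (k S hS) (k _ fun a => by
    simpa [← map_star] using (hS (star a)).star_star)
  refine ⟨a, ⟨VN.inj ?_, VN.inj ?_⟩, h2, vproj_kill h3⟩
  · rw [map_mul, pj_sq h1]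
  · rw [map_star, pj_st h1]

theorem exists_lsup (S : Set A) : ∃ p : A, IsStarProjection p ∧ (∀ x ∈ S, p * x = x) ∧
    ∀ y : A, (∀ x ∈ S, y * x = 0) → y * p = 0 := by
  obtain ⟨p, h1, h2, h3⟩ := exists_proj (A := A) {ζ | ∃ x ∈ S, ∃ ξ : H, ζ = ρ x ξ} (by
    rintro T hT _ ⟨x, hx, ξ, rfl⟩
    exact ⟨x, hx, T ξ, (DFunLike.congr_fun (hT x).eq ξ).symm⟩)
  refine ⟨p, h1, fun x hx => rho_ext fun ξ => by rw [rho_mul]; exact h2 _ ⟨x, hx, ξ, rfl⟩,
    fun y hy => VN.inj ?_⟩
  rw [map_mul, map_zero]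
  refine h3 _ ?_
  rintro _ ⟨x, hx, ξ, rfl⟩
  rw [← rho_mul, hy x hx, map_zero]; rfl

theorem exists_ls (x : A) : ∃ p : A, IsStarProjection p ∧ p * x = x ∧
    ∀ y : A, y * x = 0 → y * p = 0 := by
  simpa using exists_lsup ({x} : Set A)

theorem exists_cs (e : A) : ∃ c : A, CP c ∧ c * e = e ∧
    ∀ y : A, (∀ x, y * x * e = 0) → y * c = 0 := by
  obtain ⟨p, h1, h2, h3⟩ := exists_lsup (Set.range fun x => x * e)
  simp only [Set.forall_mem_range] at h2 h3
  have k : ∀ a, (1 - p) * a * p = 0 := fun a => h3 _ fun x => by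
    rw [mul_assoc, ← mul_assoc a, osub_l, h2]
  exact ⟨p, ⟨h1, fun a => comm_of_inv h1 (k _) (k _)⟩, by simpa using h2 1,
    fun y hy => h3 y fun x => by rw [← mul_assoc, hy]⟩

theorem WL.of_norm {α : Type*} {l : Filter α} {x : α → A} {y : A} (h : Tendsto x l (𝓝 y)) :
    WL l x y :=
  ((continuous_ofCLM.comp (AddMonoidHomClass.isometry_of_norm (ρ : A →⋆ₐ[ℂ] _) norm_rho).continuous).tendsto y).comp h

/-- Limits of chains of partial isometries. -/
theorem chain_aux {α : Type*} {U : Ultrafilter α} {x : α → A} {c : Set α} (hc : c ∈ U)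
    (hP : ∀ a ∈ c, PI (x a)) (hm : ∀ a ∈ c, ∀ᶠ b in U, Ext (x a) (x b)) {W : A} (hW : WL U x W) :
    PI W ∧ (∀ a ∈ c, Ext (x a) W) ∧ WL U (fun a => star (x a) * x a) (star W * W) := by
  obtain ⟨p, -, hp⟩ := exists_wl U (x := fun a => star (x a) * x a) (C := 1)
    (mem_of_superset hc fun a ha => (hP a ha).ini.norm_le)
  have h1 : ∀ a ∈ c, W * (star (x a) * x a) = x a := fun a ha =>
    (hW.rmul _).eq_const ((hm a ha).mono fun b hb => hb.1)
  have h2 : ∀ a ∈ c, p * (star (x a) * x a) = star (x a) * x a := fun a ha =>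
    (hp.rmul _).eq_const ((hm a ha).mono fun b hb => hb.2)
  have h3 : ∀ a ∈ c, star W * x a = star (x a) * x a := fun a ha =>
    (hW.star.rmul _).eq_const ((hm a ha).mono fun b hb => by
      nth_rw 1 [← hb.1]; rw [← mul_assoc, hb.2])
  have h4 : W * p = W := (hp.lmul W).eq hW (mem_of_superset hc h1)
  have h5 : star W * W = p := (hW.lmul _).eq hp (mem_of_superset hc h3)
  exact ⟨by rw [PI, h5, h4], fun a ha => ⟨h1 a ha, by rw [h5, h2 a ha]⟩, h5 ▸ hp⟩

theorem chain_lim {α : Type*} {U : Ultrafilter α} {x : α → A} {c : Set α} (hc : c ∈ U)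
    (hP : ∀ a ∈ c, PI (x a)) (hm : ∀ a ∈ c, ∀ᶠ b in U, Ext (x a) (x b)) :
    ∃ W, WL U x W ∧ PI W ∧ (∀ a ∈ c, Ext (x a) W) ∧ WL U (fun a => star (x a) * x a) (star W * W) ∧
      WL U (fun a => x a * star (x a)) (W * star W) := by
  obtain ⟨W, -, hW⟩ := exists_wl U (x := x) (C := 1)
    (mem_of_superset hc fun a ha => (hP a ha).norm_le)
  obtain ⟨h1, h2, h3⟩ := chain_aux hc hP hm hW
  obtain ⟨-, -, h4⟩ := chain_aux hc (fun a ha => (hP a ha).star) (fun a ha => by
    filter_upwards [hm a ha, hc] with b h hb using h.star (hP a ha) (hP b hb)) hW.star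
  exact ⟨W, hW, h1, h2, h3, by simpa using h4⟩

theorem max_pi (P : A → Prop) (h0 : P 0) (hP : ∀ v, P v → PI v)
    (hl : ∀ (U : Ultrafilter A) (W : A), (∀ᶠ v in U, P v) → WL U (fun v => v) W → PI W →
      (∀ᶠ v : A in U, ∀ᶠ w : A in U, Ext v w) → WL U (fun v => star v * v) (star W * W) →
      WL U (fun v => v * star v) (W * star W) → P W) :
    ∃ W, P W ∧ ∀ v, star W * v = 0 → W * star v = 0 → P (W + v) → v = 0 := by
  obtain ⟨W, h1, h2⟩ := zorn_lim P Ext Ext.trans (fun a ha => .refl (hP a ha)) h0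
    fun U c hc k1 k2 => by
      obtain ⟨W, a1, a2, a3, a4, a5⟩ := chain_lim (x := fun v => v) hc (fun a ha => hP a (k1 a ha)) k2
      exact ⟨W, hl U W (mem_of_superset hc k1) a1 a2 (mem_of_superset hc k2) a4 a5, a3⟩
  refine ⟨W, h1, fun v a b c => ?_⟩
  have := Ext.add (hP W h1) a b
  simpa using this.eq (h2 _ c this) (hP W h1) (hP _ c)

theorem max_pj (P : A → Prop) (h0 : P 0) (hP : ∀ v, P v → IsStarProjection v)
    (hl : ∀ (U : Ultrafilter A) (W : A), (∀ᶠ v in U, P v) → WL U (fun v => v) W →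
      IsStarProjection W → (∀ᶠ v in U, W * v = v) → P W) :
    ∃ W, P W ∧ ∀ v, IsStarProjection v → W * v = 0 → P (W + v) → v = 0 := by
  obtain ⟨W, h1, h2⟩ := max_pi P h0 (fun v h => pi_pj (hP v h)) fun U W a b c d e f => by
    have k : star W * W = W := e.eq b (a.mono fun v hv => by rw [pj_st (hP v hv), pj_sq (hP v hv)])
    refine hl U W a b (k ▸ c.ini) ?_
    filter_upwards [a, d] with v hv h
    refine (b.rmul v).eq_const (h.mono fun w hw => ?_)
    simpa only [pj_st (hP v hv), pj_sq (hP v hv)] using hw.1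
  exact ⟨W, h1, fun v a b => h2 v (by rwa [pj_st (hP W h1)]) (by rwa [pj_st a])⟩

variable [PartialOrder A] [StarOrderedRing A]

theorem polar (x : A) : ∃ v : A, PI v ∧ v * (star x * x) * star v = x * star x ∧
    star v * v * star x = star x ∧ (∀ y, x * y = 0 → v * y = 0) ∧ (∀ y, y * x = 0 → y * v = 0) := by
  obtain ⟨b, b0, hb, -⟩ := P104.exists_sqrt (star_mul_self_nonneg x)
  have key : ∀ n : ℕ, ∃ g : A, ‖x * g‖ ≤ 1 ∧ x * g * b = x - (1 / (n + 1 : ℝ)) • (x * g) ∧
      ∀ y, x * y = 0 → x * g * y = 0 := fun n => by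
    have hε : 0 < 1 / (n + 1 : ℝ) := by positivity
    generalize 1 / (n + 1 : ℝ) = ε at hε
    obtain ⟨d, d0, d1, dc⟩ := P104.exists_invsqrt b0 hε
    obtain ⟨-, -, -, f4, f5⟩ := P104.invsqrt_facts b0 hε d0 d1 (dc _ (Commute.refl _))
    have gs : star (d * d) = d * d := by rw [star_mul, d0.star_eq]
    generalize d * d = g at f4 f5 gs
    refine ⟨g, P104.norm_le_one_of_le ?_, ?_, fun y hy => ?_⟩
    · have : b * b ≤ (b + ε • 1) * (b + ε • 1) := by
        rw [← sub_nonneg]
        have : (b + ε • 1) * (b + ε • 1) - b * b = (2 * ε) • b + (ε * ε) • 1 := by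
          simp only [add_mul, mul_add, smul_mul_assoc, mul_smul_comm, one_mul, mul_one, smul_smul]
          module
        rw [this]
        exact add_nonneg (smul_nonneg (by positivity) b0) (P104.smul_one_nonneg (by positivity))
      have h2 := star_left_conjugate_le_conjugate this g
      rw [gs, ← mul_assoc g (b + ε • 1), f4, one_mul, f5] at h2
      rwa [star_mul, gs, mul_assoc, ← mul_assoc (star x), ← hb, ← mul_assoc]
    · have := congrArg (x * ·) f4
      simp only [mul_add, mul_smul_comm, mul_one] at this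
      rw [mul_assoc, eq_sub_iff_add_eq, this]
    · have h1 : b * y = 0 := by
        rw [← CStarRing.star_mul_self_eq_zero_iff, star_mul, b0.star_eq, mul_assoc, ← mul_assoc b,
          hb, mul_assoc, hy, mul_zero, mul_zero]
      have := congrArg (fun t => x * t * y) f4
      simp only [mul_add, add_mul, mul_smul_comm, smul_mul_assoc, mul_one, mul_assoc, h1, hy,
        mul_zero, zero_add] at this
      rw [mul_assoc]
      exact (smul_eq_zero.1 this).resolve_left hε.ne'
  choose g g1 g2 g3 using key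
  obtain ⟨v, -, hv⟩ := exists_wl (hyperfilter ℕ) (x := fun n => x * g n) (C := 1) (.of_forall g1)
  have t0 : Tendsto (fun n : ℕ => x - (1 / (n + 1 : ℝ)) • (x * g n)) (hyperfilter ℕ) (𝓝 x) := by
    have := (tendsto_one_div_add_atTop_nhds_zero_nat (𝕜 := ℝ)).zero_smul_isBoundedUnder_le
      (g := fun n => x * g n) ⟨1, eventually_map.2 (.of_forall g1)⟩
    simpa using (this.const_sub x).mono_left Nat.hyperfilter_le_atTop
  have vb : v * b = x := (hv.rmul b).eq (.of_norm t0) (.of_forall g2)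
  have k1 : ∀ y, x * y = 0 → v * y = 0 := fun y hy =>
    (hv.rmul y).eq_const (.of_forall fun n => g3 n y hy)
  have k2 : ∀ y, y * x = 0 → y * v = 0 := fun y hy =>
    (hv.lmul y).eq_const (.of_forall fun n => by rw [← mul_assoc, hy, zero_mul])
  obtain ⟨s, s1, s2, s3⟩ := exists_ls b
  have s4 : b * s = b := by simpa [b0.star_eq] using st_l s1 s2
  have s5 : v * s = v := osub_r.1 (k1 _ (by rw [← vb, mul_assoc, osub_r.2 s4, mul_zero]))
  have xs : star x = b * star v := by rw [← vb, star_mul, b0.star_eq]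
  have e1 : b * (star v * v - 1) * s = 0 := s3 _ (by
    rw [mul_sub, sub_mul, mul_one, hb, ← mul_assoc, ← xs, mul_assoc, vb, sub_self])
  have e2 := s3 _ (show s * (star v * v - 1) * b = 0 by
    simpa [b0.star_eq, pj_st s1, mul_assoc] using congrArg star e1)
  have e3 : star v * v = s := by
    rwa [mul_sub, sub_mul, mul_one, pj_sq s1, ← mul_assoc, st_r s1 s5, mul_assoc, s5,
      sub_eq_zero] at e2
  refine ⟨v, by rw [PI, e3, s5], ?_, by rw [e3, xs, ← mul_assoc, s2], k1, k2⟩
  rw [← hb, ← mul_assoc, vb, mul_assoc, ← xs]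

theorem exists_pi {x e f : A} (hx : x ≠ 0) (hf : f * x = x) (he : x * e = x) :
    ∃ v : A, v ≠ 0 ∧ PI v ∧ f * v = v ∧ v * e = v := by
  obtain ⟨v, h1, -, h3, h4, h5⟩ := polar x
  refine ⟨v, ?_, h1, osub_l.1 (h5 _ (osub_l.2 hf)), osub_r.1 (h4 _ (osub_r.2 he))⟩
  rintro rfl
  exact hx (by simpa using h3.symm)

theorem compare {e f : A} (he : IsStarProjection e) (hf : IsStarProjection f) :
    ∃ c : A, CP c ∧ Sb (e * c) f ∧ Sb (f * (1 - c)) e := by
  obtain ⟨W, ⟨h1, h2, h3⟩, h4⟩ := max_pi (fun v => PI v ∧ v * e = v ∧ f * v = v)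
    ⟨pi_zero, by simp, by simp⟩ (fun v h => h.1) fun U W a b c _ _ _ =>
      ⟨c, (b.rmul e).eq b (a.mono fun v h => h.2.1), (b.lmul f).eq b (a.mono fun v h => h.2.2)⟩
  obtain ⟨d, d1, d2, d3⟩ := exists_cs (e - star W * W)
  have a1 : W * (e - star W * W) = 0 := by rw [mul_sub, h2, h1, sub_self]
  have a2 : star W * (f - W * star W) = 0 := by
    rw [mul_sub, st_l hf h3]; simpa [sub_eq_zero] using h1.star.symm
  have a3 : (e - star W * W) * e = e - star W * W := by rw [sub_mul, pj_sq he, mul_assoc, h2]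
  have a4 : f * (f - W * star W) = f - W * star W := by rw [mul_sub, pj_sq hf, ← mul_assoc, h3]
  have p1 : IsStarProjection (e - star W * W) :=
    h1.ini.sub_of_mul_eq_left he (by rw [mul_assoc, h2])
  have p2 : IsStarProjection (f - W * star W) :=
    h1.fin.sub_of_mul_eq_right hf (by rw [← mul_assoc, h3])
  have k := d3 (f - W * star W) fun x => by
    by_contra hx
    obtain ⟨v, v1, v2, v3, v4⟩ := exists_pi (e := e - star W * W) (f := f - W * star W) hx
      (by rw [← mul_assoc, ← mul_assoc, pj_sq p2]) (by rw [mul_assoc, pj_sq p1])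
    have b1 : star W * v = 0 := by rw [← v3, ← mul_assoc, a2, zero_mul]
    have b2 : W * star v = 0 := by rw [← st_r p1 v4, ← mul_assoc, a1, zero_mul]
    refine v1 (h4 v b1 b2 ⟨h1.add v2 b1 b2, ?_, ?_⟩)
    · rw [add_mul, h2, ← v4, mul_assoc, a3]
    · rw [mul_add, h3, ← v3, ← mul_assoc, a4]
  refine ⟨1 - d, d1.one_sub, ⟨W * (1 - d), ?_, ?_, ?_⟩, star W * d, ?_, ?_, ?_⟩
  · rw [d1.one_sub.ini, ← sub_eq_zero, ← neg_eq_zero, neg_sub, ← sub_mul, ← d1.one_sub.2,
      osub_l.2 d2]
  · rw [d1.one_sub.mm, h2]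
  · rw [← mul_assoc, h3]
  · rw [d1.ini, star_star, sub_sub_cancel, ← sub_eq_zero, ← neg_eq_zero, neg_sub, ← sub_mul, k]
  · rw [sub_sub_cancel, d1.mm, st_l hf h3]
  · rw [← mul_assoc, st_r he h2]

end Vale.Agent.P082
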