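import Vale.Agent.P082.Spec

/-! Finite and properly infinite parts, coverings, halving. -/

namespace Vale.Agent.P082

open scoped InnerProductSpace
open Filter Topology Finset

variable {A : Type*} [CStarAlgebra A]

/-- Properly infinite projections. -/
def PInf (E : A) : Prop :=
  ∃ s t, star s * s = E ∧ star t * t = E ∧ star s * t = 0 ∧ E * s = s ∧ E * t = t

/-- No nonzero properly infinite projection lies below `q`. -/
def Fi (q : A) : Prop := ∀ E, IsStarProjection E → q * E = E → PInf E → E = 0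

theorem PInf.cut {E c : A} (h : PInf E) (hc : CP c) : PInf (E * c) := by
  obtain ⟨s, t, h1, h2, h3, h4, h5⟩ := h
  refine ⟨s * c, t * c, by rw [hc.ini, h1], by rw [hc.ini, h2], ?_, by rw [hc.mm, h4],
    by rw [hc.mm, h5]⟩
  rw [star_mul, mul_assoc, ← mul_assoc (star s), h3, zero_mul, mul_zero]

theorem PInf.move {E v : A} (h : PInf E) (h1 : star v * v = E) (h2 : v * E = v) :
    PInf (v * star v) := by
  obtain ⟨s, t, k1, k2, k3, k4, k5⟩ := h
  have e : ∀ s t, E * t = t → star (v * s * star v) * (v * t * star v)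
      = v * (star s * t) * star v := fun s t ht => by
    simp only [star_mul, star_star, mul_assoc]
    rw [← mul_assoc (star v) v, h1, ← mul_assoc E, ht]
  have e' : ∀ s, v * star v * (v * s * star v) = v * s * star v := fun s => by
    rw [← mul_assoc, ← mul_assoc, mul_assoc v (star v), h1, h2]
  exact ⟨v * s * star v, v * t * star v, by rw [e _ _ k4, k1, h2], by rw [e _ _ k5, k2, h2],
    by rw [e _ _ k5, k3, mul_zero, zero_mul], e' s, e' t⟩

/-- Abelian projections. -/
def Ab (r : A) : Prop :=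
  IsStarProjection r ∧ ∀ f x, IsStarProjection f → r * f = f → (r - f) * x * f = 0

/-- Matrix units. -/
structure MU {ι : Type*} [Fintype ι] [DecidableEq ι] (v : ι → A) (e z : A) : Prop where
  pj : IsStarProjection e
  orth : ∀ i j, star (v i) * v j = if i = j then e else 0
  sum : ∑ i, v i * star (v i) = z

theorem MU.ve {ι : Type*} [Fintype ι] [DecidableEq ι] {v : ι → A} {e z : A} (h : MU v e z)
    (i : ι) : v i * e = v i := by
  have := h.orth i i
  rw [if_pos rfl] at this
  have k := pi_of_ini (this ▸ h.pj)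
  rwa [PI, this] at k

theorem MU.zv {ι : Type*} [Fintype ι] [DecidableEq ι] {v : ι → A} {e z : A} (h : MU v e z)
    (i : ι) : z * v i = v i := by
  simp [← h.sum, sum_mul, mul_assoc, h.orth, h.ve]

variable {H : Type*} [NormedAddCommGroup H] [InnerProductSpace ℂ H] [CompleteSpace H] [VN A H]

include H

theorem Fi.no_seq {q r : A} (h : Fi q) (hr : IsStarProjection r) (u : ℕ → A)
    (hu : ∀ n m, star (u n) * u m = if n = m then r else 0) (hq : ∀ n, q * u n = u n) : r = 0 := by
  have ur : ∀ n, u n * r = u n := fun n => by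
    have := hu n n
    rw [if_pos rfl] at this
    have k := pi_of_ini (this ▸ hr)
    rwa [PI, this] at k
  let S : (ℕ → ℕ) → ℕ → A := fun σ N => ∑ n ∈ range N, u (σ n) * star (u n)
  have h1 : ∀ σ N m, m < N → S σ N * u m = u (σ m) := fun σ N m hm => by
    simp [S, sum_mul, mul_assoc, hu, ur, hm]
  have h2 : ∀ σ N m, σ.Injective → m < N → star (S σ N) * u (σ m) = u m := fun σ N m hσ hm => by
    simp [S, sum_mul, mul_assoc, hu, ur, hm, hσ.eq_iff]
  have h3 : ∀ σ N, σ.Injective → star (S σ N) * S σ N = S id N := fun σ N hσ => by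
    rw [mul_sum]
    exact sum_congr rfl fun m hm => by rw [← mul_assoc, h2 σ N m hσ (mem_range.1 hm)]; rfl
  have h4 : ∀ N, IsStarProjection (S id N) := fun N => by
    have : star (S id N) = S id N := by simp [S]
    exact ⟨by have := h3 id N Function.injective_id; rwa [‹star (S id N) = _›] at this, this⟩
  have key : ∀ σ : ℕ → ℕ, σ.Injective → ∃ W, WL (hyperfilter ℕ) (S σ) W := fun σ hσ =>
    (exists_wl _ (C := 1) (.of_forall fun N => (pi_of_ini (h3 σ N hσ ▸ h4 N)).norm_le)).imp
      fun _ h => h.2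
  have ev : ∀ m : ℕ, ∀ᶠ N : ℕ in (hyperfilter ℕ : Filter ℕ), m < N := fun m =>
    Nat.hyperfilter_le_atTop (eventually_gt_atTop m)
  obtain ⟨E, hE⟩ := key id Function.injective_id
  have Eu : ∀ m, E * u m = u m := fun m => (hE.rmul _).eq_const ((ev m).mono fun N => h1 id N m)
  have k1 : ∀ σ W, σ.Injective → WL (hyperfilter ℕ) (S σ) W → star W * W = E ∧ E * W = W :=
    fun σ W hσ hW => by
      have a : ∀ m, star W * u (σ m) = u m := fun m =>
        (hW.star.rmul _).eq_const ((ev m).mono fun N => h2 σ N m hσ)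
      exact ⟨(hW.lmul _).eq hE (.of_forall fun N => by simp [S, mul_sum, ← mul_assoc, a]),
        (hW.lmul _).eq hW (.of_forall fun N => by simp [S, mul_sum, ← mul_assoc, Eu])⟩
  have i1 : Function.Injective fun n : ℕ => 2 * n := fun a b h => by simpa using h
  have i2 : Function.Injective fun n : ℕ => 2 * n + 1 := fun a b h => by simpa using h
  obtain ⟨s, hs⟩ := key _ i1
  obtain ⟨t, ht⟩ := key _ i2
  have E0 : E = 0 := by
    refine h E ((k1 id E Function.injective_id hE).1 ▸ ⟨?_, IsSelfAdjoint.star_mul_self E⟩)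
      ((hE.lmul q).eq hE (.of_forall fun N => by simp [S, mul_sum, ← mul_assoc, hq]))
      ⟨s, t, (k1 _ s i1 hs).1, (k1 _ t i2 ht).1, ?_, (k1 _ s i1 hs).2, (k1 _ t i2 ht).2⟩
    · rw [IsIdempotentElem, (k1 id E Function.injective_id hE).1,
        (k1 id E Function.injective_id hE).2]
    · have a : ∀ m, star s * u (2 * m + 1) = 0 := fun m =>
        (hs.star.rmul _).eq_const (.of_forall fun N => by
          have : ∀ n, 2 * n ≠ 2 * m + 1 := fun n => by omega
          simp [S, sum_mul, mul_assoc, hu, this])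
      exact (ht.lmul _).eq_const (.of_forall fun N => by simp [S, mul_sum, ← mul_assoc, a])
  have := hu 0 0
  rwa [← Eu 0, E0, zero_mul, mul_zero, if_pos rfl, eq_comm] at this

theorem Fi.iso {q e v : A} (h : Fi q) (he : IsStarProjection e) (hq : q * e = e)
    (h1 : star v * v = e) (h2 : e * v = v) : v * star v = e := by
  have hv := pi_of_ini (h1 ▸ he)
  have hr : IsStarProjection (e - v * star v) :=
    hv.fin.sub_of_mul_eq_right he (by rw [← mul_assoc, h2])
  let u : ℕ → A := fun n => Nat.rec (e - v * star v) (fun _ x => v * x) n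
  have eu : ∀ n, e * u n = u n := fun n => by
    cases n with
    | zero => exact (show e * (e - v * star v) = e - v * star v by
        rw [mul_sub, pj_sq he, ← mul_assoc, h2])
    | succ n => exact (show e * (v * u n) = v * u n by rw [← mul_assoc, h2])
  have k : ∀ n, star (u 0) * u (n + 1) = 0 := fun n =>
    show star (e - v * star v) * (v * u n) = 0 by
      rw [pj_st hr, ← mul_assoc, sub_mul, h2, hv.l, sub_self, zero_mul]
  refine (sub_eq_zero.1 (h.no_seq hr u (fun n => ?_)
    fun n => by rw [← eu, ← mul_assoc, hq])).symm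
  induction n with
  | zero =>
    rintro (_ | m)
    · exact (show star (e - v * star v) * (e - v * star v) = _ by rw [pj_st hr, pj_sq hr]; simp)
    · simpa using k m
  | succ n ih =>
    rintro (_ | m)
    · simpa using st_zero (k n)
    · change star (v * u n) * (v * u m) = _
      rw [star_mul, mul_assoc, ← mul_assoc (star v), h1, eu, ih]
      simp

theorem Ab.sub {r f : A} (h : Ab r) (hf : IsStarProjection f) (e : r * f = f) :
    ∃ c, CP c ∧ f = r * c := by
  obtain ⟨c, h1, h2, h3⟩ := exists_cs f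
  have := h3 _ fun x => h.2 f x hf e
  exact ⟨c, h1, by rw [sub_mul, sub_eq_zero, ← h1.2 f, h2] at this; exact this.symm⟩

variable [PartialOrder A] [StarOrderedRing A]

theorem decomp : ∃ c : A, CP c ∧ PInf c ∧ Fi (1 - c) := by
  obtain ⟨⟨s, t⟩, ⟨p1, p2, p3, p4, p5, p6⟩, hm⟩ := zorn_lim
    (fun p : A × A => PI p.1 ∧ PI p.2 ∧ star p.2 * p.2 = star p.1 * p.1 ∧ star p.1 * p.2 = 0 ∧
      star p.1 * p.1 * p.1 = p.1 ∧ star p.1 * p.1 * p.2 = p.2)
    (fun p q => Ext p.1 q.1 ∧ Ext p.2 q.2) (fun h h' => ⟨h.1.trans h'.1, h.2.trans h'.2⟩)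
    (fun a h => ⟨.refl h.1, .refl h.2.1⟩) (x0 := 0) ⟨pi_zero, pi_zero, by simp⟩
    fun U c hc k1 k2 => by
      obtain ⟨s, a1, a2, a3, a4, -⟩ := chain_lim (x := Prod.fst) hc (fun a ha => (k1 a ha).1)
        fun a ha => (k2 a ha).mono fun b h => h.1
      obtain ⟨t, b1, b2, b3, b4, -⟩ := chain_lim (x := Prod.snd) hc (fun a ha => (k1 a ha).2.1)
        fun a ha => (k2 a ha).mono fun b h => h.2
      refine ⟨(s, t), ⟨a2, b2, b4.eq a4 (mem_of_superset hc fun a ha => (k1 a ha).2.2.1),
        (a1.star.rmul t).eq_const (mem_of_superset hc fun a ha => (b1.lmul _).eq_const ?_),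
        (a1.lmul _).eq a1 (mem_of_superset hc fun a ha => ?_),
        (b1.lmul _).eq b1 (mem_of_superset hc fun a ha => ?_)⟩, fun a ha => ⟨a3 a ha, b3 a ha⟩⟩
      · filter_upwards [k2 a ha, hc] with b h hb
        rw [← h.1.1, star_mul, mul_assoc, (k1 b hb).2.2.2.1, mul_zero]
      · change star s * s * a.1 = a.1
        rw [← (k1 a ha).2.2.2.2.1, ← mul_assoc, (a3 a ha).2]
      · change star s * s * a.2 = a.2
        rw [← (k1 a ha).2.2.2.2.2, ← mul_assoc, (a3 a ha).2]
  dsimp only at p1 p2 p3 p4 p5 p6 hm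
  have hE := p1.ini
  have tE : t * (star s * s) = t := by rw [← p3, p2]
  have sE : s * (star s * s) = s := p1
  have pE : PInf (star s * s) := ⟨s, t, rfl, p3, p4, p5, p6⟩
  have e1 : star s * s = star s * s := rfl
  generalize hE' : star s * s = E at hE tE sE pE p3 p5 p6
  have mx : ∀ F, IsStarProjection F → E * F = 0 → PInf F → F = 0 := by
    rintro F hF h0 ⟨s', t', k1, k2, k3, k4, k5⟩
    have o1 : ∀ x y, E * x = x → F * y = y → star x * y = 0 := fun x y hx hy => by
      rw [← st_l hE hx, ← hy, mul_assoc, ← mul_assoc E, h0, zero_mul, mul_zero]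
    have o2 : ∀ x y, x * E = x → y * F = y → x * star y = 0 := fun x y hx hy => by
      rw [← st_r hF hy, ← hx, mul_assoc, ← mul_assoc E, h0, zero_mul, mul_zero]
    have q1 := pi_of_ini (k1 ▸ hF)
    have q2 := pi_of_ini (k2 ▸ hF)
    have r1 : s' * F = s' := k1 ▸ q1
    have r2 : t' * F = t' := k2 ▸ q2
    have h0' : F * E = 0 := by simpa [pj_st hE, pj_st hF] using st_zero h0
    have z1 : ∀ x y, E * x = x → F * y = y → (E + F) * (x + y) = x + y := fun x y hx hy => by
      rw [add_mul, mul_add, mul_add, hx, hy, ← hy, ← mul_assoc, h0, ← hx, ← mul_assoc, h0']; simp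
    have i1 := PI.add_ini (o1 s s' p5 k4)
    have x1 := Ext.add p1 (o1 s s' p5 k4) (o2 s s' sE r1)
    have y1 := p1.add q1 (o1 s s' p5 k4) (o2 s s' sE r1)
    have := (hm (s + s', t + t') ⟨y1, p2.add q2 (o1 t t' p6 k5) (o2 t t' tE r2), ?_, ?_, ?_, ?_⟩
      ⟨x1, Ext.add p2 (o1 t t' p6 k5) (o2 t t' tE r2)⟩).1
    · have := x1.eq this p1 y1
      rw [left_eq_add] at this
      rw [← k1, this, mul_zero]
    · rw [i1, PI.add_ini (o1 t t' p6 k5), p3, k1, k2, hE']
    · have := st_zero (o1 t s' p6 k4)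
      rw [star_star] at this
      rw [star_add, add_mul, mul_add, mul_add, p4, k3, o1 s t' p5 k5, this]; simp
    · rw [i1, hE', k1, z1 _ _ p5 k4]
    · rw [i1, hE', k1, z1 _ _ p6 k5]
  obtain ⟨c, hc, ⟨w, w1, w2, w3⟩, v, v1, v2, v3⟩ := compare hE.one_sub hE
  have hv := pi_of_ini (v1 ▸ hc.one_sub.pj hE)
  have v0 := mx _ hv.fin (by rw [← v3, ← mul_assoc, ← mul_assoc, hE.mul_one_sub_self]; simp)
    ((pE.cut hc.one_sub).move v1 v2)
  have Ec : E * c = E := osub_r.1 (by rw [← v1, ← hv.l, v0, zero_mul, mul_zero])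
  have cE : c * E = E := by rw [hc.2, Ec]
  have u1 : star (s + t * w) * (s + t * w) = c := by
    rw [PI.add_ini (by rw [← mul_assoc, p4, zero_mul]), hE', star_mul, mul_assoc,
      ← mul_assoc (star t), p3, w3, w1, sub_mul, Ec, one_mul, add_sub_cancel]
  have u2 : E * (s + t * w) = s + t * w := by rw [mul_add, p5, ← mul_assoc, p6]
  refine ⟨c, hc, ⟨s * (s + t * w), t * (s + t * w), ?_, ?_, ?_, ?_, ?_⟩, fun F hF h => mx F hF ?_⟩
  · rw [star_mul, mul_assoc, ← mul_assoc (star s), hE', u2, u1]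
  · rw [star_mul, mul_assoc, ← mul_assoc (star t), p3, u2, u1]
  · rw [star_mul, mul_assoc, ← mul_assoc (star s), p4, zero_mul, mul_zero]
  · rw [← mul_assoc, ← p5, ← mul_assoc, cE]
  · rw [← mul_assoc, ← p6, ← mul_assoc, cE]
  · rw [← h, ← mul_assoc, osub_r.2 Ec, zero_mul]

theorem Fi.cover {q f : A} (h : Fi q) (hq : CP q) (hf : IsStarProjection f) (h0 : f ≠ 0)
    (hqf : q * f = f) : ∃ z, CP z ∧ z ≠ 0 ∧ q * z = z ∧ ∃ (ι : Type) (_ : Fintype ι) (w : ι → A),
      (∀ i, f * w i = w i) ∧ ∑ i, star (w i) * w i = z ∧ (∀ i, PI (w i)) ∧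
      ∀ i j, i ≠ j → w i * star (w j) = 0 := by
  classical
  obtain ⟨S, hS⟩ := zorn_subset {S : Set A | (∀ u ∈ S, star u * u = f ∧ q * u = u) ∧
      S.Pairwise fun u u' => star u * u' = 0} fun c hc hch =>
    ⟨⋃₀ c, ⟨fun u ⟨s, hs, hu⟩ => (hc hs).1 u hu, (Set.pairwise_sUnion hch.directedOn).2
      fun s hs => (hc hs).2⟩, fun s hs => Set.subset_sUnion_of_mem hs⟩
  obtain ⟨S1, S2⟩ := hS.prop
  have fin : S.Finite := by
    by_contra hi
    let u := Set.Infinite.natEmbedding S hi
    refine h0 (h.no_seq hf (fun n => u n) (fun n m => ?_) fun n => (S1 _ (u n).2).2)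
    split_ifs with e
    · rw [e]; exact (S1 _ (u m).2).1
    · exact S2 (u n).2 (u m).2 fun e' => e (u.injective (Subtype.ext e'))
  obtain ⟨n, u, ui, rfl⟩ := fin.fin_param
  simp only [Set.forall_mem_range] at S1
  have pu : ∀ i, PI (u i) := fun i => pi_of_ini ((S1 i).1 ▸ hf)
  have uf : ∀ i, u i * f = u i := fun i => (S1 i).1 ▸ pu i
  have ou : ∀ i j, star (u i) * u j = if i = j then f else 0 := fun i j => by
    split_ifs with e
    · rw [e]; exact (S1 j).1
    · exact S2 ⟨i, rfl⟩ ⟨j, rfl⟩ fun e' => e (ui e')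
  have Pu : ∀ j, (∑ i, u i * star (u i)) * u j = u j := fun j => by
    simp [sum_mul, mul_assoc, ou, uf]
  have hP : IsStarProjection (∑ i, u i * star (u i)) :=
    ⟨by rw [IsIdempotentElem, mul_sum]; simp [← mul_assoc, Pu], by simp [IsSelfAdjoint]⟩
  have hR := hP.sub_of_mul_eq_right hq.1 (by simp [mul_sum, ← mul_assoc, (S1 _).2])
  have Ru : ∀ j, (q - ∑ i, u i * star (u i)) * u j = 0 := fun j => by
    rw [sub_mul, Pu, (S1 j).2, sub_self]
  obtain ⟨c, hc, ⟨v, v1, v2, v3⟩, hs⟩ := compare hR hf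
  have fc : f * c ≠ 0 := fun e => by
    rw [mul_sub, e, sub_zero, mul_one] at hs
    obtain ⟨y, y1, y2, y3⟩ := hs
    have y4 : ∀ j, star y * u j = 0 := fun j => by
      rw [← st_l hR y3, mul_assoc, Ru, mul_zero]
    obtain ⟨j, hj⟩ := hS.le_of_ge (y := insert y (Set.range u)) ⟨by
      rintro _ (rfl | ⟨j, rfl⟩)
      · refine ⟨y1, ?_⟩
        rw [← y3, ← mul_assoc, mul_sub, pj_sq hq.1]
        simp [mul_sum, ← mul_assoc, (S1 _).2]
      · exact S1 j, S2.insert (by
        rintro _ ⟨j, rfl⟩ -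
        exact ⟨y4 j, by simpa using st_zero (y4 j)⟩)⟩ (Set.subset_insert _ _) (Set.mem_insert _ _)
    exact h0 (by rw [← y1]; nth_rw 2 [← hj]; exact y4 j)
  have vu : ∀ j, v * star (star (u j) * c) = 0 := fun j => by
    rw [star_mul, star_star, pj_st hc.1, ← v2, mul_assoc, mul_assoc, pj_sq' hc.1, hc.2,
      ← mul_assoc _ (u j), Ru, zero_mul, mul_zero]
  refine ⟨q * c, hq.mul hc, fun e => fc (by rw [← hqf, hq.2, mul_assoc, e, mul_zero]),
    pj_sq' hq.1 c, Option (Fin n), inferInstance, fun o => o.elim v fun j => star (u j) * c,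
    ?_, ?_, ?_, ?_⟩
  · rintro (_ | j)
    · exact v3
    · exact (show f * (star (u j) * c) = star (u j) * c by rw [← mul_assoc, st_r hf (uf j)])
  · simp only [Fintype.sum_option, Option.elim, v1, hc.ini, star_star, ← sum_mul, ← add_mul,
      sub_add_cancel]
  · rintro (_ | j)
    · exact pi_of_ini (v1 ▸ hc.pj hR)
    · exact pi_of_ini (by simpa only [Option.elim, hc.ini, star_star] using hc.pj (pu j).fin)
  · rintro (_ | i) (_ | j) e
    · exact absurd rfl e
    · exact vu j
    · simpa using st_zero (vu i)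
    · have : i ≠ j := fun e' => e (by rw [e'])
      change star (u i) * c * star (star (u j) * c) = 0
      rw [star_mul, star_star, pj_st hc.1, hc.2, hc.mm, ou, if_neg this, zero_mul]

theorem halve {q e : A} (hq : ∀ r, Ab r → q * r = r → r = 0) (he : IsStarProjection e)
    (hqe : q * e = e) : ∃ w, PI w ∧ w * w = 0 ∧ star w * w + w * star w = e := by
  obtain ⟨W, ⟨h1, h2, h3, h4⟩, hm⟩ := max_pi (fun v => PI v ∧ e * v = v ∧ v * e = v ∧ v * v = 0)
    ⟨pi_zero, by simp⟩ (fun v h => h.1) fun U W a b c d _ _ =>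
      ⟨c, (b.lmul e).eq b (a.mono fun v h => h.2.1), (b.rmul e).eq b (a.mono fun v h => h.2.2.1),
        (b.lmul W).eq_const (d.mono fun v hv => (b.rmul v).eq_const (by
          filter_upwards [a, hv] with w h h'
          rw [← h'.1, ← mul_assoc, h.2.2.2, zero_mul]))⟩
  have hP := h1.ini.add h1.fin (by rw [mul_assoc, ← mul_assoc W, h4]; simp)
  have hr := hP.sub_of_mul_eq_right he (by
    rw [mul_add, ← mul_assoc, ← mul_assoc, st_r he h3, h2])
  have er : e * (e - (star W * W + W * star W)) = e - (star W * W + W * star W) := by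
    rw [mul_sub, pj_sq he, mul_add, ← mul_assoc, ← mul_assoc, st_r he h3, h2]
  have a1 : W * (e - (star W * W + W * star W)) = 0 := by
    rw [mul_sub, h3, mul_add, h1, ← mul_assoc, h4]; simp
  have a2 : (e - (star W * W + W * star W)) * W = 0 := by
    rw [sub_mul, h2, add_mul, h1.l, mul_assoc, h4]; simp
  refine ⟨W, h1, h4, (sub_eq_zero.1 (hq _ ⟨hr, fun f x hf h => ?_⟩
    (by rw [← er, ← mul_assoc, hqe]))).symm⟩
  generalize e - (star W * W + W * star W) = r at hr er a1 a2 h
  by_contra hx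
  have hd := hf.sub_of_mul_eq_right hr h
  obtain ⟨v, v1, v2, v3, v4⟩ := exists_pi (e := f) (f := r - f) hx
    (by rw [← mul_assoc, ← mul_assoc, pj_sq hd]) (by rw [mul_assoc, pj_sq hf])
  have fr : f * r = f := by simpa [pj_st hf] using st_l hr h
  have b1 : r * v = v := by rw [← v3, ← mul_assoc, mul_sub, pj_sq hr, h]
  have b2 : v * r = v := by rw [← v4, mul_assoc, fr]
  have c1 : star W * v = 0 := by
    have := st_zero a2
    rw [pj_st hr] at this
    rw [← b1, ← mul_assoc, this, zero_mul]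
  have c2 : W * star v = 0 := by rw [← st_r hr b2, ← mul_assoc, a1, zero_mul]
  have re : r * e = r := by simpa [pj_st hr] using st_l he er
  refine v1 (hm v c1 c2 ⟨h1.add v2 c1 c2, ?_, ?_, ?_⟩)
  · rw [mul_add, h2, ← b1, ← mul_assoc, er]
  · rw [add_mul, h3, ← b2, mul_assoc, re]
  · have d1 : W * v = 0 := by rw [← b1, ← mul_assoc, a1, zero_mul]
    have d2 : v * W = 0 := by rw [← b2, mul_assoc, a2, mul_zero]
    have d3 : v * v = 0 := by
      nth_rw 1 [← v4]
      rw [← v3, mul_assoc, ← mul_assoc f, mul_sub, fr, pj_sq hf]; simp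
    rw [add_mul, mul_add, mul_add, h4, d1, d2, d3]; simp

theorem tower {z : A} (hz : IsStarProjection z) (hq : ∀ r, Ab r → z * r = r → r = 0) (j : ℕ) :
    ∃ (ι : Type) (_ : Fintype ι) (_ : DecidableEq ι) (v : ι → A) (o : ι),
      Fintype.card ι = 2 ^ j ∧ MU v (v o) z := by
  induction j with
  | zero => exact ⟨Unit, inferInstance, inferInstance, fun _ => z, (), rfl, hz,
      by simp [pj_st hz, pj_sq hz], by simp [pj_st hz, pj_sq hz]⟩
  | succ j ih =>
    obtain ⟨ι, _, _, v, o, hc, h⟩ := ih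
    obtain ⟨w, h1, h2, h3⟩ := halve hq h.pj (h.zv o)
    have e1 : v o * (star w * w) = star w * w := by
      rw [← h3, add_mul, pj_sq h1.ini, mul_assoc, ← mul_assoc (star w), st_zero h2]; simp
    have e2 : v o * w = w := by rw [← h3, add_mul, h1.l, mul_assoc, h2]; simp
    refine ⟨ι × Bool, inferInstance, inferInstance,
      fun p => v p.1 * (if p.2 then star w * w else w), (o, true), by simp [hc, pow_succ], ?_⟩
    simp only [if_true, e1]
    refine ⟨h1.ini, ?_, ?_⟩
    · rintro ⟨i, a⟩ ⟨j, b⟩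
      rw [star_mul, mul_assoc, ← mul_assoc (star (v i)), h.orth]
      by_cases e : i = j
      · have k1 : star w * w * w = 0 := by rw [mul_assoc, h2, mul_zero]
        have k2 := st_zero k1
        rw [pj_st h1.ini] at k2
        cases a <;> cases b <;> simp [e, e1, e2, pj_sq h1.ini, k1, k2]
      · simp [e]
    · rw [Fintype.sum_prod_type, ← h.sum]
      refine sum_congr rfl fun i _ => ?_
      rw [Fintype.sum_bool]
      simp only [if_true, Bool.false_eq_true, if_false, star_mul (v i), pj_st h1.ini]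
      rw [mul_assoc, pj_sq' h1.ini, mul_assoc (v i) w, ← mul_add, ← mul_assoc w, ← add_mul, h3,
        ← mul_assoc, h.ve]

end Vale.Agent.P082
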